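import Vale.Agent.P067.Zig

/-! P067: Fourier decomposition along an elementary abelian normal subgroup. -/

set_option linter.unusedSectionVars false

namespace Vale.Agent.P067
open Finset Module Zig

theorem Cob.add {G ι k : Type} [Group G] [DecidableEq ι] [AddCommGroup k] {K : ι → Subgroup G}
    {B : Subgroup G} {S : Finset ι} {t : ℕ} {a a' : Finset ι → G → k} (h : Cob K B S t a)
    (h' : Cob K B S t a') : Cob K B S t (a + a') := by
  obtain ⟨b, b1, b2⟩ := h
  obtain ⟨b', b1', b2'⟩ := h'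
  exact ⟨b + b', inv_add b1 b1', fun T hT ht g hg => by
    rw [dl_add, ← b2 T hT ht g hg, ← b2' T hT ht g hg]; rfl⟩

theorem Cob.sum {G ι k α : Type} [Group G] [DecidableEq ι] [AddCommGroup k] {K : ι → Subgroup G}
    {B : Subgroup G} {S : Finset ι} {t : ℕ} (s : Finset α) (a : α → Finset ι → G → k)
    (h : ∀ i ∈ s, Cob K B S t (a i)) : Cob K B S t (∑ i ∈ s, a i) := by
  classical
  induction s using Finset.induction_on with
  | empty => exact ⟨0, fun _ _ _ _ _ _ => rfl, fun T _ _ g _ => by simp [dl]⟩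
  | insert i s hi ih =>
    rw [sum_insert hi]
    exact (h i (mem_insert_self _ _)).add (ih fun j hj => h j (mem_insert_of_mem hj))

theorem fourier {G ι k V : Type} [Group G] [Fintype ι] [DecidableEq ι] [Field k] {p : ℕ}
    [Fact p.Prime] [AddCommGroup V] [Module (ZMod p) V] [Finite V] (h2 : ∀ x : k, x + x = 0)
    (hp : (p : k) = 1) (ψ : AddChar (ZMod p) k) (hψ : ∀ x, ψ x = 1 → x = 0)
    (K : ι → Subgroup G) (H Q : Subgroup G) (on : V → G) (act : G → V → V)
    (hadd : ∀ x y, on (x + y) = on x * on y) (hon : ∀ x, on x ∈ H) (hQ : Q ≤ H)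
    (hact : ∀ q ∈ Q, ∀ x, q * on x = on (act q x) * q)
    (hdec : ∀ g ∈ H, ∃ x, ∃ q ∈ Q, g = on x * q) (huq : ∀ x, on x ∈ Q → x = 0)
    (hK : ∀ τ x, ∀ q ∈ Q, on x * q ∈ K τ → q ∈ K τ) (t : ℕ)
    (hM : ∀ l : Dual (ZMod p) V, l ≠ 0 → ∀ a : Finset ι → G → k, Inv K Q Q a → Coc Q univ t a →
      (∀ T, ∀ q ∈ Q, ∀ x, on x ∈ KT K T → l (act q x) ≠ 0 → a T q = 0) →
      ∃ b, Inv K Q Q b ∧ (∀ T, ∀ q ∈ Q, ∀ x, on x ∈ KT K T → l (act q x) ≠ 0 → b T q = 0) ∧
        ∀ T, T.card = t → ∀ q ∈ Q, a T q = dl b T q)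
    (f : Finset ι → G → k) (f1 : Inv K H H f) (f2 : Coc H univ t f) :
    (∀ y, Cob K H univ t fun T g => f T (on y * g) + f T g) ∧
      (Cob K Q univ t f → Cob K H univ t f) := by
  classical
  haveI := Fintype.ofFinite V
  haveI : Finite (Dual (ZMod p) V) := Finite.of_injective _ DFunLike.coe_injective
  haveI := Fintype.ofFinite (Dual (ZMod p) V)
  have on0 : on 0 = 1 := by
    have := hadd 0 0
    rw [add_zero] at this
    exact left_eq_mul.1 this
  choose! rc bar hb1 hb2 using hdec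
  have huq' : ∀ x, ∀ q ∈ Q, rc (on x * q) = x ∧ bar (on x * q) = q := by
    intro x q hq
    have hg : on x * q ∈ H := mul_mem (hon x) (hQ hq)
    have e := hb2 _ hg
    have e1 : on (-rc (on x * q) + x) = bar (on x * q) * q⁻¹ := by
      generalize rc (on x * q) = y at e
      generalize bar (on x * q) = r at e
      rw [hadd, eq_mul_inv_iff_mul_eq, mul_assoc, e, ← mul_assoc, ← hadd, neg_add_cancel, on0,
        one_mul]
    have e2 := huq _ (e1 ▸ mul_mem (hb1 _ hg) (inv_mem hq))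
    rw [e2, on0] at e1
    exact ⟨(neg_add_eq_zero.1 e2), (mul_inv_eq_one.1 e1.symm)⟩
  obtain ⟨F, hF⟩ : ∃ F : Dual (ZMod p) V → Finset ι → G → k,
    F = fun l T g => ∑ x, ψ (-l x) * f T (on x * g) := ⟨_, rfl⟩
  have F1 : ∀ l, Inv K H H (F l) := fun l T g hg u hu hT => by
    simp only [hF]
    exact sum_congr rfl fun x _ => by rw [← mul_assoc, f1 T _ (mul_mem (hon x) hg) u hu hT]
  have F2 : ∀ l, Coc H univ t (F l) := fun l T hT ht g hg => by
    simp only [hF, dl]
    rw [sum_comm]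
    refine sum_eq_zero fun x _ => ?_
    rw [← mul_sum]
    exact mul_eq_zero_of_right _ (f2 T hT ht _ (mul_mem (hon x) hg))
  have F3 : ∀ l T y g, F l T (on y * g) = ψ (l y) * F l T g := fun l T y g => by
    simp only [hF, mul_sum]
    refine Fintype.sum_equiv (Equiv.addRight y) _ _ fun x => ?_
    rw [Equiv.coe_addRight, ← mul_assoc (ψ _), ← AddChar.map_add_eq_mul, hadd, mul_assoc, map_add l]
    congr 2
    ring
  have F4 : ∀ T g, ∑ l, F l T g = f T g := fun T g => by
    simp only [hF]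
    rw [sum_comm, sum_eq_single 0]
    · have : ((Fintype.card (Dual (ZMod p) V) : ℕ) : k) = 1 := by
        rw [Module.card_eq_pow_finrank (K := ZMod p), ZMod.card, Nat.cast_pow, hp, one_pow]
      simp [on0, this]
    · intro x _ hx
      rw [← sum_mul]
      refine mul_eq_zero_of_left ?_ _
      obtain ⟨l, hl⟩ : ∃ l : Dual (ZMod p) V, l x ≠ 0 := by
        by_contra c
        exact hx ((forall_dual_apply_eq_zero_iff (ZMod p) x).1 (by simpa using c))
      refine AddChar.sum_eq_zero_of_ne_one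
        (ψ := ψ.compAddMonoidHom (-(Dual.eval (ZMod p) V x).toAddMonoidHom)) fun c => hl ?_
      have := hψ (-l x) (DFunLike.congr_fun c l)
      exact neg_eq_zero.1 this
    · simp
  have lift : ∀ (l : Dual (ZMod p) V) (b : Finset ι → G → k), Inv K Q Q b →
      (∀ T, ∀ q ∈ Q, ∀ x, on x ∈ KT K T → l (act q x) ≠ 0 → b T q = 0) →
      (∀ T, T.card = t → ∀ q ∈ Q, F l T q = dl b T q) → Cob K H univ t (F l) := by
    intro l b b1 b2 b3
    refine ⟨fun T g => ψ (l (rc g)) * b T (bar g), fun T g hg u hu hT => ?_, fun T _ ht g hg => ?_⟩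
    · have r1 : bar u ∈ KT K T :=
        mem_KT.2 fun τ hτ => hK τ (rc u) _ (hb1 u hu) (hb2 u hu ▸ mem_KT.1 hT τ hτ)
      have r2 : on (rc u) ∈ KT K T := by
        have := mul_mem hT (inv_mem r1)
        rwa [mul_inv_eq_iff_eq_mul.2 (hb2 u hu)] at this
      have e : g * u = on (rc g + act (bar g) (rc u)) * (bar g * bar u) := by
        rw [hadd, mul_assoc, ← mul_assoc (on (act _ _)), ← hact _ (hb1 g hg), mul_assoc,
          ← hb2 u hu, ← mul_assoc, ← hb2 g hg]
      obtain ⟨e1, e2⟩ := huq' (rc g + act (bar g) (rc u)) _ (mul_mem (hb1 g hg) (hb1 u hu))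
      simp only [e, e1, e2]
      rw [b1 T _ (hb1 g hg) _ (hb1 u hu) r1, map_add]
      by_cases c : l (act (bar g) (rc u)) = 0
      · rw [c, add_zero]
      · rw [b2 T _ (hb1 g hg) _ r2 c, mul_zero, mul_zero]
    · have := F3 l T (rc g) (bar g)
      rw [← hb2 g hg, b3 T ht _ (hb1 g hg), dl, mul_sum] at this
      exact this
  have main : Cob K H univ t (∑ l ∈ univ.erase 0, F l) := by
    refine Cob.sum _ _ fun l hl => ?_
    obtain ⟨b, b1, b2, b3⟩ := hM l (ne_of_mem_erase hl) (F l)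
      (fun T g hg u hu hT => F1 l T g (hQ hg) u (hQ hu) hT)
      (fun T hT ht g hg => F2 l T hT ht g (hQ hg)) fun T q hq x hx hne => by
        have := F1 l T q (hQ hq) _ (hon x) hx
        rw [hact q hq, F3] at this
        by_contra c
        exact hne (hψ _ (mul_right_cancel₀ c (this.trans (one_mul _).symm)))
    exact lift l b b1 b2 b3
  obtain ⟨b, b1, b2⟩ := main
  have b3 : ∀ T, T.card = t → ∀ g ∈ H, f T g = F 0 T g + dl b T g := fun T ht g hg => by
    rw [← b2 T (subset_univ _) ht g hg, ← F4, ← add_sum_erase _ _ (mem_univ 0)]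
    simp only [Finset.sum_apply]
  refine ⟨fun y => ⟨(fun T g => b T (on y * g)) + b, inv_add (fun T g hg u hu hT => ?_) b1,
    fun T _ ht g hg => ?_⟩, ?_⟩
  · simp only [← mul_assoc]
    exact b1 T _ (mul_mem (hon y) hg) u hu hT
  · simp only []
    rw [b3 T ht g hg, b3 T ht _ (mul_mem (hon y) hg), F3, dl_add, LinearMap.zero_apply,
      AddChar.map_zero_eq_one, one_mul, add_add_add_comm, h2, zero_add]
    rfl
  · rintro ⟨c, c1, c2⟩
    obtain ⟨b', b1', b2'⟩ := lift 0 (c + b)
      (inv_add c1 fun T g hg u hu hT => b1 T g (hQ hg) u (hQ hu) hT) (by simp) fun T ht q hq => by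
        rw [dl_add, ← c2 T (subset_univ _) ht q hq, b3 T ht q (hQ hq), add_assoc, h2, add_zero]
    exact ⟨b' + b, inv_add b1' b1, fun T hT ht g hg => by
      rw [dl_add, ← b2' T hT ht g hg, b3 T ht g hg]⟩

end Vale.Agent.P067
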