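import Vale.Agent.P067.Base

/-! P067: linear algebra of subspaces opposite to a block flag. -/

set_option linter.unusedSectionVars false

namespace Vale.Agent.P067
open Finset Module

namespace Lk
variable {F J : Type} [Field F] [Fintype J] [DecidableEq J] (ps : J → ℕ)

/-- coordinate subspace -/
def CS (P : J → Prop) : Submodule F (J → F) where
  carrier := {x | ∀ j, P j → x j = 0}
  add_mem' := fun ha hb j hj => by simp [ha j hj, hb j hj]
  zero_mem' := fun _ _ => rfl
  smul_mem' := fun c x hx j hj => by simp [hx j hj]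

theorem mem_CS {P : J → Prop} {x : J → F} : x ∈ CS P ↔ ∀ j, P j → x j = 0 := Iff.rfl

theorem finrank_CS (P : J → Prop) [DecidablePred P] :
    finrank F (CS (F := F) P) + (univ.filter P).card = Fintype.card J := by
  let f := LinearMap.funLeft F F (Subtype.val : {j // P j} → J)
  have h1 : LinearMap.ker f = CS P := by
    ext x
    simp [f, mem_CS, funext_iff, LinearMap.funLeft_apply]
  have h2 : LinearMap.range f = ⊤ :=
    LinearMap.range_eq_top.2 (LinearMap.funLeft_surjective_of_injective _ _ _ Subtype.val_injective)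
  have h3 := LinearMap.finrank_range_add_finrank_ker f
  rw [h1, h2] at h3
  rw [finrank_top, finrank_fintype_fun_eq_card, finrank_fintype_fun_eq_card,
    Fintype.card_subtype, add_comm] at h3
  exact h3

/-- standard complement -/
def W0 (e : ℕ) : Submodule F (J → F) := CS fun j => e ≤ ps j

/-- the block flag -/
def Fb (e : ℕ) : Submodule F (J → F) := CS fun j => ps j < e

/-- dimension of the standard complement -/
def dm (e : ℕ) : ℕ := (univ.filter fun j => ps j < e).card

theorem finrank_Fb (e : ℕ) : finrank F (Fb (F := F) ps e) + dm ps e = Fintype.card J :=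
  finrank_CS _

theorem finrank_W0 (e : ℕ) : finrank F (W0 (F := F) ps e) = dm ps e := by
  have h1 := finrank_CS (F := F) fun j => e ≤ ps j
  have h2 := card_filter_add_card_filter_not (s := (univ : Finset J)) fun j => ps j < e
  simp only [not_lt, card_univ] at h2
  unfold W0 dm
  omega

theorem W0_mono {e e' : ℕ} (h : e ≤ e') : W0 (F := F) ps e ≤ W0 ps e' :=
  fun _ hx j hj => hx j (h.trans hj)

theorem exists_Fl : ∃ Fl : ℕ → Submodule F (J → F), Antitone Fl ∧
    (∀ m ≤ Fintype.card J, finrank F (Fl m) + m = Fintype.card J) ∧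
    ∀ e, Fl (dm ps e) = Fb ps e := by
  let e0 := Fintype.equivFin J
  let f : Fin (Fintype.card J) → ℕ := ps ∘ e0.symm
  let r : J ≃ Fin (Fintype.card J) := e0.trans (Tuple.sort f).symm
  have hr : ∀ j, (f ∘ Tuple.sort f) (r j) = ps j := fun j => by simp [r, f]
  have hc : ∀ (Q : Fin (Fintype.card J) → Prop) [DecidablePred Q],
      (univ.filter fun j => Q (r j)).card = (univ.filter Q).card := by
    intro Q _
    exact card_bijective r r.bijective (by simp)
  refine ⟨fun m => CS fun j => (r j : ℕ) < m, fun a b hab x hx j hj => hx j (by omega),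
    fun m hm => ?_, fun e => ?_⟩
  · have h1 := finrank_CS (F := F) fun j => (r j : ℕ) < m
    rw [hc fun i => (i : ℕ) < m, Fin.card_filter_val_lt, min_eq_right hm] at h1
    exact h1
  · have key : ∀ j, (r j : ℕ) < dm ps e ↔ ps j < e := by
      intro j
      have h1 := Tuple.lt_card_lt_iff_apply_lt_of_monotone (j := r j) (a := e)
        (Tuple.monotone_sort f)
      rw [hr, ← hc fun i => (f ∘ Tuple.sort f) i < e] at h1
      simp only [hr] at h1
      exact h1
    simp only [key, Fb]

/-- block unitriangular -/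
def Low (a : Matrix J J F) : Prop := ∀ i j, ¬ ps j < ps i → a i j = (1 : Matrix J J F) i j

variable {ps}

theorem Low.map_Fb {a : Matrix J J F} (ha : Low ps a) {e : ℕ} {x : J → F} (hx : x ∈ Fb ps e) :
    a.mulVec x ∈ Fb ps e := by
  intro i hi
  refine sum_eq_zero fun j _ => ?_
  by_cases hj : ps j < e
  · simp [hx j hj]
  · show a i j * x j = 0
    rw [ha i j (by omega), Matrix.one_apply_ne (by rintro rfl; omega), zero_mul]

/-- translate of the standard complement -/
def vt (ps : J → ℕ) (a : Matrix J J F) (e : ℕ) : Submodule F (J → F) :=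
  (W0 ps e).map (Matrix.mulVecLin a)

theorem finrank_vt {a a' : Matrix J J F} (h : a' * a = 1) (e : ℕ) :
    finrank F (vt ps a e) = dm ps e := by
  have hi : Function.Injective (Matrix.mulVecLin a) := by
    intro x y hxy
    have := congrArg a'.mulVec hxy
    simpa [Matrix.mulVec_mulVec, h] using this
  rw [← finrank_W0 (F := F)]
  exact (Submodule.equivMapOfInjective _ hi _).finrank_eq.symm

theorem vt_inf {a a' : Matrix J J F} (h : a' * a = 1) (ha' : Low ps a') (e : ℕ) :
    vt ps a e ⊓ Fb ps e = ⊥ := by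
  rw [eq_bot_iff]
  rintro x ⟨⟨w, hw, rfl⟩, hx⟩
  have h1 := ha'.map_Fb hx
  simp only [Matrix.mulVecLin_apply, Matrix.mulVec_mulVec, h, Matrix.one_mulVec] at h1
  have : w = 0 := funext fun j => by
    by_cases hj : ps j < e
    · exact h1 j hj
    · exact hw j (not_lt.1 hj)
  simp [this]

theorem vt_mul (a b : Matrix J J F) (e : ℕ) :
    vt ps (a * b) e = (vt ps b e).map (Matrix.mulVecLin a) := by
  simp [vt, Matrix.mulVecLin_mul, Submodule.map_comp]

theorem vt_one (e : ℕ) : vt ps (1 : Matrix J J F) e = W0 ps e := by simp [vt]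

theorem vt_le_iff {a : Matrix J J F} {e : ℕ} {W : Submodule F (J → F)} :
    vt ps a e ≤ W ↔ ∀ j, ps j < e → (fun i => a i j) ∈ W := by
  constructor
  · intro H j hj
    refine H ⟨Pi.single j 1, fun i hi => Pi.single_eq_of_ne (by rintro rfl; omega) _, ?_⟩
    ext i
    simp
  · rintro H _ ⟨x, hx, rfl⟩
    have : (Matrix.mulVecLin a) x = ∑ j, x j • fun i => a i j := by
      ext i
      simp [Matrix.mulVec, dotProduct, mul_comm]
    rw [this]
    refine Submodule.sum_mem _ fun j _ => ?_
    by_cases hj : ps j < e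
    · exact Submodule.smul_mem _ _ (H j hj)
    · simp [hx j (not_lt.1 hj)]

theorem vt_eq_W0 {a a' : Matrix J J F} (h : a' * a = 1) {e : ℕ} :
    vt ps a e = W0 ps e ↔ ∀ i j, ps j < e → e ≤ ps i → a i j = 0 := by
  constructor
  · intro H i j hj hi
    exact vt_le_iff.1 H.le j hj i hi
  · intro H
    refine Submodule.eq_of_le_of_finrank_eq (vt_le_iff.2 fun j hj i hi => H i j hj hi) ?_
    rw [finrank_vt h, finrank_W0]

theorem exists_low (C : Finset (Submodule F (J → F))) (hC : ∀ W ∈ C, ∀ W' ∈ C, W ≤ W' ∨ W' ≤ W) :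
    ∃ a : Matrix J J F, Low ps a ∧ ∀ W ∈ C, ∀ e, finrank F W = dm ps e → W ⊓ Fb ps e = ⊥ →
      vt ps a e ≤ W := by
  classical
  have key : ∀ j, ∃ x : J → F, x - Pi.single j 1 ∈ Fb ps (ps j + 1) ∧
      ∀ W ∈ C, ∀ e, finrank F W = dm ps e → W ⊓ Fb ps e = ⊥ → ps j < e → x ∈ W := by
    intro j
    let Cj := C.filter fun W : Submodule F (J → F) => ∃ e, finrank F W = dm ps e ∧ W ⊓ Fb ps e = ⊥ ∧ ps j < e
    by_cases hne : Cj.Nonempty
    · obtain ⟨W, hW, hmin⟩ := exists_min_image Cj (fun W : Submodule F (J → F) => finrank F W) hne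
      obtain ⟨hWC, e, h1, h2, h3⟩ := mem_filter.1 hW
      have htop : W ⊔ Fb ps e = ⊤ := by
        apply Submodule.eq_top_of_finrank_eq
        have a1 := Submodule.finrank_sup_add_finrank_inf_eq W (Fb ps e)
        have a2 := finrank_Fb (F := F) ps e
        rw [h2, finrank_bot] at a1
        rw [finrank_fintype_fun_eq_card]
        omega
      obtain ⟨w, hw, f, hf, e1⟩ := Submodule.mem_sup.1
        (htop ▸ Submodule.mem_top : (Pi.single j 1 : J → F) ∈ W ⊔ Fb ps e)
      refine ⟨w, fun i hi => ?_, fun W' hW' e' a1 a2 a3 => ?_⟩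
      · have := hf i (by omega)
        rw [← e1]
        simp [this]
      · have := hmin W' (mem_filter.2 ⟨hW', e', a1, a2, a3⟩)
        rcases hC W hWC W' hW' with c | c
        · exact c hw
        · rw [Submodule.eq_of_le_of_finrank_le c this]; exact hw
    · refine ⟨Pi.single j 1, by simp, fun W hW e a1 a2 a3 => ?_⟩
      exact absurd ⟨W, mem_filter.2 ⟨hW, e, a1, a2, a3⟩⟩ hne
  choose col h1 h2 using key
  refine ⟨Matrix.of fun i j => col j i, fun i j hij => ?_, fun W hW e a1 a2 =>
    vt_le_iff.2 fun j hj => h2 j W hW e a1 a2 hj⟩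
  have := h1 j i (by omega)
  rw [Pi.sub_apply, sub_eq_zero] at this
  simp [this, Matrix.one_apply, Pi.single_apply]

end Lk

end Vale.Agent.P067
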