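import Vale.Agent.P067.Base

/-! P067: transfer of a cone from a concrete complex to a coset complex. -/

set_option linter.unusedSectionVars false

namespace Vale.Agent.P067
open Finset

theorem cone_transfer {G ι W : Type} [Group G] [DecidableEq ι] [DecidableEq W]
    (K : ι → Subgroup G) (B : Subgroup G) (S : Finset ι) (good : ι → G → Prop) (R : ℕ)
    (v : ι → G → W) (Face : Finset W → Prop)
    (h1 : ∀ g ∈ B, ∀ g' ∈ B, ∀ τ ∈ S, ∀ τ' ∈ S, (v τ g = v τ' g' ↔ τ = τ' ∧ g⁻¹ * g' ∈ K τ))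
    (h2 : ∀ T ⊆ S, ∀ g ∈ B, (∀ τ ∈ T, good τ g) → Face (T.image fun τ => v τ g))
    (h3 : ∀ ρ, Face ρ → ∃ q : Finset ι × G, q.1 ⊆ S ∧ q.2 ∈ B ∧ (∀ τ ∈ q.1, good τ q.2) ∧
      (q.1.image fun τ => v τ q.2) = ρ)
    (c : Finset W → Finset (Finset W))
    (hc : ∀ ρ, Face ρ → ρ.card + 1 ≤ S.card →
        (c ρ).card ≤ R ∧ (∀ ρ' ∈ c ρ, Face ρ' ∧ ρ'.card = ρ.card + 1) ∧
        ∀ (k : Type) [AddCommGroup k], (∀ x : k, x + x = 0) → ∀ a : Finset W → k,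
            ∑ ρ' ∈ c ρ, ∑ W ∈ ρ', a (ρ'.erase W) = a ρ + ∑ W ∈ ρ, ∑ ρ' ∈ c (ρ.erase W), a ρ') :
    Cone K B S good R := by
  classical
  have h3' : ∀ ρ, ∃ q : Finset ι × G, Face ρ → q.1 ⊆ S ∧ q.2 ∈ B ∧ (∀ τ ∈ q.1, good τ q.2) ∧
      (q.1.image fun τ => v τ q.2) = ρ := fun ρ => by
    by_cases hρ : Face ρ
    · obtain ⟨q, hq⟩ := h3 ρ hρ
      exact ⟨q, fun _ => hq⟩
    · exact ⟨(∅, 1), fun h => absurd h hρ⟩
  choose rep hrep using h3'
  have inj : ∀ T ⊆ S, ∀ g ∈ B, Set.InjOn (fun τ => v τ g) (T : Set ι) := by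
    intro T hT g hg τ hτ τ' hτ' e
    exact ((h1 g hg g hg τ (hT hτ) τ' (hT hτ')).1 e).1
  have crd : ∀ T ⊆ S, ∀ g ∈ B, (T.image fun τ => v τ g).card = T.card :=
    fun T hT g hg => card_image_of_injOn (inj T hT g hg)
  have ers : ∀ T ⊆ S, ∀ g ∈ B, ∀ τ ∈ T,
      (T.image fun τ => v τ g).erase (v τ g) = (T.erase τ).image fun τ => v τ g := by
    intro T hT g hg τ hτ
    ext w
    simp only [mem_erase, mem_image]
    constructor
    · rintro ⟨hne, τ', hτ', rfl⟩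
      exact ⟨τ', ⟨fun e => hne (by rw [e]), hτ'⟩, rfl⟩
    · rintro ⟨τ', ⟨hne, hτ'⟩, rfl⟩
      exact ⟨fun e => hne (inj T hT g hg hτ' hτ e), τ', hτ', rfl⟩
  have rinj : ∀ ρ, Face ρ → ρ.card + 1 ≤ S.card → Set.InjOn rep (c ρ : Set (Finset W)) := by
    intro ρ hρ hcd x hx y hy e
    rw [← (hrep x ((hc ρ hρ hcd).2.1 x hx).1).2.2.2, ← (hrep y ((hc ρ hρ hcd).2.1 y hy).1).2.2.2, e]
  refine ⟨fun T g => if T ⊆ S then (c (T.image fun τ => v τ g)).image rep else ∅, ?_, ?_⟩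
  · intro T g hg u hu huT
    by_cases hT : T ⊆ S
    · simp only [hT, if_true]
      congr 2
      refine image_congr fun τ hτ => ?_
      refine ((h1 g hg _ (B.mul_mem hg hu) τ (hT hτ) τ (hT hτ)).2 ⟨rfl, ?_⟩).symm
      simpa using mem_KT.1 huT τ hτ
    · simp only [hT, if_false]
  intro T hT hcd g hg hgood
  have hF := h2 T hT g hg hgood
  have hcd' : (T.image fun τ => v τ g).card + 1 ≤ S.card := by rwa [crd T hT g hg]
  obtain ⟨c1, c2, c3⟩ := hc _ hF hcd'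
  simp only [hT, if_true]
  refine ⟨card_image_le.trans c1, ?_, ?_⟩
  · intro q hq
    obtain ⟨ρ, hρ, rfl⟩ := mem_image.1 hq
    obtain ⟨r1, r2, r3, r4⟩ := hrep ρ (c2 ρ hρ).1
    refine ⟨r1, ?_, r2, r3⟩
    rw [← crd _ r1 _ r2, r4, (c2 ρ hρ).2, crd T hT g hg]
  intro k _ hk a ha
  have key : ∀ T ⊆ S, ∀ g ∈ B, (∀ τ ∈ T, good τ g) →
      a (rep (T.image fun τ => v τ g)).1 (rep (T.image fun τ => v τ g)).2 = a T g := by
    intro T hT g hg hgood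
    obtain ⟨r1, r2, -, r4⟩ := hrep _ (h2 T hT g hg hgood)
    generalize rep (T.image fun τ => v τ g) = q at r1 r2 r4
    have e1 : ∀ τ ∈ T, τ ∈ q.1 ∧ g⁻¹ * q.2 ∈ K τ := by
      intro τ hτ
      have : v τ g ∈ q.1.image fun τ => v τ q.2 := r4 ▸ mem_image_of_mem _ hτ
      obtain ⟨τ', hτ', e⟩ := mem_image.1 this
      obtain ⟨rfl, e'⟩ := (h1 g hg _ r2 τ (hT hτ) τ' (r1 hτ')).1 e.symm
      exact ⟨hτ', e'⟩
    have e2 : q.1 = T := by
      refine (eq_of_subset_of_card_le (fun τ hτ => (e1 τ hτ).1) ?_).symm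
      rw [← crd _ r1 _ r2, r4, crd T hT g hg]
    have := ha T g hg (g⁻¹ * q.2) (B.mul_mem (B.inv_mem hg) r2) (mem_KT.2 fun τ hτ => (e1 τ hτ).2)
    rw [e2, ← this, mul_inv_cancel_left]
  have := c3 k hk fun ρ => a (rep ρ).1 (rep ρ).2
  rw [sum_image (rinj _ hF hcd'), ← key T hT g hg hgood]
  rw [sum_image (inj T hT g hg)] at this
  refine Eq.trans (sum_congr rfl fun ρ hρ => ?_) (this.trans ?_)
  · obtain ⟨r1, r2, r3, r4⟩ := hrep ρ (c2 ρ hρ).1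
    generalize rep ρ = q at r1 r2 r3 r4
    subst r4
    rw [sum_image (inj _ r1 _ r2), dl]
    refine sum_congr rfl fun τ hτ => ?_
    rw [ers _ r1 _ r2 τ hτ, key _ ((erase_subset _ _).trans r1) _ r2
      fun τ' hτ' => r3 τ' (mem_of_mem_erase hτ')]
  · congr 1
    refine sum_congr rfl fun τ hτ => ?_
    have hT' : T.erase τ ⊆ S := (erase_subset _ _).trans hT
    rw [if_pos hT', ers T hT g hg τ hτ, sum_image (rinj _
      (h2 _ hT' g hg fun τ' hτ' => hgood τ' (mem_of_mem_erase hτ')) ?_)]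
    rw [crd _ hT' g hg]
    have := card_erase_le (s := T) (a := τ)
    omega

end Vale.Agent.P067
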