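import Vale.Agent.P067.Spec2
import Vale.Agent.P067.Link1
import Vale.Agent.P067.Link2

/-! P067: cones in the links of the concrete coset complexes. -/

set_option linter.unusedSectionVars false

namespace Vale.Agent.P067
open Finset Module Lk

namespace Lk
variable {p h N : ℕ} [Fact p.Prime] [NeZero N] {I : Type} [Fintype I] [DecidableEq I]
  {β : I → ZMod N} {J : Finset I} {τ : ZMod N}

/-- coefficient matrix on `J` -/
noncomputable def cJ (β : I → ZMod N) (J : Finset I) (τ : ZMod N) (g : Gp p h I) :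
    Matrix J J (ZMod p) := (cf β τ g).submatrix Subtype.val Subtype.val

/-- positions on `J` -/
def pJ (β : I → ZMod N) (J : Finset I) (τ : ZMod N) (j : J) : ℕ := pos β τ j

theorem cf_out (hN : N ≤ h) {g : Gp p h I} (h1 : g ∈ Pg p h β J J) (h2 : g ∈ Kg p h β τ)
    {i j : I} (hij : ¬ (i ∈ J ∧ j ∈ J)) : cf β τ g i j = (1 : Matrix I I (ZMod p)) i j := by
  obtain ⟨hu, e⟩ := cf_spec hN h2
  by_cases hc : pos β τ j < pos β τ i
  · rw [Matrix.one_apply_ne (by rintro rfl; omega)]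
    by_contra hne
    exact hij ((em_mem_Pg hN hu e).1 h1 i j hc hne)
  · exact hu i j hc

theorem cJ_low (hN : N ≤ h) {g : Gp p h I} (h2 : g ∈ Kg p h β τ) :
    Low (pJ β J τ) (cJ β J τ g) := fun i j hij => by
  have := (cf_spec hN h2).1 i j hij
  simp only [cJ, Matrix.submatrix_apply, this, Matrix.one_apply, Subtype.ext_iff]

theorem cJ_mul (hN : N ≤ h) {g g' : Gp p h I} (h1 : g ∈ Pg p h β J J) (h2 : g ∈ Kg p h β τ)
    (h2' : g' ∈ Kg p h β τ) : cJ β J τ (g * g') = cJ β J τ g * cJ β J τ g' := by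
  ext i j
  simp only [cJ, Matrix.submatrix_apply, cf_mul hN h2 h2', Matrix.mul_apply]
  rw [sum_coe_sort J fun l => cf β τ g i l * cf β τ g' l j]
  refine (sum_subset (subset_univ J) fun l _ hl => ?_).symm
  rw [cf_out hN h1 h2 (fun c => hl c.2), Matrix.one_apply_ne (by rintro rfl; exact hl i.2),
    zero_mul]

theorem cJ_one (hN : N ≤ h) : cJ β J τ (1 : Gp p h I) = 1 := by
  ext i j
  simp only [cJ, Matrix.submatrix_apply, cf_one hN, Matrix.one_apply, Subtype.ext_iff]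

theorem cJ_inv (hN : N ≤ h) {g : Gp p h I} (h1 : g ∈ Pg p h β J J) (h2 : g ∈ Kg p h β τ) :
    cJ β J τ g⁻¹ * cJ β J τ g = 1 := by
  rw [← cJ_mul hN (inv_mem h1) (inv_mem h2) h2, inv_mul_cancel, cJ_one hN]

theorem cJ_inv' (hN : N ≤ h) {g : Gp p h I} (h1 : g ∈ Pg p h β J J) (h2 : g ∈ Kg p h β τ) :
    cJ β J τ g * cJ β J τ g⁻¹ = 1 := by
  rw [← cJ_mul hN h1 h2 (inv_mem h2), mul_inv_cancel, cJ_one hN]

theorem mem_Kg_vt (hN : N ≤ h) {g : Gp p h I} (h1 : g ∈ Pg p h β J J) (h2 : g ∈ Kg p h β τ)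
    (τ' : ZMod N) : g ∈ Kg p h β τ' ↔
      vt (pJ β J τ) (cJ β J τ g) (τ' - τ).val = W0 (pJ β J τ) (τ' - τ).val := by
  obtain ⟨hu, e⟩ := cf_spec hN h2
  rw [em_mem_Kg hN hu e, vt_eq_W0 (cJ_inv hN h1 h2)]
  refine ⟨fun H i j a b => H i j a b, fun H i j a b => ?_⟩
  by_cases hij : i ∈ J ∧ j ∈ J
  · exact H ⟨i, hij.1⟩ ⟨j, hij.2⟩ a b
  · rw [cf_out hN h1 h2 hij, Matrix.one_apply_ne (by rintro rfl; omega)]

theorem exists_cJ (hN : N ≤ h) {a : Matrix J J (ZMod p)} (ha : Low (pJ β J τ) a) :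
    ∃ g ∈ Pg p h β J J, g ∈ Kg p h β τ ∧ cJ β J τ g = a := by
  let A : Matrix I I (ZMod p) := Matrix.of fun i j =>
    if hij : i ∈ J ∧ j ∈ J then a ⟨i, hij.1⟩ ⟨j, hij.2⟩ else (1 : Matrix I I (ZMod p)) i j
  have hA : Uni β τ A := by
    intro i j hij
    simp only [A, Matrix.of_apply]
    split_ifs with c
    · rw [ha ⟨i, c.1⟩ ⟨j, c.2⟩ hij]
      simp only [Matrix.one_apply, Subtype.ext_iff]
    · rfl
  refine ⟨ek h hA, (em_mem_Pg hN hA rfl).2 fun i j hij hne => ?_, ek_mem hA, ?_⟩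
  · by_contra c
    refine hne ?_
    simp only [A, Matrix.of_apply, dif_neg c]
    exact Matrix.one_apply_ne (by rintro rfl; omega)
  · ext i j
    simp only [cJ, Matrix.submatrix_apply, cf_em hN (rfl : (ek h hA).1 = em p h β τ A), A,
      Matrix.of_apply, dif_pos (⟨i.2, j.2⟩ : i.1 ∈ J ∧ j.1 ∈ J)]

theorem dm_lt (hJ : ∀ c, ∃ j ∈ J, β j = c) {e e' : ℕ} (h1 : e < e') (h2 : e < N) :
    dm (pJ β J τ) e < dm (pJ β J τ) e' := by
  obtain ⟨j, hj, hb⟩ := hJ (τ + e)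
  have : pJ β J τ ⟨j, hj⟩ = e := by
    simp [pJ, pos, hb, ZMod.val_natCast, Nat.mod_eq_of_lt h2]
  refine card_lt_card ⟨fun x hx => ?_, fun H => ?_⟩
  · simp only [mem_filter, mem_univ, true_and] at hx ⊢
    omega
  · have := @H ⟨j, hj⟩ (by simp [this, h1])
    simp only [mem_filter, mem_univ, true_and] at this
    omega

theorem dm_inj (hJ : ∀ c, ∃ j ∈ J, β j = c) {a b : ZMod N}
    (e : dm (pJ β J τ) (a - τ).val = dm (pJ β J τ) (b - τ).val) : a = b := by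
  have h1 := ZMod.val_lt (a - τ)
  have h2 := ZMod.val_lt (b - τ)
  rcases lt_trichotomy (a - τ).val (b - τ).val with c | c | c
  · exact absurd e (dm_lt hJ c h1).ne
  · exact sub_left_injective (ZMod.val_injective _ c)
  · exact absurd e (dm_lt hJ c h2).ne'

theorem dm_mem (hJ : ∀ c, ∃ j ∈ J, β j = c) {a : ZMod N} (ha : a ≠ τ) :
    dm (pJ β J τ) (a - τ).val ∈ Ioo 0 (Fintype.card J) := by
  have h1 := ZMod.val_lt (a - τ)
  have h2 : 0 < (a - τ).val := Nat.pos_of_ne_zero fun c => ha (sub_eq_zero.1 ((ZMod.val_eq_zero _).1 c))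
  have h3 := dm_lt (τ := τ) hJ h2 (by omega)
  have h4 := dm_lt (τ := τ) hJ h1 h1
  have h5 : dm (pJ β J τ) N ≤ Fintype.card J := card_le_univ _
  rw [mem_Ioo]
  omega

theorem vt_mono {F J : Type} [Field F] [Fintype J] [DecidableEq J] (ps : J → ℕ) (a : Matrix J J F)
    (e e' : ℕ) : vt ps a e ≤ vt ps a e' ∨ vt ps a e' ≤ vt ps a e :=
  (le_total e e').imp (fun c => Submodule.map_mono (W0_mono ps c))
    fun c => Submodule.map_mono (W0_mono ps c)

theorem mem_vt {F J : Type} [Field F] [Fintype J] [DecidableEq J] {ps : J → ℕ}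
    {a a' : Matrix J J F} (h1 : a' * a = 1) (h2 : a * a' = 1) {e : ℕ} {x : J → F} :
    x ∈ vt ps a e ↔ a'.mulVec x ∈ W0 ps e := by
  constructor
  · rintro ⟨w, hw, rfl⟩
    simpa [Matrix.mulVec_mulVec, h1] using hw
  · intro H
    exact ⟨_, H, by simp [Matrix.mulVec_mulVec, h2]⟩

open Classical in
theorem core (hN : N ≤ h) (hJ : ∀ c, ∃ j ∈ J, β j = c) {R : ℕ}
    (hF : ∀ Fl : ℕ → Submodule (ZMod p) (J → ZMod p), Antitone Fl →
      (∀ e ≤ Fintype.card J, finrank (ZMod p) (Fl e) + e = Fintype.card J) →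
      ∀ Y : Submodule (ZMod p) (J → ZMod p), Y ≠ ⊥ →
      ∀ (σ : Finset (Submodule (ZMod p) (J → ZMod p))) (S : Finset ℕ),
      SFace Fl Y ∅ (Ioo 0 (Fintype.card J)) σ → S ⊆ Ioo 0 (Fintype.card J) →
      (∀ W ∈ σ, finrank (ZMod p) W ∉ S) →
      ∃ c : Finset (Submodule (ZMod p) (J → ZMod p)) →
          Finset (Finset (Submodule (ZMod p) (J → ZMod p))),
        ∀ ρ, SFace Fl Y σ S ρ → ρ.card + 1 ≤ S.card →
          (c ρ).card ≤ R ∧ (∀ ρ' ∈ c ρ, SFace Fl Y σ S ρ' ∧ ρ'.card = ρ.card + 1) ∧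
          ∀ (k : Type) [AddCommGroup k], (∀ x : k, x + x = 0) →
            ∀ a : Finset (Submodule (ZMod p) (J → ZMod p)) → k,
              ∑ ρ' ∈ c ρ, ∑ W ∈ ρ', a (ρ'.erase W) = a ρ + ∑ W ∈ ρ, ∑ ρ' ∈ c (ρ.erase W), a ρ')
    (T S : Finset (ZMod N)) (hτ : τ ∉ S) (hd : Disjoint T S)
    (Y : Submodule (ZMod p) (J → ZMod p)) (hY : Y ≠ ⊥)
    (hYT : ∀ a ∈ T, a ≠ τ → ¬ Y ≤ W0 (pJ β J τ) (a - τ).val) (B : Subgroup (Gp p h I))
    (hB : ∀ g, g ∈ B ↔ g ∈ Pg p h β J J ∧ g ∈ Kg p h β τ ∧ ∀ a ∈ T, g ∈ Kg p h β a)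
    (good : ZMod N → Gp p h I → Prop)
    (hg : ∀ a ∈ S, ∀ g ∈ B, good a g ↔ ¬ Y ≤ vt (pJ β J τ) (cJ β J τ g) (a - τ).val) :
    Cone (Kg p h β) B S good R := by
  obtain ⟨Fl, f1, f2, f3⟩ := exists_Fl (F := ZMod p) (pJ β J τ)
  have l1 : Low (pJ β J τ) (1 : Matrix J J (ZMod p)) := fun _ _ _ => rfl
  have hW : ∀ e, W0 (F := ZMod p) (pJ β J τ) e ⊓ Fb (pJ β J τ) e = ⊥ := fun e => by
    have := vt_inf (one_mul (1 : Matrix J J (ZMod p))) l1 e
    rwa [vt_one] at this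
  obtain ⟨c, hc⟩ := hF Fl f1 f2 Y hY
    ((T.erase τ).image fun a => W0 (pJ β J τ) (a - τ).val)
    (S.image fun a => dm (pJ β J τ) (a - τ).val) (by
      intro W hW'
      obtain ⟨a, ha, rfl⟩ := mem_image.1 hW'
      obtain ⟨ha1, ha2⟩ := mem_erase.1 ha
      refine ⟨by rw [finrank_W0, f3, hW], hYT a ha2 ha1, by rw [finrank_W0]; exact dm_mem hJ ha1,
        fun W' hW' => ?_, by simp⟩
      obtain ⟨b, -, rfl⟩ := mem_image.1 hW'
      exact (le_total _ _).imp (W0_mono _) (W0_mono _)) (by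
      intro x hx
      obtain ⟨a, ha, rfl⟩ := mem_image.1 hx
      exact dm_mem hJ (by rintro rfl; exact hτ ha)) (by
      intro W hW' hx
      obtain ⟨a, ha, rfl⟩ := mem_image.1 hW'
      obtain ⟨b, hb, e⟩ := mem_image.1 hx
      rw [finrank_W0] at e
      obtain rfl := dm_inj hJ e
      exact disjoint_left.1 hd (mem_of_mem_erase ha) hb)
  rw [card_image_of_injective _ fun a b e => dm_inj hJ e] at hc
  refine cone_transfer _ B S good R (fun a g => vt (pJ β J τ) (cJ β J τ g) (a - τ).val) _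
    ?_ ?_ ?_ c hc
  · intro g hgB g' hgB' a _ b _
    obtain ⟨g1, g2, -⟩ := (hB g).1 hgB
    obtain ⟨g1', g2', -⟩ := (hB g').1 hgB'
    have m1 := mul_mem (inv_mem g1) g1'
    have m2 := mul_mem (inv_mem g2) g2'
    rw [mem_Kg_vt hN m1 m2]
    constructor
    · intro e
      have e1 := congrArg (fun W : Submodule (ZMod p) (J → ZMod p) => finrank (ZMod p) W) e
      simp only [finrank_vt (cJ_inv hN g1 g2), finrank_vt (cJ_inv hN g1' g2')] at e1
      obtain rfl := dm_inj hJ e1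
      refine ⟨rfl, ?_⟩
      rw [cJ_mul hN (inv_mem g1) (inv_mem g2) g2', vt_mul, ← e, ← vt_mul, cJ_inv hN g1 g2, vt_one]
    · rintro ⟨rfl, e⟩
      have : cJ β J τ g' = cJ β J τ g * cJ β J τ (g⁻¹ * g') := by
        rw [← cJ_mul hN g1 g2 m2, mul_inv_cancel_left]
      rw [this, vt_mul, e]
      rfl
  · intro T' hT' g hgB hgood W hW'
    obtain ⟨g1, g2, g3⟩ := (hB g).1 hgB
    obtain ⟨a, ha, rfl⟩ := mem_image.1 hW'
    refine ⟨?_, (hg a (hT' ha) g hgB).1 (hgood a ha), ?_, fun W' hW' => ?_, fun W' hW' => ?_⟩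
    · rw [finrank_vt (cJ_inv hN g1 g2), f3]
      exact vt_inf (cJ_inv hN g1 g2) (cJ_low hN (inv_mem g2)) _
    · rw [finrank_vt (cJ_inv hN g1 g2)]
      exact mem_image_of_mem _ (hT' ha)
    · obtain ⟨b, -, rfl⟩ := mem_image.1 hW'
      exact vt_mono _ _ _ _
    · obtain ⟨b, hb, rfl⟩ := mem_image.1 hW'
      rw [← (mem_Kg_vt hN g1 g2 b).1 (g3 b (mem_of_mem_erase hb))]
      exact vt_mono _ _ _ _
  · intro ρ hρ
    obtain ⟨a, ha, hv⟩ := exists_low (ps := pJ β J τ)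
      (ρ ∪ (T.erase τ).image fun a => W0 (pJ β J τ) (a - τ).val) (by
        intro W hW' W' hW''
        rcases mem_union.1 hW' with c1 | c1 <;> rcases mem_union.1 hW'' with c2 | c2
        · exact (hρ W c1).2.2.2.1 W' c2
        · exact (hρ W c1).2.2.2.2 W' c2
        · exact ((hρ W' c2).2.2.2.2 W c1).symm
        · obtain ⟨a, -, rfl⟩ := mem_image.1 c1
          obtain ⟨b, -, rfl⟩ := mem_image.1 c2
          exact (le_total _ _).imp (W0_mono _) (W0_mono _))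
    obtain ⟨g, g1, g2, rfl⟩ := exists_cJ hN ha
    have hgB : g ∈ B := by
      refine (hB g).2 ⟨g1, g2, fun b hb => ?_⟩
      by_cases e : b = τ
      · rwa [e]
      refine (mem_Kg_vt hN g1 g2 b).2 (Submodule.eq_of_le_of_finrank_eq (hv _ (mem_union_right _
        (mem_image_of_mem _ (mem_erase.2 ⟨e, hb⟩))) _ (finrank_W0 _ _) (hW _)) ?_)
      rw [finrank_vt (cJ_inv hN g1 g2), finrank_W0]
    refine ⟨(S.filter fun b => vt (pJ β J τ) (cJ β J τ g) (b - τ).val ∈ ρ, g), filter_subset _ _,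
      hgB, fun b hb => ?_, ?_⟩
    · obtain ⟨b1, b2⟩ := mem_filter.1 hb
      exact (hg b b1 g hgB).2 (hρ _ b2).2.1
    · ext W
      simp only [mem_image, mem_filter]
      refine ⟨by rintro ⟨b, hb, rfl⟩; exact hb.2, fun hW' => ?_⟩
      obtain ⟨w1, -, w3, -⟩ := hρ W hW'
      obtain ⟨b, hb, e⟩ := mem_image.1 w3
      rw [← e, f3] at w1
      have : vt (pJ β J τ) (cJ β J τ g) (b - τ).val = W :=
        Submodule.eq_of_le_of_finrank_eq (hv W (mem_union_left _ hW') _ e.symm w1)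
          (by rw [finrank_vt (cJ_inv hN g1 g2), e])
      exact ⟨b, ⟨hb, this ▸ hW'⟩, this⟩

end Lk

theorem Cone.mono {G ι : Type} [Group G] [DecidableEq ι] {K : ι → Subgroup G} {B : Subgroup G}
    {S : Finset ι} {good : ι → G → Prop} {R R' : ℕ} (h : Cone K B S good R) (hR : R ≤ R') :
    Cone K B S good R' := by
  obtain ⟨c, h1, h2⟩ := h
  exact ⟨c, h1, fun T a b g hg d => ⟨(h2 T a b g hg d).1.trans hR, (h2 T a b g hg d).2⟩⟩

theorem link (hF : FillStmt) : LinkStmt := by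
  intro n0
  choose R hR using hF
  refine ⟨∑ n ∈ range (n0 + 1), R n, fun p h N _ _ I _ _ β J hp hN hn hJ => ?_⟩
  have hle : R (Fintype.card J) ≤ ∑ n ∈ range (n0 + 1), R n :=
    single_le_sum (fun _ _ => Nat.zero_le _) (mem_range.2 (by rw [Fintype.card_coe]; omega))
  have hF := hR (Fintype.card J) (ZMod p) (J → ZMod p) (by rw [ZMod.card]; omega)
    (finrank_fintype_fun_eq_card _)
  have htop : ∀ (τ a : ZMod N) (W : Submodule (ZMod p) (J → ZMod p)), a ≠ τ →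
      finrank (ZMod p) W = dm (pJ β J τ) (a - τ).val → ¬ ⊤ ≤ W := by
    intro τ a W ha e c
    have := mem_Ioo.1 (dm_mem hJ ha)
    rw [top_le_iff.1 c, finrank_top, finrank_fintype_fun_eq_card] at e
    omega
  refine ⟨fun T S hT hd => ?_, fun τ Y hY => ?_⟩
  · obtain ⟨τ, hτ⟩ := hT
    have hτS : τ ∉ S := disjoint_left.1 hd hτ
    have hB : ∀ g, g ∈ Pg p h β J J ⊓ KT (Kg p h β) T ↔
        g ∈ Pg p h β J J ∧ g ∈ Kg p h β τ ∧ ∀ a ∈ T, g ∈ Kg p h β a := fun g => by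
      rw [Subgroup.mem_inf, mem_KT]
      exact ⟨fun c => ⟨c.1, c.2 τ hτ, c.2⟩, fun c => ⟨c.1, c.2.2⟩⟩
    refine (core hN hJ hF T S hτS hd ⊤ ?_ (fun a _ ha => htop τ a _ ha (finrank_W0 _ _)) _ hB _
      fun a ha g hg => ?_).mono hle
    · obtain ⟨j, hj, -⟩ := hJ 0
      haveI : Nonempty J := ⟨⟨j, hj⟩⟩
      exact top_ne_bot
    · obtain ⟨g1, g2, -⟩ := (hB g).1 hg
      exact iff_of_true trivial
        (htop τ a _ (by rintro rfl; exact hτS ha) (finrank_vt (cJ_inv hN g1 g2) _))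
  · refine (core hN hJ hF ∅ (univ.erase τ) (notMem_erase _ _) (disjoint_empty_left _)
      (Submodule.span (ZMod p) ((fun y : I → ZMod p => fun j : J => y j) '' Y)) ?_ (by simp) _
      (fun g => by simp) _ fun a _ g hg => ?_).mono hle
    · obtain ⟨y, hy, j, hj, hne⟩ := hY
      intro c
      exact hne (congrFun (Submodule.span_eq_bot.1 c _ ⟨y, hy, rfl⟩) ⟨j, hj⟩)
    · rw [Submodule.span_le, Set.image_subset_iff]
      simp only [Set.not_subset, Set.mem_preimage, SetLike.mem_coe,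
        mem_vt (cJ_inv hN hg.1 hg.2) (cJ_inv' hN hg.1 hg.2)]
      refine exists_congr fun y => and_congr_right fun _ => ?_
      simp only [W0, mem_CS, not_forall, Subtype.forall, exists_prop]
      refine exists_congr fun j => ⟨?_, ?_⟩
      · rintro ⟨hj, h1, h2⟩
        refine ⟨hj, h1, ?_⟩
        rwa [← sum_coe_sort J fun j' => cf β τ g⁻¹ j j' * y j'] at h2
      · rintro ⟨hj, h1, h2⟩
        refine ⟨hj, h1, ?_⟩
        rwa [← sum_coe_sort J fun j' => cf β τ g⁻¹ j j' * y j']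

end Vale.Agent.P067
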