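import Vale.Agent.P067.BAbs
import Vale.Agent.P067.Link

/-! P067: module B (Fourier decomposition and the Morse argument). -/

set_option linter.unusedSectionVars false

namespace Vale.Agent.P067
open Finset Module

theorem Cone.congr {G ι : Type} [Group G] [DecidableEq ι] {K : ι → Subgroup G} {B : Subgroup G}
    {S : Finset ι} {good good' : ι → G → Prop} {R : ℕ} (h : Cone K B S good R)
    (e : ∀ τ ∈ S, ∀ g ∈ B, good τ g ↔ good' τ g) : Cone K B S good' R := by
  obtain ⟨c, h1, h2⟩ := h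
  refine ⟨c, h1, fun T a b g hg d => ?_⟩
  obtain ⟨c1, c2, c3⟩ := h2 T a b g hg fun τ hτ => (e τ (a hτ) g hg).2 (d τ hτ)
  refine ⟨c1, fun q hq => ?_, c3⟩
  obtain ⟨q1, q2, q3, q4⟩ := c2 q hq
  exact ⟨q1, q2, q3, fun τ hτ => (e τ (q1 hτ) _ q3).1 (q4 τ hτ)⟩

namespace Bs
variable {p h N : ℕ} [Fact p.Prime] [NeZero N] {I : Type} [Fintype I] [DecidableEq I]
  {β : I → ZMod N} {J C : Finset I} {c : ZMod N}

theorem nat_eq {a b : ℕ} (e : (a : ZMod N) = b) (h1 : a < b + N) (h2 : b < a + N) : a = b := by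
  have := (ZMod.natCast_eq_natCast_iff _ _ _).1 e
  exact this.eq_of_abs_lt (by rw [abs_lt]; constructor <;> omega)

theorem pat_mul_zero {r c r' c' : Finset I} {m m' : Matrix I I (Rg p h)} (h1 : Pat p h β r c m)
    (h2 : Pat p h β r' c' m') (hd : Disjoint r' c) : m * m' = 0 := by
  ext i j
  rw [Matrix.mul_apply]
  refine sum_eq_zero fun l _ => ?_
  by_contra hne
  exact disjoint_left.1 hd ((h2 l j).2 (right_ne_zero_of_mul hne)).1
    ((h1 i l).2 (left_ne_zero_of_mul hne)).2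

/-- the space of graded matrices with given rows and columns -/
def PM (p h : ℕ) [Fact p.Prime] (β : I → ZMod N) (r c : Finset I) :
    Submodule (ZMod p) (Matrix I I (Rg p h)) where
  carrier := {m | Pat p h β r c m}
  add_mem' := Pat.add
  zero_mem' := Pat.zero r c
  smul_mem' := fun a m hm i j => ⟨Submodule.smul_mem _ a (hm i j).1, fun hne =>
    (hm i j).2 fun e => hne (by simp [e])⟩

/-- the element `1 + x` -/
noncomputable def on (hd : Disjoint C J) (x : PM p h β C J) : Gp p h I :=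
  ⟨1 + x.1, det_tri _ (fun i => if i ∈ C then 1 else 0) fun i j hij => by
    have : x.1 i j = 0 := by
      by_contra hne
      obtain ⟨a, b⟩ := (x.2 i j).2 hne
      simp [a, disjoint_right.1 hd b] at hij
    simp [this]⟩

theorem on_val (hd : Disjoint C J) (x : PM p h β C J) : (on hd x).1 = 1 + x.1 := rfl

theorem on_add (hd : Disjoint C J) (x y : PM p h β C J) : on hd (x + y) = on hd x * on hd y := by
  apply Subtype.ext
  have := pat_mul_zero x.2 y.2 hd
  simp only [on_val, Matrix.SpecialLinearGroup.coe_mul, Submodule.coe_add, mul_add, add_mul, this,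
    mul_one, one_mul]
  abel

theorem on_mem (hd : Disjoint C J) (x : PM p h β C J) : on hd x ∈ Pg p h β C J :=
  mem_Pg.2 (by rw [on_val, add_sub_cancel_left]; exact x.2)

theorem mul_mem_PM {x : Matrix I I (Rg p h)} (hx : x ∈ PM p h β C J) {q : Gp p h I}
    (hq : q ∈ Pg p h β J J) : x * q.1 ∈ PM p h β C J := by
  have : x * q.1 = x + x * (q.1 - 1) := by noncomm_ring
  rw [this]
  exact Pat.add hx (Pat.mul hx (mem_Pg.1 hq))

open Classical in
/-- conjugation action -/
noncomputable def act (q : Gp p h I) (x : PM p h β C J) : PM p h β C J :=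
  if hq : q ∈ Pg p h β J J then ⟨x.1 * q⁻¹.1, mul_mem_PM x.2 (inv_mem hq)⟩ else 0

theorem act_val {q : Gp p h I} (hq : q ∈ Pg p h β J J) (x : PM p h β C J) :
    (act q x).1 = x.1 * q⁻¹.1 := by rw [act, dif_pos hq]

theorem inv_mul' (q : Gp p h I) : q⁻¹.1 * q.1 = 1 := by
  rw [← Matrix.SpecialLinearGroup.coe_mul, inv_mul_cancel]; rfl

theorem mul_inv' (q : Gp p h I) : q.1 * q⁻¹.1 = 1 := by
  rw [← Matrix.SpecialLinearGroup.coe_mul, mul_inv_cancel]; rfl

theorem hact (hd : Disjoint C J) {q : Gp p h I} (hq : q ∈ Pg p h β J J) (x : PM p h β C J) :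
    q * on hd x = on hd (act q x) * q := by
  apply Subtype.ext
  have := pat_mul_zero (mem_Pg.1 hq) x.2 hd
  rw [sub_mul, one_mul, sub_eq_zero] at this
  simp only [on_val, Matrix.SpecialLinearGroup.coe_mul, act_val hq, mul_add, add_mul, this,
    mul_one, one_mul, mul_assoc, inv_mul']

theorem hdec (hd : Disjoint C J) {g : Gp p h I} (hg : g ∈ Pg p h β (J ∪ C) J) :
    ∃ x : PM p h β C J, ∃ q ∈ Pg p h β J J, g = on hd x * q := by
  have hg' := mem_Pg.1 hg
  let x : PM p h β C J := ⟨Matrix.of fun i j => if i ∈ C then (g.1 - 1) i j else 0, fun i j => by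
    simp only [Matrix.of_apply]
    split_ifs with hi
    · exact ⟨(hg' i j).1, fun hne => ⟨hi, ((hg' i j).2 hne).2⟩⟩
    · simp⟩
  have hq : g * on hd (-x) ∈ Pg p h β J J := by
    have := pat_mul_zero hg' x.2 hd
    rw [sub_mul, one_mul, sub_eq_zero] at this
    have e : (g * on hd (-x)).1 - 1 = g.1 - 1 - x.1 := by
      simp only [on_val, Matrix.SpecialLinearGroup.coe_mul, Submodule.coe_neg, mul_add, mul_neg, this,
        mul_one]
      abel
    rw [mem_Pg, e]
    intro i j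
    rw [Matrix.sub_apply]
    simp only [x, Matrix.of_apply]
    split_ifs with hi
    · simp
    · rw [sub_zero]
      refine ⟨(hg' i j).1, fun hne => ⟨?_, ((hg' i j).2 hne).2⟩⟩
      exact (mem_union.1 ((hg' i j).2 hne).1).resolve_right hi
  refine ⟨act (g * on hd (-x)) x, _, hq, ?_⟩
  rw [← hact hd hq, mul_assoc, ← on_add, neg_add_cancel]
  apply Subtype.ext
  simp [on_val]

theorem huq (hd : Disjoint C J) (x : PM p h β C J) (hx : on hd x ∈ Pg p h β J J) : x = 0 := by
  have hx' := mem_Pg.1 hx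
  simp only [on_val, add_sub_cancel_left] at hx'
  ext i j
  by_contra hne
  exact disjoint_left.1 hd ((x.2 i j).2 hne).1 ((hx' i j).2 hne).1

theorem hK (hd : Disjoint C J) (τ : ZMod N) (x : PM p h β C J) {q : Gp p h I}
    (hq : q ∈ Pg p h β J J) (H : on hd x * q ∈ Kg p h β τ) : q ∈ Kg p h β τ := by
  obtain ⟨a, ha, e⟩ := mem_Kg.1 H
  refine mem_Kg.2 ⟨Matrix.of fun i j => if i ∈ C then (1 : Matrix I I (ZMod p)) i j else a i j,
    fun i j hij => ?_, ?_⟩
  · simp only [Matrix.of_apply]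
    split_ifs
    · rfl
    · exact ha i j hij
  · ext i j
    simp only [em_apply, Matrix.of_apply]
    split_ifs with hi
    · rw [← em_apply, em_one, ← sub_eq_zero, ← Matrix.sub_apply]
      by_contra hne
      exact disjoint_left.1 hd hi ((mem_Pg.1 hq i j).2 hne).1
    · rw [← em_apply, ← e]
      have : (x.1 * q.1) i j = 0 := by
        by_contra hne
        exact hi ((mul_mem_PM x.2 hq i j).2 hne).1
      simp [on_val, add_mul, this]

theorem single_mul {τ : ZMod N} {a : Matrix I I (ZMod p)} (d j : I) (s : ℕ) :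
    Matrix.single d j (pi p h ^ s) * em p h β τ a =
      ∑ j', a j j' • Matrix.single d j' (pi p h ^ (s + (pos β τ j - pos β τ j'))) := by
  ext i j'
  by_cases hi : d = i
  · subst hi
    simp [Matrix.sum_apply, Matrix.single_apply, em_apply, pow_add]
  · simp [Matrix.sum_apply, hi, Ne.symm hi]

variable (lam : Matrix I I (Rg p h) →ₗ[ZMod p] ZMod p)

theorem lam_mul (hN : N ≤ h) {τ : ZMod N} {u : Gp p h I} (h1 : u ∈ Pg p h β J J)
    (h2 : u ∈ Kg p h β τ) (q : Gp p h I) (d : I) {j : I} (hj : j ∈ J) (s : ℕ) :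
    lam (Matrix.single d j (pi p h ^ s) * (q * u)⁻¹.1) = ∑ j' ∈ J, cf β τ u⁻¹ j j' *
      lam (Matrix.single d j' (pi p h ^ (s + (pos β τ j - pos β τ j'))) * q⁻¹.1) := by
  rw [mul_inv_rev, Matrix.SpecialLinearGroup.coe_mul, ← mul_assoc, (cf_spec hN (inv_mem h2)).2,
    single_mul, sum_mul, map_sum]
  simp only [smul_mul_assoc, map_smul, smul_eq_mul]
  refine (sum_subset (subset_univ J) fun l _ hl => ?_).symm
  rw [Lk.cf_out hN (inv_mem h1) (inv_mem h2) (fun c => hl c.2),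
    Matrix.one_apply_ne (by rintro rfl; exact hl hj), zero_mul]

/-- the filtration by depth -/
def gd (β : I → ZMod N) (J C : Finset I) (c : ZMod N) (L : ℕ) (τ : ZMod N) (q : Gp p h I) : Prop :=
  ∃ d ∈ C, ∃ j ∈ J, ∃ s : ℕ, 1 ≤ s ∧ (s : ZMod N) = c - β j ∧ s + pos β τ j < L + N ∧
    lam (Matrix.single d j (pi p h ^ s) * q⁻¹.1) ≠ 0

variable {lam}

theorem gd_mul (hN : N ≤ h) {L : ℕ} {τ : ZMod N} {q u : Gp p h I} (h1 : u ∈ Pg p h β J J)
    (h2 : u ∈ Kg p h β τ) (H : gd lam β J C c L τ (q * u)) : gd lam β J C c L τ q := by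
  obtain ⟨d, hd, j, hj, s, s1, s2, s3, s4⟩ := H
  rw [lam_mul lam hN h1 h2 q d hj] at s4
  obtain ⟨j', hj', hne⟩ := exists_ne_zero_of_sum_ne_zero s4
  have hle : pos β τ j' ≤ pos β τ j :=
    not_lt.1 fun hlt => left_ne_zero_of_mul hne ((cf_spec hN (inv_mem h2)).1.low hlt)
  refine ⟨d, hd, j', hj', _, by omega, ?_, by omega, right_ne_zero_of_mul hne⟩
  rw [Nat.cast_add, Nat.cast_sub hle, pos_cast, pos_cast, s2]
  ring

theorem gd_iff (hN : N ≤ h) {L : ℕ} {τ : ZMod N} {q u : Gp p h I} (h1 : u ∈ Pg p h β J J)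
    (h2 : u ∈ Kg p h β τ) : gd lam β J C c L τ (q * u) ↔ gd lam β J C c L τ q :=
  ⟨gd_mul hN h1 h2, fun H => gd_mul hN (inv_mem h1) (inv_mem h2) (by rwa [mul_inv_cancel_right])⟩

theorem gd_cone (hN : N ≤ h) {L R : ℕ} {q : Gp p h I}
    (hL : ∀ (τ : ZMod N) (Y : Set (I → ZMod p)), (∃ y ∈ Y, ∃ j ∈ J, y j ≠ 0) →
      Cone (Kg p h β) (Pg p h β J J ⊓ Kg p h β τ) (univ.erase τ)
        (fun τ' u => ∃ y ∈ Y, ∃ j ∈ J, (τ' - τ).val ≤ pos β τ j ∧
          ∑ j' ∈ J, cf β τ u⁻¹ j j' * y j' ≠ 0) R)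
    (H1 : gd lam β J C c (L + 1) (c - L) q) (H2 : ¬ gd lam β J C c L (c - L) q) :
    Cone (Kg p h β) (Pg p h β J J ⊓ Kg p h β (c - L)) (univ.erase (c - L))
      (fun τ u => gd lam β J C c L τ (q * u)) R := by
  obtain ⟨τ, hτ⟩ : ∃ τ : ZMod N, τ = c - L := ⟨_, rfl⟩
  rw [← hτ] at H1 H2 ⊢
  refine (hL τ ((fun d j => lam (Matrix.single d j (pi p h ^ (L + N - pos β τ j)) * q⁻¹.1)) '' C)
    ?_).congr fun τ' hτ' u hu => ?_
  · obtain ⟨d, hd, j, hj, s, s1, s2, s3, s4⟩ := H1
    have : ¬ s + pos β τ j < L + N := fun c => H2 ⟨d, hd, j, hj, s, s1, s2, c, s4⟩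
    refine ⟨_, ⟨d, hd, rfl⟩, j, hj, ?_⟩
    obtain rfl : s = L + N - pos β τ j := by omega
    exact s4
  have key : ∀ d, ∀ j ∈ J, ∑ j' ∈ J, cf β τ u⁻¹ j j' *
      lam (Matrix.single d j' (pi p h ^ (L + N - pos β τ j')) * q⁻¹.1) =
      lam (Matrix.single d j (pi p h ^ (L + N - pos β τ j)) * (q * u)⁻¹.1) := by
    intro d j hj
    rw [lam_mul lam hN hu.1 hu.2 q d hj]
    refine sum_congr rfl fun j' _ => ?_
    by_cases hlt : pos β τ j < pos β τ j'
    · rw [(cf_spec hN (inv_mem hu.2)).1.low hlt, zero_mul, zero_mul]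
    · have := pos_lt (β := β) τ j
      rw [show L + N - pos β τ j + (pos β τ j - pos β τ j') = L + N - pos β τ j' by omega]
  have e1 : 0 < (τ' - τ).val := Nat.pos_of_ne_zero fun c =>
    ne_of_mem_erase hτ' (sub_eq_zero.1 ((ZMod.val_eq_zero _).1 c))
  have e2 := ZMod.val_lt (τ' - τ)
  constructor
  · rintro ⟨_, ⟨d, hd, rfl⟩, j, hj, a1, a2⟩
    rw [key d j hj] at a2
    have b1 := pos_lt (β := β) τ j
    have b2 := pos_lt (β := β) τ' j
    have b3 := pos_change (β := β) τ τ' j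
    refine ⟨d, hd, j, hj, _, by omega, ?_, by omega, a2⟩
    rw [Nat.cast_sub (by omega), Nat.cast_add, pos_cast, ZMod.natCast_self, hτ]
    ring
  · rintro ⟨d, hd, j, hj, s, s1, s2, s3, s4⟩
    have b0 : ¬ s + pos β τ j < L + N := fun c =>
      H2 (gd_mul hN hu.1 hu.2 ⟨d, hd, j, hj, s, s1, s2, c, s4⟩)
    have b1 := pos_lt (β := β) τ j
    have b2 := pos_lt (β := β) τ' j
    have b3 := pos_change (β := β) τ τ' j
    have b4 : s + pos β τ j = L + N := nat_eq (N := N) (by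
      rw [Nat.cast_add, Nat.cast_add, pos_cast, ZMod.natCast_self, hτ, s2]; ring)
      (by omega) (by omega)
    refine ⟨_, ⟨d, hd, rfl⟩, j, hj, by omega, ?_⟩
    rwa [key d j hj, show L + N - pos β τ j = s by omega]

theorem exists_single {x m : Matrix I I (Rg p h)} (H : lam (x * m) ≠ 0) :
    ∃ d j, lam (Matrix.single d j (x d j) * m) ≠ 0 := by
  rw [Matrix.matrix_eq_sum_single x, sum_mul, map_sum] at H
  obtain ⟨d, -, H⟩ := exists_ne_zero_of_sum_ne_zero H
  rw [sum_mul, map_sum] at H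
  obtain ⟨j, -, H⟩ := exists_ne_zero_of_sum_ne_zero H
  exact ⟨d, j, H⟩

theorem gd_zero (hd : Disjoint C J) (hC : ∀ d ∈ C, β d = c) {τ : ZMod N} {x : PM p h β C J}
    {q : Gp p h I} (hx : on hd x ∈ Kg p h β τ) (H : lam (x.1 * q⁻¹.1) ≠ 0) :
    gd lam β J C c 0 τ q := by
  obtain ⟨a, ha, e⟩ := mem_Kg.1 hx
  obtain ⟨d, j, H⟩ := exists_single H
  have hne : x.1 d j ≠ 0 := fun c => H (by simp [c])
  obtain ⟨h1, h2⟩ := (x.2 d j).2 hne
  have e1 : x.1 = em p h β τ a - 1 := by rw [← e]; simp [on_val]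
  rw [e1, em_sub ha] at hne H
  split_ifs at hne H with hlt
  · have := pos_lt (β := β) τ d
    refine ⟨d, h1, j, h2, pos β τ d - pos β τ j, by omega, ?_, by omega, fun c => H ?_⟩
    · rw [Nat.cast_sub hlt.le, pos_cast, pos_cast, hC d h1]; ring
    · rw [← Matrix.smul_single, smul_mul_assoc, map_smul, c, smul_zero]
  · exact absurd rfl hne

theorem gd_top (hC : ∀ d ∈ C, β d = c) {x : Matrix I I (Rg p h)} (hx : x ∈ PM p h β C J)
    {q : Gp p h I} (H : lam (x * q⁻¹.1) ≠ 0) (τ : ZMod N) : gd lam β J C c h τ q := by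
  obtain ⟨d, j, H⟩ := exists_single H
  obtain ⟨h1, h2⟩ := (hx d j).2 fun c => H (by simp [c])
  by_contra hn
  refine H ?_
  have hm := (hx d j).1
  generalize x d j = r at hm
  induction hm using Submodule.span_induction with
  | mem r hr =>
    obtain ⟨s, s1, s2, rfl⟩ := hr
    by_cases hs : h ≤ s
    · simp [pi_pow p h hs]
    · by_contra hne
      have := pos_lt (β := β) τ j
      exact hn ⟨d, h1, j, h2, s, s1, by rw [s2, hC d h1], by omega, hne⟩
  | zero => simp
  | add y z _ _ a b => rw [Matrix.single_add, add_mul, map_add, a, b, add_zero]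
  | smul r y _ a => rw [← Matrix.smul_single, smul_mul_assoc, map_smul, a, smul_zero]

theorem exists_on (hd : Disjoint C J) (hC : ∀ d ∈ C, β d = c) {T : Finset (ZMod N)}
    (hT : T.Nonempty) {q : Gp p h I} (H : ∀ τ ∈ T, gd lam β J C c 0 τ q) :
    ∃ x : PM p h β C J, on hd x ∈ KT (Kg p h β) T ∧ lam (x.1 * q⁻¹.1) ≠ 0 := by
  obtain ⟨τ, hτ, hmin⟩ := exists_min_image T (fun τ => (c - τ).val) hT
  obtain ⟨d, h1, j, h2, s, s1, s2, s3, s4⟩ := H τ hτ
  have hne : d ≠ j := by rintro rfl; exact disjoint_left.1 hd h1 h2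
  have b1 : s + pos β τ j = (c - τ).val := nat_eq (N := N) (by
    rw [Nat.cast_add, pos_cast, s2, ZMod.natCast_zmod_val]; ring) (by omega)
    (by have := ZMod.val_lt (c - τ); omega)
  refine ⟨⟨Matrix.single d j (pi p h ^ s), fun i i' => ?_⟩, mem_KT.2 fun τ' hτ' => ?_, s4⟩
  · rw [Matrix.single_apply]
    split_ifs with e
    · obtain ⟨rfl, rfl⟩ := e
      exact ⟨pi_mem s1 (by rw [s2, hC d h1]), fun _ => ⟨h1, h2⟩⟩
    · simp
  · have b2 : pos β τ' d = (c - τ').val := by rw [pos, hC d h1]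
    have b3 := hmin τ' hτ'
    have b4 := pos_lt (β := β) τ' d
    have b5 := pos_lt (β := β) τ' j
    have b6 : s + pos β τ' j = pos β τ' d := nat_eq (N := N) (by
      rw [Nat.cast_add, pos_cast, pos_cast, s2, hC d h1]; ring) (by omega) (by omega)
    refine mem_Kg.2 ⟨1 + Matrix.single d j 1, fun i i' hii => ?_, ?_⟩
    · rw [Matrix.add_apply, Matrix.single_apply, if_neg, add_zero]
      rintro ⟨rfl, rfl⟩
      omega
    · ext i i'
      rw [em_apply, Matrix.add_apply, add_smul, ← em_apply, em_one]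
      simp only [on_val, Matrix.add_apply, Matrix.single_apply]
      split_ifs with e
      · obtain ⟨rfl, rfl⟩ := e
        rw [one_smul, show pos β τ' d - pos β τ' j = s by omega]
      · simp

end Bs

open Bs in
theorem bstep (hL : LinkStmt) (hM : MorseStmt) : BStmt := by
  intro n0
  obtain ⟨R, hR⟩ := hL n0
  refine ⟨R + 3, fun k _ _ _ p h N _ _ I _ _ β J C c hp hN hn hJ hd hC t ht f f1 f2 => ?_⟩
  have h2 : ∀ x : k, x + x = 0 := CharTwo.add_self_eq_zero
  have hp1 : (p : k) = 1 := by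
    obtain ⟨m, hm⟩ := (Fact.out : p.Prime).odd_of_ne_two (by omega)
    rw [hm]
    push_cast
    rw [CharTwo.two_eq_zero, zero_mul, zero_add]
  haveI : NeZero (p : k) := ⟨by rw [hp1]; exact one_ne_zero⟩
  haveI : NeZero p := ⟨(Fact.out : p.Prime).ne_zero⟩
  obtain ⟨ζ, hζ⟩ := HasEnoughRootsOfUnity.exists_primitiveRoot k p
  have hψ := AddChar.zmodChar_primitive_of_primitive_root p hζ
  haveI : Finite (Matrix I I (Rg p h)) := inferInstanceAs (Finite (I → I → Rg p h))
  obtain ⟨m1, m2⟩ := fourier (V := PM p h β C J) h2 hp1 _ (fun x => (hψ.zmod_char_eq_one_iff p x).1)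
    (Kg p h β) (Pg p h β (J ∪ C) J) (Pg p h β J J) (on hd) act (on_add hd)
    (fun x => Pg_mono subset_union_right subset_rfl (on_mem hd x))
    (Pg_mono subset_union_left subset_rfl) (fun q hq => hact hd hq) (fun g hg => hdec hd hg)
    (huq hd) (fun τ x q hq => hK hd τ x hq) t (fun l hl a a1 a2 a3 => by
      obtain ⟨lam, hlam⟩ := LinearMap.exists_extend l
      have e : ∀ q ∈ Pg p h β J J, ∀ x, l (act q x) = lam (x.1 * q⁻¹.1) := fun q hq x => by
        rw [← hlam, LinearMap.comp_apply, Submodule.subtype_apply, act_val hq]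
      have e0 : ∀ q ∈ Pg p h β J J, ∃ x : PM p h β C J, lam (x.1 * q⁻¹.1) ≠ 0 := fun q hq => by
        obtain ⟨x, hx⟩ := DFunLike.ne_iff.1 hl
        refine ⟨⟨_, mul_mem_PM x.2 hq⟩, ?_⟩
        rw [← hlam] at hx
        simp only [mul_assoc, mul_inv', mul_one]
        exact hx
      obtain ⟨b, b1, b2, b3⟩ := hM _ _ k h2 (Kg p h β) (Pg p h β J J) (gd lam β J C c)
        (fun L => c - L) R (fun L τ g _ u hu hu' => gd_iff hN hu hu')
        (by
          rintro L τ g - ⟨d, hd, j, hj, s, s1, s2, s3, s4⟩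
          exact ⟨d, hd, j, hj, s, s1, s2, by omega, s4⟩)
        (by
          rintro L τ g - hτ ⟨d, hd, j, hj, s, s1, s2, s3, s4⟩
          refine ⟨d, hd, j, hj, s, s1, s2, ?_, s4⟩
          by_contra hc
          have := congrArg (Nat.cast : ℕ → ZMod N) (show s + pos β τ j = L + N by omega)
          rw [Nat.cast_add, Nat.cast_add, pos_cast, s2, ZMod.natCast_self] at this
          exact hτ (by linear_combination -this))
        (fun L g _ H1 H2 => gd_cone hN (hR p h N I β J (by omega) hN hn hJ).2 H1 H2) t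
        (by rwa [ZMod.card]) a a1 a2 (fun T _ q hq H => by
          rcases T.eq_empty_or_nonempty with rfl | hT
          · obtain ⟨x, hx⟩ := e0 q hq
            exact a3 _ q hq x (mem_KT.2 (by simp)) (by rwa [e q hq])
          · obtain ⟨x, x1, x2⟩ := exists_on hd hC hT H
            exact a3 _ q hq x x1 (by rwa [e q hq])) h
      refine ⟨b, b1, fun T q hq x x1 x2 => b2 T q hq fun τ hτ => ?_, fun T hT q hq => ?_⟩
      · exact gd_zero hd hC (mem_KT.1 x1 τ hτ) (by rwa [← e q hq])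
      · obtain ⟨x, hx⟩ := e0 q hq
        exact b3 T hT q hq fun τ _ => gd_top hC x.2 hx τ) f f1 f2
  refine ⟨fun u hu => ?_, m2⟩
  have : u = on hd ⟨u.1 - 1, mem_Pg.1 hu⟩ := Subtype.ext (by simp [on_val])
  rw [this]
  exact m1 _

end Vale.Agent.P067
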