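import Vale.Agent.P067.Spec

/-! P067: basic facts on the concrete groups. -/

set_option linter.unusedSectionVars false

namespace Vale.Agent.P067
open Finset Module

theorem mem_KT {G ι : Type} [Group G] [DecidableEq ι] {K : ι → Subgroup G} {T : Finset ι}
    {u : G} : u ∈ KT K T ↔ ∀ τ ∈ T, u ∈ K τ := by
  simp [KT, Subgroup.mem_iInf]

theorem mem_closure_mul {G : Type} [Group G] [Finite G] {s : Set G} (h1 : (1 : G) ∈ s)
    (hm : ∀ a ∈ s, ∀ b ∈ s, a * b ∈ s) {g : G} : g ∈ Subgroup.closure s ↔ g ∈ s := by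
  refine ⟨fun h => ?_, fun h => Subgroup.subset_closure h⟩
  have h' : g ∈ Submonoid.closure s := by
    rw [← Subgroup.closure_toSubmonoid_of_finite]; exact h
  induction h' using Submonoid.closure_induction with
  | mem x hx => exact hx
  | one => exact h1
  | mul x y hx hy ihx ihy =>
    refine hm _ (ihx ?_) _ (ihy ?_)
    · rw [← Subgroup.closure_toSubmonoid_of_finite] at hx; exact hx
    · rw [← Subgroup.closure_toSubmonoid_of_finite] at hy; exact hy

theorem det_tri {I A : Type} [Fintype I] [DecidableEq I] [CommRing A] (m : Matrix I I A)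
    (f : I → ℕ) (h : ∀ i j, ¬ f j < f i → m i j = (1 : Matrix I I A) i j) : m.det = 1 := by
  have hb : m.transpose.BlockTriangular f := by
    intro i j hij
    rw [Matrix.transpose_apply, h j i (by omega), Matrix.one_apply_ne]
    rintro rfl
    omega
  rw [← Matrix.det_transpose, hb.det]
  refine prod_eq_one fun a _ => ?_
  have : m.transpose.toSquareBlock f a = 1 := by
    ext i j
    simp only [Matrix.toSquareBlock_def, Matrix.of_apply, Matrix.transpose_apply]
    rw [h j i (by rw [i.2, j.2]; omega)]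
    simp [Matrix.one_apply, Subtype.ext_iff, eq_comm]
  rw [this, Matrix.det_one]

section Ring
variable (p h : ℕ) [Fact p.Prime]

theorem monic_Xh : ((Polynomial.X : Polynomial (ZMod p)) ^ h).Monic := Polynomial.monic_X_pow h

instance finite_Rg : Finite (Rg p h) :=
  haveI : Module.Finite (ZMod p) (Rg p h) := (AdjoinRoot.powerBasis' (monic_Xh p h)).finite
  Module.finite_of_finite (ZMod p)

theorem pi_pow {s : ℕ} (hs : h ≤ s) : pi p h ^ s = 0 := by
  have h0 : pi p h ^ h = 0 := by
    have := AdjoinRoot.mk_self (f := (Polynomial.X : Polynomial (ZMod p)) ^ h)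
    rwa [map_pow, AdjoinRoot.mk_X] at this
  obtain ⟨c, rfl⟩ := Nat.exists_eq_add_of_le hs
  rw [pow_add, h0, zero_mul]

/-- coefficient of `pi ^ s` -/
noncomputable def co (s : ℕ) : Rg p h →ₗ[ZMod p] ZMod p :=
  (Polynomial.lcoeff (ZMod p) s).comp (AdjoinRoot.modByMonicHom (monic_Xh p h))

variable {h} in
theorem co_pi {s : ℕ} (hs : s < h) (s' : ℕ) : co p h s (pi p h ^ s') = if s' = s then 1 else 0 := by
  by_cases h' : s' < h
  · have e : pi p h ^ s' = AdjoinRoot.mk _ (Polynomial.X ^ s') := by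
      rw [map_pow, AdjoinRoot.mk_X]; rfl
    rw [e, co, LinearMap.comp_apply, AdjoinRoot.modByMonicHom_mk,
      (Polynomial.modByMonic_eq_self_iff (monic_Xh p h)).2
        (by rw [Polynomial.degree_X_pow, Polynomial.degree_X_pow]; exact_mod_cast h')]
    simp [Polynomial.coeff_X_pow, eq_comm]
  · rw [pi_pow p h (not_lt.1 h'), map_zero, if_neg (by omega)]

variable {p h} {N : ℕ}

theorem pi_mem {s : ℕ} (hs : 1 ≤ s) {a : ZMod N} (e : (s : ZMod N) = a) : pi p h ^ s ∈ Ar p h a :=
  Submodule.subset_span ⟨s, hs, e, rfl⟩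

theorem Ar_mul {a b : ZMod N} {x y : Rg p h} (hx : x ∈ Ar p h a) (hy : y ∈ Ar p h b) :
    x * y ∈ Ar p h (a + b) := by
  induction hx using Submodule.span_induction with
  | mem x hx =>
    obtain ⟨s, hs, e, rfl⟩ := hx
    induction hy using Submodule.span_induction with
    | mem y hy =>
      obtain ⟨s', hs', e', rfl⟩ := hy
      rw [← pow_add]
      exact pi_mem (by omega) (by push_cast; rw [e, e'])
    | zero => simp
    | add y z _ _ h1 h2 => rw [mul_add]; exact add_mem h1 h2
    | smul c y _ h1 => rw [mul_smul_comm]; exact Submodule.smul_mem _ _ h1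
  | zero => simp
  | add y z _ _ h1 h2 => rw [add_mul]; exact add_mem h1 h2
  | smul c y _ h1 => rw [smul_mul_assoc]; exact Submodule.smul_mem _ _ h1

theorem Ar_dvd {a : ZMod N} {x : Rg p h} (hx : x ∈ Ar p h a) : pi p h ∣ x := by
  induction hx using Submodule.span_induction with
  | mem x hx =>
    obtain ⟨s, hs, -, rfl⟩ := hx
    exact dvd_pow_self _ (by omega)
  | zero => simp
  | add y z _ _ h1 h2 => exact dvd_add h1 h2
  | smul c y _ h1 => rw [Algebra.smul_def]; exact h1.mul_left _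

end Ring

section Grp
variable {p h N : ℕ} [Fact p.Prime] {I : Type} [Fintype I] [DecidableEq I] {β : I → ZMod N}

instance finite_Gp : Finite (Gp p h I) := Subtype.finite

theorem Pat.zero (r c : Finset I) : Pat p h β r c 0 := fun i j => by simp

theorem Pat.add {r c : Finset I} {m m' : Matrix I I (Rg p h)} (h1 : Pat p h β r c m)
    (h2 : Pat p h β r c m') : Pat p h β r c (m + m') := fun i j => by
  refine ⟨add_mem (h1 i j).1 (h2 i j).1, fun hne => ?_⟩
  by_cases e : m i j = 0
  · exact (h2 i j).2 (by simpa [e] using hne)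
  · exact (h1 i j).2 e

theorem Pat.mul {r c r' c' : Finset I} {m m' : Matrix I I (Rg p h)} (h1 : Pat p h β r c m)
    (h2 : Pat p h β r' c' m') : Pat p h β r c' (m * m') := fun i j => by
  rw [Matrix.mul_apply]
  refine ⟨Submodule.sum_mem _ fun l _ => ?_, fun hne => ?_⟩
  · have := Ar_mul (h1 i l).1 (h2 l j).1
    rwa [sub_add_sub_cancel] at this
  · obtain ⟨l, -, hl⟩ := exists_ne_zero_of_sum_ne_zero hne
    exact ⟨((h1 i l).2 (left_ne_zero_of_mul hl)).1, ((h2 l j).2 (right_ne_zero_of_mul hl)).2⟩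

theorem Pat.mono {r c r' c' : Finset I} {m : Matrix I I (Rg p h)} (h1 : Pat p h β r c m)
    (hr : r ⊆ r') (hc : c ⊆ c') : Pat p h β r' c' m := fun i j =>
  ⟨(h1 i j).1, fun hne => ⟨hr ((h1 i j).2 hne).1, hc ((h1 i j).2 hne).2⟩⟩

theorem mem_Pg {r c : Finset I} {g : Gp p h I} :
    g ∈ Pg p h β r c ↔ Pat p h β r c (g.1 - 1) := by
  refine mem_closure_mul (s := {g : Gp p h I | Pat p h β r c (g.1 - 1)}) ?_ fun a ha b hb => ?_
  · simpa using Pat.zero r c
  · have e : (a * b).1 - 1 = (a.1 - 1) + (b.1 - 1) + (a.1 - 1) * (b.1 - 1) := by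
      rw [Matrix.SpecialLinearGroup.coe_mul]; noncomm_ring
    show Pat p h β r c _
    rw [e]
    exact (Pat.add ha hb).add (Pat.mul ha hb)

theorem Pg_mono {r c r' c' : Finset I} (hr : r ⊆ r') (hc : c ⊆ c') :
    Pg p h β r c ≤ Pg p h β r' c' := fun _ hg => mem_Pg.2 ((mem_Pg.1 hg).mono hr hc)

theorem Uni.low {τ : ZMod N} {a : Matrix I I (ZMod p)} (ha : Uni β τ a) {i j : I}
    (hij : pos β τ i < pos β τ j) : a i j = 0 := by
  rw [ha i j (by omega), Matrix.one_apply_ne]
  rintro rfl
  omega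

theorem Uni.one (τ : ZMod N) : Uni β τ (1 : Matrix I I (ZMod p)) := fun _ _ _ => rfl

theorem Uni.mul {τ : ZMod N} {a b : Matrix I I (ZMod p)} (ha : Uni β τ a) (hb : Uni β τ b) :
    Uni β τ (a * b) := by
  intro i j hij
  have : ∀ l, a i l * b l j = (1 : Matrix I I (ZMod p)) i l * (1 : Matrix I I (ZMod p)) l j := by
    intro l
    by_cases h1 : pos β τ l < pos β τ i
    · rw [hb.low (i := l) (j := j) (by omega), Matrix.one_apply_ne (i := i) (by rintro rfl; omega)]
      simp
    · by_cases h2 : pos β τ j < pos β τ l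
      · rw [ha.low (i := i) (j := l) (by omega),
          Matrix.one_apply_ne (i := l) (by rintro rfl; omega)]
        simp
      · rw [ha i l h1, hb l j h2]
  rw [Matrix.mul_apply, sum_congr rfl fun l _ => this l, ← Matrix.mul_apply, one_mul]

theorem em_apply (τ : ZMod N) (a : Matrix I I (ZMod p)) (i j : I) :
    em p h β τ a i j = a i j • pi p h ^ (pos β τ i - pos β τ j) := rfl

theorem em_one (τ : ZMod N) : em p h β τ 1 = 1 := by
  ext i j
  by_cases e : i = j <;> simp [em_apply, Matrix.one_apply, e]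

theorem em_mul {τ : ZMod N} {a b : Matrix I I (ZMod p)} (ha : Uni β τ a) (hb : Uni β τ b) :
    em p h β τ (a * b) = em p h β τ a * em p h β τ b := by
  ext i j
  simp only [em_apply, Matrix.mul_apply, sum_smul]
  refine sum_congr rfl fun l _ => ?_
  by_cases h1 : pos β τ i < pos β τ l
  · simp [ha.low h1]
  by_cases h2 : pos β τ l < pos β τ j
  · simp [hb.low h2]
  rw [smul_mul_smul_comm, ← pow_add]
  congr 2
  omega

theorem em_tri {τ : ZMod N} {a : Matrix I I (ZMod p)} (ha : Uni β τ a) (i j : I)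
    (hij : ¬ pos β τ j < pos β τ i) : em p h β τ a i j = (1 : Matrix I I (Rg p h)) i j := by
  rw [← em_one (β := β) τ, em_apply, em_apply, ha i j hij]

/-- the group element attached to a block unitriangular constant matrix -/
noncomputable def ek (h : ℕ) {τ : ZMod N} {a : Matrix I I (ZMod p)} (ha : Uni β τ a) : Gp p h I :=
  ⟨em p h β τ a, det_tri _ (pos β τ) (em_tri ha)⟩

theorem mem_Kg {τ : ZMod N} {g : Gp p h I} :
    g ∈ Kg p h β τ ↔ ∃ a, Uni β τ a ∧ g.1 = em p h β τ a := by
  refine mem_closure_mul (s := {g : Gp p h I | ∃ a, Uni β τ a ∧ g.1 = em p h β τ a})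
    ⟨1, Uni.one τ, (em_one τ).symm⟩ ?_
  rintro x ⟨a, ha, e⟩ y ⟨b, hb, e'⟩
  exact ⟨a * b, ha.mul hb, by rw [Matrix.SpecialLinearGroup.coe_mul, e, e', em_mul ha hb]⟩

theorem ek_mem {τ : ZMod N} {a : Matrix I I (ZMod p)} (ha : Uni β τ a) : ek h ha ∈ Kg p h β τ :=
  mem_Kg.2 ⟨a, ha, rfl⟩

variable [NeZero N]

theorem pos_lt (τ : ZMod N) (i : I) : pos β τ i < N := ZMod.val_lt _

theorem pos_cast (τ : ZMod N) (i : I) : ((pos β τ i : ℕ) : ZMod N) = β i - τ := by
  simp [pos]

/-- the coefficient matrix -/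
noncomputable def cf (β : I → ZMod N) (τ : ZMod N) (g : Gp p h I) : Matrix I I (ZMod p) :=
  Matrix.of fun i j => co p h (pos β τ i - pos β τ j) (g.1 i j)

theorem cf_em (hN : N ≤ h) {τ : ZMod N} {a : Matrix I I (ZMod p)} {g : Gp p h I}
    (e : g.1 = em p h β τ a) : cf β τ g = a := by
  ext i j
  have := pos_lt (β := β) τ i
  simp only [cf, Matrix.of_apply, e, em_apply, map_smul]
  rw [co_pi p (by omega)]
  simp

theorem cf_spec (hN : N ≤ h) {τ : ZMod N} {g : Gp p h I} (hg : g ∈ Kg p h β τ) :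
    Uni β τ (cf β τ g) ∧ g.1 = em p h β τ (cf β τ g) := by
  obtain ⟨a, ha, e⟩ := mem_Kg.1 hg
  rw [cf_em hN e]
  exact ⟨ha, e⟩

theorem cf_mul (hN : N ≤ h) {τ : ZMod N} {g g' : Gp p h I} (hg : g ∈ Kg p h β τ)
    (hg' : g' ∈ Kg p h β τ) : cf β τ (g * g') = cf β τ g * cf β τ g' := by
  obtain ⟨h1, e1⟩ := cf_spec hN hg
  obtain ⟨h2, e2⟩ := cf_spec hN hg'
  refine cf_em hN ?_
  rw [em_mul h1 h2, ← e1, ← e2, Matrix.SpecialLinearGroup.coe_mul]

theorem cf_one (hN : N ≤ h) (τ : ZMod N) : cf β τ (1 : Gp p h I) = 1 :=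
  cf_em hN (em_one τ).symm

theorem cf_inj (hN : N ≤ h) {τ : ZMod N} {g g' : Gp p h I} (hg : g ∈ Kg p h β τ)
    (hg' : g' ∈ Kg p h β τ) (e : cf β τ g = cf β τ g') : g = g' :=
  Subtype.ext (by rw [(cf_spec hN hg).2, (cf_spec hN hg').2, e])

/-- entries of `em a - 1` -/
theorem em_sub {τ : ZMod N} {a : Matrix I I (ZMod p)} (ha : Uni β τ a) (i j : I) :
    (em p h β τ a - 1) i j =
      if pos β τ j < pos β τ i then a i j • pi p h ^ (pos β τ i - pos β τ j) else 0 := by
  rw [Matrix.sub_apply]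
  split_ifs with hij
  · rw [Matrix.one_apply_ne (by rintro rfl; omega), sub_zero, em_apply]
  · rw [em_tri ha i j hij, sub_self]

theorem em_mem_Pg (hN : N ≤ h) {τ : ZMod N} {a : Matrix I I (ZMod p)} (ha : Uni β τ a)
    {g : Gp p h I} (e : g.1 = em p h β τ a) {r c : Finset I} :
    g ∈ Pg p h β r c ↔ ∀ i j, pos β τ j < pos β τ i → a i j ≠ 0 → i ∈ r ∧ j ∈ c := by
  rw [mem_Pg, e]
  constructor
  · intro H i j hij hne
    refine (H i j).2 fun h0 => hne ?_
    rw [em_sub ha, if_pos hij] at h0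
    have := congrArg (co p h (pos β τ i - pos β τ j)) h0
    have h2 := pos_lt (β := β) τ i
    rw [map_smul, co_pi p (by omega)] at this
    simpa using this
  · intro H i j
    rw [em_sub ha]
    split_ifs with hij
    · refine ⟨Submodule.smul_mem _ _ (pi_mem (by omega) ?_), fun hne => H i j hij ?_⟩
      · rw [Nat.cast_sub hij.le, pos_cast, pos_cast]; ring
      · intro h0
        simp [h0] at hne
    · simp

theorem Kg_le (hN : N ≤ h) (τ : ZMod N) : Kg p h β τ ≤ Pg p h β univ univ := fun g hg => by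
  obtain ⟨a, ha, e⟩ := mem_Kg.1 hg
  exact (em_mem_Pg hN ha e).2 fun _ _ _ _ => ⟨mem_univ _, mem_univ _⟩

theorem pos_change (τ τ' : ZMod N) (i : I) :
    pos β τ' i + (τ' - τ).val = pos β τ i ∨ pos β τ' i + (τ' - τ).val = pos β τ i + N := by
  have e : β i - τ = (β i - τ') + (τ' - τ) := by ring
  have h1 := ZMod.val_lt (β i - τ')
  have h2 := ZMod.val_lt (τ' - τ)
  unfold pos
  rw [e, ZMod.val_add]
  by_cases hc : (β i - τ').val + (τ' - τ).val < N
  · left; rw [Nat.mod_eq_of_lt hc]
  · right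
    rw [Nat.mod_eq_sub_mod (not_lt.1 hc), Nat.mod_eq_of_lt (by omega)]
    omega

/-- membership in a second vertex stabiliser -/
theorem em_mem_Kg (hN : N ≤ h) {τ : ZMod N} {a : Matrix I I (ZMod p)} (ha : Uni β τ a)
    {g : Gp p h I} (e : g.1 = em p h β τ a) (τ' : ZMod N) :
    g ∈ Kg p h β τ' ↔
      ∀ i j, pos β τ j < (τ' - τ).val → (τ' - τ).val ≤ pos β τ i → a i j = 0 := by
  constructor
  · intro hg i j h1 h2
    obtain ⟨a', ha', e'⟩ := mem_Kg.1 hg
    have b1 := pos_lt (β := β) τ i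
    have b2 := pos_lt (β := β) τ' i
    have b3 := pos_lt (β := β) τ' j
    have c1 := pos_change (β := β) τ τ' i
    have c2 := pos_change (β := β) τ τ' j
    have h0 := em_sub (p := p) (h := h) ha' i j
    rw [← e', e, em_sub ha, if_pos (by omega), if_neg (by omega)] at h0
    have := congrArg (co p h (pos β τ i - pos β τ j)) h0
    rw [map_smul, co_pi p (by omega)] at this
    simpa using this
  · intro H
    refine mem_Kg.2 ⟨a, fun i j hij => ?_, ?_⟩
    · by_cases hc : pos β τ j < pos β τ i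
      · have b1 := pos_lt (β := β) τ i
        have b2 := pos_lt (β := β) τ' i
        have b3 := pos_lt (β := β) τ' j
        have c1 := pos_change (β := β) τ τ' i
        have c2 := pos_change (β := β) τ τ' j
        rw [H i j (by omega) (by omega), Matrix.one_apply_ne (by rintro rfl; omega)]
      · exact ha i j hc
    · rw [e]
      ext i j
      rw [em_apply, em_apply]
      by_cases h0 : a i j = 0
      · simp [h0]
      have b1 := pos_lt (β := β) τ i
      have b2 := pos_lt (β := β) τ' i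
      have b3 := pos_lt (β := β) τ' j
      have b4 := pos_lt (β := β) τ j
      have c1 := pos_change (β := β) τ τ' i
      have c2 := pos_change (β := β) τ τ' j
      by_cases hc : pos β τ j < pos β τ i
      · have : ¬ (pos β τ j < (τ' - τ).val ∧ (τ' - τ).val ≤ pos β τ i) := fun c => h0 (H i j c.1 c.2)
        congr 2
        omega
      · have : i = j := by
          by_contra hne
          exact h0 (by rw [ha i j hc, Matrix.one_apply_ne hne])
        subst this
        simp

end Grp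

end Vale.Agent.P067
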