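import Vale.Agent.P067.DD1

/-! P067 module D, part 2: locally minimal cochains, the local to global estimate. -/

namespace Vale.Agent.P067
namespace DD
open Finset

variable {G ι : Type} [Group G] [DecidableEq ι] [Fintype G] [Fintype ι]

/-- the sets of `n` types containing `S` -/
def Up (n : ℕ) (S : Finset ι) : Finset (Finset ι) :=
  (powersetCard n (univ : Finset ι)).filter fun T => S ⊆ T

theorem mem_Up {n : ℕ} {S T : Finset ι} : T ∈ Up n S ↔ T.card = n ∧ S ⊆ T := by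
  simp [Up, mem_powersetCard]

theorem card_pc (n : ℕ) : ((powersetCard n (univ : Finset ι)).card : ℝ) ≤ 2 ^ Fintype.card ι := by
  rw [card_powersetCard, card_univ]
  exact_mod_cast Nat.choose_le_two_pow _ _

theorem card_Up (n : ℕ) (S : Finset ι) : ((Up n S).card : ℝ) ≤ 2 ^ Fintype.card ι :=
  (Nat.cast_le.2 (card_filter_le _ _)).trans (card_pc n)

theorem reidx (S : Finset ι) (n : ℕ) (F : Finset ι → ℝ) :
    ∑ T ∈ powersetCard n Sᶜ, F (S ∪ T) = ∑ T ∈ Up (n + S.card) S, F T := by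
  refine sum_nbij' (fun T => S ∪ T) (fun T => T \ S) ?_ ?_ ?_ ?_ fun _ _ => rfl
  · intro T hT
    obtain ⟨h1, h2⟩ := mem_powersetCard.1 hT
    have hd : Disjoint S T := (subset_compl_iff_disjoint_right.1 h1).symm
    exact mem_Up.2 ⟨by rw [card_union_of_disjoint hd]; omega, subset_union_left⟩
  · intro T hT
    obtain ⟨h1, h2⟩ := mem_Up.1 hT
    exact mem_powersetCard.2 ⟨subset_compl_iff_disjoint_right.2 sdiff_disjoint,
      by rw [card_sdiff_of_subset h2]; omega⟩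
  · intro T hT
    exact union_sdiff_cancel_left (subset_compl_iff_disjoint_right.1 (mem_powersetCard.1 hT).1).symm
  · intro T hT
    exact union_sdiff_of_subset (mem_Up.1 hT).2

open Classical in
/-- a function on `A` transported to the coset `g0 A` and extended by zero -/
noncomputable def pm (A : Subgroup G) (g0 : G) (e : G → ZMod 2) (g : G) : ZMod 2 :=
  if g0⁻¹ * g ∈ A then e (g0⁻¹ * g) else 0

theorem modif {A B : Subgroup G} (h : A ≤ B) {g0 : G} (hg : g0 ∈ B) (p e : G → ZMod 2) :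
    ∑ g ∈ BF B, ind (p g + pm A g0 e g) + ∑ u ∈ BF A, ind (p (g0 * u)) =
      ∑ g ∈ BF B, ind (p g) + ∑ u ∈ BF A, ind (p (g0 * u) + e u) := by
  classical
  have hs : BF A ⊆ BF B := fun u hu => mem_BF.2 (h (mem_BF.1 hu))
  rw [← sum_left hg fun g => ind (p g + pm A g0 e g), ← sum_left hg fun g => ind (p g),
    ← sum_sdiff hs, ← sum_sdiff hs]
  have e1 : ∑ u ∈ BF B \ BF A, ind (p (g0 * u) + pm A g0 e (g0 * u)) =
      ∑ u ∈ BF B \ BF A, ind (p (g0 * u)) := sum_congr rfl fun u hu => by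
    have : u ∉ A := fun h => (mem_sdiff.1 hu).2 (mem_BF.2 h)
    simp [pm, this]
  have e2 : ∑ u ∈ BF A, ind (p (g0 * u) + pm A g0 e (g0 * u)) =
      ∑ u ∈ BF A, ind (p (g0 * u) + e u) := sum_congr rfl fun u hu => by
    simp [pm, mem_BF.1 hu]
  rw [e1, e2]
  ring

/-- real valued weight -/
noncomputable def WT (B : Subgroup G) (t : ℕ) (f : Finset ι → G → ZMod 2) : ℝ :=
  ∑ T ∈ powersetCard t (univ : Finset ι), ∑ g ∈ BF B, ind (f T g)

theorem WT_nonneg (B : Subgroup G) (t : ℕ) (f : Finset ι → G → ZMod 2) : 0 ≤ WT B t f :=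
  sum_nonneg fun _ _ => sum_nonneg fun _ _ => ind_nonneg _

theorem modif2 {A B : Subgroup G} (h : A ≤ B) {g0 : G} (hg : g0 ∈ B) (S : Finset ι) (n : ℕ)
    (p e : Finset ι → G → ZMod 2) :
    WT B n (fun T g => p T g + if S ⊆ T then pm A g0 (e T) g else 0) +
        ∑ T ∈ Up n S, ∑ u ∈ BF A, ind (p T (g0 * u)) =
      WT B n p + ∑ T ∈ Up n S, ∑ u ∈ BF A, ind (p T (g0 * u) + e T u) := by
  simp only [WT, Up, sum_filter, ← sum_add_distrib]
  refine sum_congr rfl fun T _ => ?_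
  by_cases hT : S ⊆ T
  · simp only [hT, if_true]
    exact modif h hg (p T) (e T)
  · simp only [hT, if_false, add_zero]

omit [Fintype G] [Fintype ι] in
theorem dl_pm (A : Subgroup G) (g0 : G) (S : Finset ι) (b : Finset ι → G → ZMod 2) (T : Finset ι)
    (g : G) : dl (fun T g => if S ⊆ T then pm A g0 (b (T \ S)) g else 0) T g =
      if S ⊆ T then pm A g0 (dl b (T \ S)) g else 0 := by
  unfold dl pm
  by_cases hT : S ⊆ T
  · by_cases hg : g0⁻¹ * g ∈ A
    · simp only [hT, hg, if_true]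
      rw [← sum_filter]
      refine sum_congr ?_ fun τ _ => by rw [erase_sdiff_comm]
      ext τ
      simp [subset_erase, hT]
    · simp [hg]
  · rw [if_neg hT]
    exact sum_eq_zero fun τ _ => if_neg fun h => hT (h.trans (erase_subset _ _))

omit [Group G] [Fintype G] [Fintype ι] in
theorem dl_link (a : Finset ι → G → ZMod 2) {S Q : Finset ι} (hd : Disjoint S Q) (g : G) :
    ∑ τ ∈ Q, dl a (S ∪ Q.erase τ) g = ∑ v ∈ S, dl a ((S ∪ Q).erase v) g := by
  have h := dl_dl a (S ∪ Q) g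
  rw [dl, sum_union hd] at h
  have e : ∑ τ ∈ Q, dl a (S ∪ Q.erase τ) g = ∑ τ ∈ Q, dl a ((S ∪ Q).erase τ) g :=
    sum_congr rfl fun τ hτ => by
      rw [erase_union_distrib, erase_eq_of_notMem (disjoint_right.1 hd hτ)]
  rw [e, eq_neg_of_add_eq_zero_right h, CharTwo.neg_eq]

/-- the local inequality coming from minimality -/
theorem loc {K : ι → Subgroup G} {B : Subgroup G} {R t : ℕ} (hL : LinkCone K B R)
    (ht : t + 2 ≤ Fintype.card ι) {eps : ℝ} (he : 0 ≤ eps) {f f1 : Finset ι → G → ZMod 2}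
    (h1 : Inv K B B f1)
    (hmin : ∀ f', Inv K B B f' →
      WT B (t + 1) (dl f1) + eps * WT B t (f + f1) ≤ WT B (t + 1) (dl f') + eps * WT B t (f + f'))
    {S : Finset ι} (hS : S.Nonempty) (hc : S.card ≤ t + 1) {g0 : G} (hg : g0 ∈ B) :
    ∑ T ∈ Up (t + 1) S, ∑ u ∈ BF (B ⊓ KT K S), ind (dl f1 T (g0 * u)) ≤
      eps * 2 ^ Fintype.card ι * (BF (B ⊓ KT K S)).card + (2 ^ Fintype.card ι * R + 1) *
        ∑ Q ∈ Up (t + 2) S, ∑ v ∈ S, ∑ u ∈ BF (B ⊓ KT K S), ind (dl f1 (Q.erase v) (g0 * u)) := by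
  set A := B ⊓ KT K S with hA
  set X := ∑ Q ∈ Up (t + 2) S, ∑ v ∈ S, ∑ u ∈ BF A, ind (dl f1 (Q.erase v) (g0 * u)) with hX
  have hX0 : 0 ≤ X := sum_nonneg fun _ _ => sum_nonneg fun _ _ => sum_nonneg fun _ _ => ind_nonneg _
  obtain ⟨s, hs⟩ : ∃ s, t + 1 = s + S.card := ⟨t + 1 - S.card, by omega⟩
  let φ : Finset ι → G → ZMod 2 := fun T u => dl f1 (S ∪ T) (g0 * u)
  have hY : ∑ Q ∈ powersetCard (s + 1) Sᶜ, ∑ u ∈ BF A, ind (dl φ Q u) ≤ X := by
    rw [hX, show t + 2 = s + 1 + S.card by omega, ← reidx]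
    refine sum_le_sum fun Q hQ => ?_
    rw [sum_comm]
    refine sum_le_sum fun u _ => ?_
    have hd : Disjoint S Q := (subset_compl_iff_disjoint_right.1 (mem_powersetCard.1 hQ).1).symm
    have : dl φ Q u = ∑ v ∈ S, dl f1 ((S ∪ Q).erase v) (g0 * u) := dl_link f1 hd _
    rw [this]
    exact ind_sum _ _
  have hcS : s + 1 ≤ Sᶜ.card := by rw [card_compl]; omega
  have hP : (0 : ℝ) ≤ 2 ^ Fintype.card ι * R := by positivity
  have hQ : 0 ≤ eps * 2 ^ Fintype.card ι * (BF A).card := by positivity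
  rcases s with _ | s
  · obtain ⟨w, hw⟩ : Sᶜ.Nonempty := card_pos.1 (by omega)
    have e1 : ∑ T ∈ Up (t + 1) S, ∑ u ∈ BF A, ind (dl f1 T (g0 * u)) =
        ∑ u ∈ BF A, ind (dl φ {w} u) := by
      rw [hs, ← reidx]
      simp [φ, dl]
    have e2 := single_le_sum (f := fun Q => ∑ u ∈ BF A, ind (dl φ Q u))
      (fun _ _ => sum_nonneg fun _ _ => ind_nonneg _)
      (mem_powersetCard.2 ⟨singleton_subset_iff.2 hw, by simp⟩ : {w} ∈ powersetCard (0 + 1) Sᶜ)
    nlinarith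
  have hφ : Inv K A A φ := fun T g hg' u hu hT => by
    show dl f1 (S ∪ T) (g0 * (g * u)) = dl f1 (S ∪ T) (g0 * g)
    rw [← mul_assoc]
    refine Inv_dl h1 _ _ (B.mul_mem hg hg'.1) u hu.1 (mem_KT.2 fun τ hτ => ?_)
    rcases mem_union.1 hτ with h | h
    exacts [mem_KT.1 hu.2 τ h, mem_KT.1 hT τ h]
  obtain ⟨b, hb, hle⟩ := expand (hL S Sᶜ hS disjoint_compl_right) hcS hφ
  let e : Finset ι → G → ZMod 2 := fun T g => if S ⊆ T then pm A g0 (b (T \ S)) g else 0
  have hI : Inv K B B (f1 + e) := fun T g hg' u hu hT => by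
    show f1 T (g * u) + e T (g * u) = f1 T g + e T g
    rw [h1 T g hg' u hu hT]
    congr 1
    simp only [e, pm]
    by_cases hST : S ⊆ T
    · have huA : u ∈ A := ⟨hu, KT_mono hST hT⟩
      rw [if_pos hST, if_pos hST, ← mul_assoc]
      by_cases h : g0⁻¹ * g ∈ A
      · rw [if_pos h, if_pos (A.mul_mem h huA)]
        exact hb _ _ h u huA (KT_mono sdiff_subset hT)
      · rw [if_neg h, if_neg fun h' => h ((A.mul_mem_cancel_right huA).1 h')]
    · simp only [hST, if_false]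
  have hm := hmin _ hI
  have e1 : dl (f1 + e) = fun T g => dl f1 T g +
      if S ⊆ T then pm A g0 (dl b (T \ S)) g else 0 := by
    funext T g
    rw [← dl_pm]
    exact sum_add_distrib
  have e2 := modif2 (inf_le_left : A ≤ B) hg S (t + 1) (dl f1) fun T => dl b (T \ S)
  have e3 := modif2 (inf_le_left : A ≤ B) hg S t (f + f1) fun T => b (T \ S)
  have e4 : f + (f1 + e) = fun T g => (f + f1) T g +
      if S ⊆ T then pm A g0 (b (T \ S)) g else 0 := by
    rw [← add_assoc]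
    rfl
  rw [← e1] at e2
  rw [← e4] at e3
  have e5 : ∑ T ∈ Up t S, ∑ u ∈ BF A, ind ((f + f1) T (g0 * u) + b (T \ S) u) ≤
      2 ^ Fintype.card ι * (BF A).card := by
    refine (sum_le_card_nsmul _ _ ((BF A).card : ℝ) fun T _ => ?_).trans ?_
    · simpa using sum_le_card_nsmul (BF A) _ 1 fun u _ => ind_le ((f + f1) T (g0 * u) + b (T \ S) u)
    · rw [nsmul_eq_mul]
      exact mul_le_mul_of_nonneg_right (card_Up _ _) (card_pos' A).le
  have e6 : 0 ≤ ∑ T ∈ Up t S, ∑ u ∈ BF A, ind ((f + f1) T (g0 * u)) :=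
    sum_nonneg fun _ _ => sum_nonneg fun _ _ => ind_nonneg _
  have e7 : ∑ T ∈ Up (t + 1) S, ∑ u ∈ BF A, ind (dl f1 T (g0 * u) + dl b (T \ S) u) =
      ∑ T ∈ powersetCard (s + 1) Sᶜ, ∑ u ∈ BF A, ind (φ T u + dl b T u) := by
    rw [hs, ← reidx]
    refine sum_congr rfl fun T hT => ?_
    rw [union_sdiff_cancel_left
      (subset_compl_iff_disjoint_right.1 (mem_powersetCard.1 hT).1).symm]
  have e8 : (2 : ℝ) ^ Sᶜ.card * R ≤ 2 ^ Fintype.card ι * R :=
    mul_le_mul_of_nonneg_right (pow_le_pow_right₀ (by norm_num) (card_le_univ _)) (by positivity)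
  have e9 := mul_le_mul e8 hY (sum_nonneg fun _ _ => sum_nonneg fun _ _ => ind_nonneg _) hP
  have e10 := mul_le_mul_of_nonneg_left (by linarith :
    WT B t (f + (f1 + e)) ≤ WT B t (f + f1) + 2 ^ Fintype.card ι * (BF A).card) he
  rw [e7] at e2
  nlinarith

omit [Fintype ι] in
/-- the recursion on the number of types -/
theorem recur (B : Subgroup G) (om : Finset ι → G → ℝ) {k th D : ℝ} {n : ℕ} (hk : 0 ≤ k)
    (hth : 0 ≤ th) (hD : 0 ≤ D) (h0 : ∀ g ∈ B, om ∅ g ≤ th)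
    (hs : ∀ S : Finset ι, S.Nonempty → S.card ≤ n → ∃ z, nsq B z ≤ D ∧
      ∀ g ∈ B, om S g ≤ th + k * ∑ v ∈ S, om (S.erase v) g + z g) :
    ∀ s ≤ n, ∀ S : Finset ι, S.card = s → ∃ r, nsq B r ≤ (2 * (k * n) ^ 2 + k * n + 2) ^ s * D ∧
      ∀ g ∈ B, om S g ≤ (2 * (k * n) ^ 2 + k * n + 2) ^ s * th + r g := by
  set c := 2 * (k * n) ^ 2 + k * n + 2 with hc
  have hkn : 0 ≤ k * n := by positivity
  have hc1 : 1 ≤ c := by nlinarith
  intro s
  induction s with
  | zero =>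
    intro _ S hS
    rw [card_eq_zero.1 hS]
    exact ⟨fun _ => 0, by simpa [nsq_eq] using hD, fun g hg => by simpa using h0 g hg⟩
  | succ s ih =>
    intro hn S hS
    obtain ⟨z, hz1, hz2⟩ := hs S (card_pos.1 (by omega)) (by omega)
    have h1 : ∀ v, ∃ r, v ∈ S → nsq B r ≤ c ^ s * D ∧
        ∀ g ∈ B, om (S.erase v) g ≤ c ^ s * th + r g := fun v => by
      by_cases hv : v ∈ S
      · obtain ⟨r, hr⟩ := ih (by omega) (S.erase v) (by rw [card_erase_of_mem hv]; omega)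
        exact ⟨r, fun _ => hr⟩
      · exact ⟨fun _ => 0, fun h => absurd h hv⟩
    choose r hr using h1
    have hp : 1 ≤ c ^ s := one_le_pow₀ hc1
    have hcard : (S.card : ℝ) ≤ n := Nat.cast_le.2 (by omega)
    have hks : k * S.card ≤ k * n := mul_le_mul_of_nonneg_left hcard hk
    have hks0 : 0 ≤ k * S.card := by positivity
    refine ⟨fun g => k * ∑ v ∈ S, r v g + z g, ?_, fun g hg => ?_⟩
    · have a1 := nsq_add B (fun g => k * ∑ v ∈ S, r v g) z
      rw [nsq_smul] at a1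
      have a2 := nsq_sum B S r
      have a3 := sum_le_card_nsmul S (fun v => nsq B (r v)) _ fun v hv => (hr v hv).1
      rw [nsmul_eq_mul] at a3
      have a4 := mul_le_mul_of_nonneg_left (a2.trans
        (mul_le_mul_of_nonneg_left a3 (Nat.cast_nonneg _))) (sq_nonneg k)
      have a5 : (k * S.card) ^ 2 * (c ^ s * D) ≤ (k * n) ^ 2 * (c ^ s * D) :=
        mul_le_mul_of_nonneg_right (pow_le_pow_left₀ hks0 hks 2) (by positivity)
      have a6 : D ≤ c ^ s * D := le_mul_of_one_le_left hD hp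
      have a7 : 0 ≤ k * n * (c ^ s * D) := by positivity
      have a8 : c ^ (s + 1) * D = 2 * ((k * n) ^ 2 * (c ^ s * D)) + k * n * (c ^ s * D) +
          2 * (c ^ s * D) := by rw [pow_succ c s]; nth_rewrite 2 [hc]; ring
      nlinarith
    · have a1 := hz2 g hg
      have a2 : ∑ v ∈ S, om (S.erase v) g ≤ S.card * (c ^ s * th) + ∑ v ∈ S, r v g := by
        rw [← nsmul_eq_mul, ← sum_const, ← sum_add_distrib]
        exact sum_le_sum fun v hv => (hr v hv).2 g hg
      have a3 := mul_le_mul_of_nonneg_left a2 hk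
      have a4 : k * S.card * (c ^ s * th) ≤ k * n * (c ^ s * th) :=
        mul_le_mul_of_nonneg_right hks (by positivity)
      have a6 : th ≤ c ^ s * th := le_mul_of_one_le_left hth hp
      have a7 : 0 ≤ (k * n) ^ 2 * (c ^ s * th) := by positivity
      have a8 : c ^ (s + 1) * th = 2 * ((k * n) ^ 2 * (c ^ s * th)) + k * n * (c ^ s * th) +
          2 * (c ^ s * th) := by rw [pow_succ c s]; nth_rewrite 2 [hc]; ring
      nlinarith

/-- a locally minimal coboundary of small weight vanishes -/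
theorem vanish {K : ι → Subgroup G} {B : Subgroup G} {N t : ℕ} (hN : Fintype.card ι = N)
    {lam : ℝ} (hS : ∀ T a b, a ∉ T → b ∉ T → a ≠ b → Sw K B lam T a b) (ht : t + 2 ≤ N)
    {eps k : ℝ} (he : 0 ≤ eps) (hk : 0 ≤ k) {γ : Finset ι → G → ZMod 2} (hγ : Inv K B B γ)
    (hW : WT B (t + 1) γ ≤ eps * (BF B).card)
    (hloc : ∀ S : Finset ι, S.Nonempty → S.card ≤ t + 1 → ∀ g ∈ B,
      ∑ T ∈ Up (t + 1) S, ∑ u ∈ BF (B ⊓ KT K S), ind (γ T (g * u)) ≤
        eps * 2 ^ N * (BF (B ⊓ KT K S)).card + k *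
          ∑ Q ∈ Up (t + 2) S, ∑ v ∈ S, ∑ u ∈ BF (B ⊓ KT K S), ind (γ (Q.erase v) (g * u)))
    (h1 : (2 * (k * N) ^ 2 + k * N + 2) ^ N * (eps * 2 ^ N) ≤ 1 / 2)
    (h2 : 2 ^ N * 4 * (2 * (k * N) ^ 2 + k * N + 2) ^ N *
      (k * 2 ^ N * N) ^ 2 * 4 ^ N * lam ^ 2 ≤ 1 / 2) : WT B (t + 1) γ = 0 := by
  set W := WT B (t + 1) γ with hWd
  have hW0 : 0 ≤ W := WT_nonneg _ _ _
  let h : Finset ι → G → ℝ := fun T g => ind (γ T g)
  let om : Finset ι → G → ℝ := fun S g => ∑ T ∈ Up (t + 1) S, av (B ⊓ KT K S) (h T) g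
  have hav : ∀ A T g, 0 ≤ av A (h T) g := fun A T g =>
    div_nonneg (sum_nonneg fun _ _ => ind_nonneg _) (card_pos' A).le
  have hn : ∀ T : Finset ι, T.card = t + 1 → nsq B (h T) ≤ W := fun T hT => by
    simp only [nsq_eq, h, ind_sq]
    exact single_le_sum (f := fun T => ∑ g ∈ BF B, ind (γ T g))
      (fun _ _ => sum_nonneg fun _ _ => ind_nonneg _) (mem_powersetCard.2 ⟨subset_univ _, hT⟩)
  have hcN : ∀ S : Finset ι, (S.card : ℝ) ≤ N := fun S => by
    exact_mod_cast hN ▸ card_le_univ S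
  have hrec := recur B om (k := k) (th := eps * 2 ^ N)
    (D := (k * 2 ^ N * N) ^ 2 * 4 ^ N * lam ^ 2 * W) (n := t + 1) hk (by positivity)
    (by positivity) (fun g hg => ?_) (fun S hS0 hc => ?_)
  · set c := 2 * (k * N) ^ 2 + k * N + 2 with hc
    have hkn : 0 ≤ k * ((t + 1 : ℕ) : ℝ) := by positivity
    have hkN : k * ((t + 1 : ℕ) : ℝ) ≤ k * N :=
      mul_le_mul_of_nonneg_left (Nat.cast_le.2 (by omega)) hk
    have hcc : (2 * (k * ((t + 1 : ℕ) : ℝ)) ^ 2 + k * ((t + 1 : ℕ) : ℝ) + 2) ^ (t + 1) ≤ c ^ N :=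
      (pow_le_pow_left₀ (by positivity) (by nlinarith) _).trans
        (pow_le_pow_right₀ (by nlinarith) (by omega))
    have hT : ∀ T ∈ powersetCard (t + 1) (univ : Finset ι), ∑ g ∈ BF B, ind (γ T g) ≤
        4 * (c ^ N * ((k * 2 ^ N * N) ^ 2 * 4 ^ N * lam ^ 2 * W)) := fun T hT => by
      have hT' := (mem_powersetCard.1 hT).2
      obtain ⟨r, r1, r2⟩ := hrec (t + 1) le_rfl T hT'
      have r3 := r1.trans (mul_le_mul_of_nonneg_right hcc (by positivity))
      refine le_trans ?_ (mul_le_mul_of_nonneg_left r3 (by norm_num))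
      rw [nsq_eq, mul_sum]
      refine sum_le_sum fun g hg => ?_
      have hg' := mem_BF.1 hg
      have r4 : h T g ≤ om T g := by
        rw [← av_fix (A := B ⊓ KT K T) (x := h T) (g := g) fun u hu =>
          congrArg ind (hγ T g hg' u hu.1 hu.2)]
        exact single_le_sum (f := fun T' => av (B ⊓ KT K T) (h T') g) (fun _ _ => hav _ _ _)
          (mem_Up.2 ⟨hT', Subset.rfl⟩)
      have r5 := mul_le_mul_of_nonneg_right hcc (by positivity : 0 ≤ eps * 2 ^ N)
      have r6 : ind (γ T g) ≤ 1 / 2 + r g := by linarith [r2 g hg']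
      nlinarith [ind_sq (γ T g), ind_nonneg (γ T g), ind_le (γ T g), sq_nonneg (2 * r g - 1),
        sq_nonneg (ind (γ T g) - 2 * r g)]
    have a1 := sum_le_card_nsmul _ _ _ hT
    rw [nsmul_eq_mul] at a1
    have a2 := mul_le_mul_of_nonneg_right (hN ▸ card_pc (ι := ι) (t + 1))
      (by positivity : 0 ≤ 4 * (c ^ N * ((k * 2 ^ N * N) ^ 2 * 4 ^ N * lam ^ 2 * W)))
    have a3 := mul_le_mul_of_nonneg_right h2 hW0
    have a4 : W ≤ 1 / 2 * W := by
      refine le_trans (a1.trans a2) (le_trans (le_of_eq ?_) a3)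
      ring
    linarith
  · have e0 : B ⊓ KT K (∅ : Finset ι) = B := by simp [KT]
    have e1 : om ∅ g = W / (BF B).card := by
      simp only [om, e0, av_eq, ← sum_div, Up, empty_subset, filter_true]
      exact congrArg (· / _) (sum_congr rfl fun T _ => sum_left hg (h T))
    rw [e1, div_le_iff₀ (card_pos' B)]
    exact hW.trans (mul_le_mul_of_nonneg_right
      (le_mul_of_one_le_right he (one_le_pow₀ (by norm_num))) (card_pos' B).le)
  · let z : Finset ι → ι → G → ℝ := fun Q v g =>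
      av (B ⊓ KT K S) (h (Q.erase v)) g - av (B ⊓ KT K (S.erase v)) (h (Q.erase v)) g
    have hz : ∀ Q ∈ Up (t + 2) S, ∀ v ∈ S, nsq B (z Q v) ≤ 4 ^ N * lam ^ 2 * W := by
      intro Q hQ v hv
      obtain ⟨q1, q2⟩ := mem_Up.1 hQ
      have e1 : Q \ S ∪ S.erase v = Q.erase v := by
        ext τ
        by_cases h1 : τ ∈ S <;> by_cases h2 : τ = v <;> simp [h1, h2, hv, @q2 τ]
      have := swap hS (notMem_erase v S) (p := Q \ S) (h := h (Q.erase v))
        (by rw [insert_erase hv]; exact sdiff_disjoint)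
        fun g hg u hu => congrArg ind (hγ _ g hg u hu.1 (e1 ▸ hu.2))
      rw [insert_erase hv] at this
      refine this.trans (mul_le_mul (mul_le_mul_of_nonneg_right (pow_le_pow_right₀ (by norm_num)
        (hN ▸ card_le_univ _)) (sq_nonneg _)) (hn _ ?_) (nsq_nonneg _ _) (by positivity))
      rw [card_erase_of_mem (q2 hv)]
      omega
    refine ⟨fun g => k * ∑ Q ∈ Up (t + 2) S, ∑ v ∈ S, z Q v g, ?_, fun g hg => ?_⟩
    · rw [nsq_smul]
      set M := 4 ^ N * lam ^ 2 * W with hM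
      have hM0 : 0 ≤ M := by positivity
      have a1 : ∀ Q ∈ Up (t + 2) S, nsq B (fun g => ∑ v ∈ S, z Q v g) ≤ N * (N * M) := by
        intro Q hQ
        have a2 := sum_le_card_nsmul S (fun v => nsq B (z Q v)) _ (hz Q hQ)
        rw [nsmul_eq_mul] at a2
        exact (nsq_sum B S (z Q)).trans (mul_le_mul (hcN S) (a2.trans
          (mul_le_mul_of_nonneg_right (hcN S) hM0)) (sum_nonneg fun _ _ => nsq_nonneg _ _)
          (Nat.cast_nonneg _))
      have a2 := sum_le_card_nsmul _ (fun Q => nsq B fun g => ∑ v ∈ S, z Q v g) _ a1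
      rw [nsmul_eq_mul] at a2
      have a3 := hN ▸ card_Up (t + 2) S
      have a4 := (nsq_sum B (Up (t + 2) S) fun Q g => ∑ v ∈ S, z Q v g).trans (mul_le_mul a3
        (a2.trans (mul_le_mul_of_nonneg_right a3 (by positivity)))
        (sum_nonneg fun _ _ => nsq_nonneg _ _) (by positivity))
      refine (mul_le_mul_of_nonneg_left a4 (sq_nonneg k)).trans (le_of_eq ?_)
      rw [hM]
      ring
    · have a1 : om S g ≤ eps * 2 ^ N +
          k * ∑ Q ∈ Up (t + 2) S, ∑ v ∈ S, av (B ⊓ KT K S) (h (Q.erase v)) g := by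
        have hp := card_pos' (B ⊓ KT K S)
        simp only [om, av_eq, ← sum_div]
        rw [div_le_iff₀ hp, add_mul, mul_assoc k, div_mul_cancel₀ _ hp.ne']
        exact hloc S hS0 hc g hg
      have a2 : ∀ v ∈ S, ∑ Q ∈ Up (t + 2) S, av (B ⊓ KT K (S.erase v)) (h (Q.erase v)) g ≤
          om (S.erase v) g := by
        intro v hv
        rw [← sum_image (f := fun T => av (B ⊓ KT K (S.erase v)) (h T) g)
          (g := fun Q : Finset ι => Q.erase v) fun Q hQ Q' hQ' e => by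
            rw [← insert_erase ((mem_Up.1 hQ).2 hv), ← insert_erase ((mem_Up.1 hQ').2 hv)]
            exact congrArg _ e]
        refine sum_le_sum_of_subset_of_nonneg (fun T hT => ?_) fun _ _ _ => hav _ _ _
        obtain ⟨Q, hQ, rfl⟩ := mem_image.1 hT
        obtain ⟨q1, q2⟩ := mem_Up.1 hQ
        exact mem_Up.2 ⟨by rw [card_erase_of_mem (q2 hv)]; omega, erase_subset_erase v q2⟩
      have a3 := mul_le_mul_of_nonneg_left (sum_le_sum a2) hk
      rw [sum_comm] at a3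
      simp only [z, sum_sub_distrib, mul_sub]
      linarith

end DD

open DD Finset in
theorem dd : DDStmt := by
  intro N R
  set k : ℝ := 2 ^ N * R + 1 with hk
  have hk0 : 0 ≤ k := by positivity
  set c : ℝ := (2 * (k * N) ^ 2 + k * N + 2) ^ N with hc
  have hc0 : 0 < c := by positivity
  set M : ℝ := 2 ^ N * 4 * c * (k * 2 ^ N * N) ^ 2 * 4 ^ N with hM
  have hM0 : 0 ≤ M := by positivity
  set eps : ℝ := 1 / (2 * c * 2 ^ N) with heps
  have he : 0 < eps := by positivity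
  refine ⟨1 / (2 * M + 1), by positivity, ⌈2 ^ N / eps⌉₊, ?_⟩
  intro G ι _ _ _ _ K B hN hL hS t ht f hf
  suffices h : ∃ z, Inv K B B z ∧ Coc B univ t z ∧
      eps * WT B t (f + z) ≤ 2 ^ N * WT B (t + 1) (dl f) by
    obtain ⟨z, z1, z2, z3⟩ := h
    refine ⟨z, z1, z2, ?_⟩
    rw [← Nat.cast_le (α := ℝ), Nat.cast_mul, wt_eq, wt_eq]
    refine le_trans ?_ (mul_le_mul_of_nonneg_right (Nat.le_ceil _) (WT_nonneg B (t + 1) (dl f)))
    rw [div_mul_eq_mul_div, le_div_iff₀ he, mul_comm]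
    exact z3
  have hW0 := WT_nonneg B (t + 1) (dl f)
  have h2 : (1 : ℝ) ≤ 2 ^ N := one_le_pow₀ (by norm_num)
  rcases le_total (eps * (BF B).card) (WT B (t + 1) (dl f)) with h | h
  · refine ⟨0, fun _ _ _ _ _ _ => rfl, fun _ _ _ _ _ => by simp [dl], ?_⟩
    have a1 : WT B t (f + 0) ≤ 2 ^ N * (BF B).card := by
      refine (sum_le_card_nsmul _ _ ((BF B).card : ℝ) fun T _ => ?_).trans ?_
      · simpa using sum_le_card_nsmul (BF B) _ 1 fun u _ => ind_le ((f + 0) T u)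
      · rw [nsmul_eq_mul]
        exact mul_le_mul_of_nonneg_right (hN ▸ card_pc t) (card_pos' B).le
    nlinarith [mul_le_mul_of_nonneg_left a1 he.le]
  obtain ⟨f1, h1, hmin⟩ := Set.exists_min_image {a : Finset ι → G → ZMod 2 | Inv K B B a}
    (fun a => WT B (t + 1) (dl a) + eps * WT B t (f + a)) (Set.toFinite _) ⟨f, hf⟩
  have a1 := hmin f hf
  have a2 : WT B t (f + f) = 0 := by simp [WT, two, ind_zero]
  have a3 := mul_nonneg he.le (WT_nonneg B t (f + f1))
  have a4 := WT_nonneg B (t + 1) (dl f1)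
  rw [a2] at a1
  have hv := vanish hN hS ht he.le hk0 (Inv_dl h1) (by linarith)
    (fun S hS0 hc g hg => by
      have := loc hL (hN ▸ ht) he.le h1 hmin hS0 hc hg
      rwa [hN] at this)
    (le_of_eq (by rw [← hc, heps]; field_simp)) (by
      rw [← hc, ← hM, div_pow, one_pow, mul_one_div, div_le_iff₀ (by positivity)]
      nlinarith)
  refine ⟨f1, h1, fun T _ hT g hg => ?_, by nlinarith⟩
  have b1 := (sum_eq_zero_iff_of_nonneg fun _ _ => sum_nonneg fun _ _ => ind_nonneg _).1 hv T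
    (mem_powersetCard.2 ⟨subset_univ _, hT⟩)
  have b2 := (sum_eq_zero_iff_of_nonneg fun _ _ => ind_nonneg _).1 b1 g (mem_BF.2 hg)
  by_contra h0
  simp [ind, h0] at b2

end Vale.Agent.P067
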