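import Vale.Agent.P067.Spec

/-! P067 module D, part 1: averaging operators, the swap estimate, cones give expansion. -/

namespace Vale.Agent.P067
namespace DD
open Finset

variable {G ι : Type} [Group G] [DecidableEq ι]

omit [DecidableEq ι] in
theorem mem_KT {K : ι → Subgroup G} {T : Finset ι} {g : G} :
    g ∈ KT K T ↔ ∀ τ ∈ T, g ∈ K τ := by
  simp [KT, Subgroup.mem_iInf]

omit [DecidableEq ι] in
theorem KT_mono {K : ι → Subgroup G} {S T : Finset ι} (h : S ⊆ T) {g : G} (hg : g ∈ KT K T) :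
    g ∈ KT K S := mem_KT.2 fun τ hτ => mem_KT.1 hg τ (h hτ)

omit [DecidableEq ι] in
theorem BT_le {K : ι → Subgroup G} {B : Subgroup G} {S T : Finset ι} (h : S ⊆ T) :
    B ⊓ KT K T ≤ B ⊓ KT K S := fun _ hg => ⟨hg.1, KT_mono h hg.2⟩

theorem two (x : ZMod 2) : x + x = 0 := CharTwo.add_self_eq_zero x

omit [Group G] in
theorem dl_dl (a : Finset ι → G → ZMod 2) (T : Finset ι) (g : G) : dl (dl a) T g = 0 := by
  have h1 : dl (dl a) T g =
      ∑ p ∈ T ×ˢ T, if p.2 = p.1 then 0 else a ((T.erase p.1).erase p.2) g := by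
    rw [sum_product]
    refine sum_congr rfl fun τ _ => ?_
    show ∑ σ ∈ T.erase τ, a ((T.erase τ).erase σ) g = _
    rw [← filter_ne' T τ, sum_filter]
    refine sum_congr rfl fun σ _ => ?_
    by_cases h : σ = τ <;> simp [h, filter_ne']
  rw [h1]
  refine sum_involution (fun p _ => p.swap) ?_ ?_ ?_ ?_
  · intro p _
    by_cases h : p.2 = p.1
    · simp [h]
    · have h' : ¬ p.1 = p.2 := fun e => h e.symm
      simp only [h, h', if_false, Prod.fst_swap, Prod.snd_swap]
      rw [erase_right_comm]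
      exact two _
  · intro p _ h e
    apply h
    have : p.2 = p.1 := congrArg Prod.fst e
    simp [this]
  · intro p hp
    simp only [mem_product] at hp ⊢
    exact ⟨hp.2, hp.1⟩
  · intro p _
    rfl

theorem Inv_dl {K : ι → Subgroup G} {B : Subgroup G} {a : Finset ι → G → ZMod 2}
    (h : Inv K B B a) : Inv K B B (dl a) := by
  intro T g hg u hu hT
  exact sum_congr rfl fun τ _ => h _ g hg u hu (KT_mono (erase_subset τ T) hT)

variable [Fintype G]

open Classical in
/-- the elements of a subgroup as a finite set -/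
noncomputable def BF (B : Subgroup G) : Finset G := univ.filter fun u : G => u ∈ B

theorem mem_BF {B : Subgroup G} {g : G} : g ∈ BF B ↔ g ∈ B := by simp [BF]

theorem av_eq (A : Subgroup G) (x : G → ℝ) (g : G) :
    av A x g = (∑ u ∈ BF A, x (g * u)) / ((BF A).card : ℝ) := rfl

theorem nsq_eq (B : Subgroup G) (x : G → ℝ) : nsq B x = ∑ g ∈ BF B, x g ^ 2 := rfl

theorem card_pos' (A : Subgroup G) : (0 : ℝ) < (BF A).card :=
  Nat.cast_pos.2 (card_pos.2 ⟨1, mem_BF.2 A.one_mem⟩)

theorem sum_left {M : Type} [AddCommMonoid M] {B : Subgroup G} {x : G} (hx : x ∈ B) (F : G → M) :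
    ∑ g ∈ BF B, F (x * g) = ∑ g ∈ BF B, F g :=
  sum_equiv (Equiv.mulLeft x) (fun g => by simp [mem_BF, B.mul_mem_cancel_left hx])
    fun _ _ => rfl

theorem sum_right {M : Type} [AddCommMonoid M] {B : Subgroup G} {x : G} (hx : x ∈ B)
    (F : G → M) : ∑ g ∈ BF B, F (g * x) = ∑ g ∈ BF B, F g :=
  sum_equiv (Equiv.mulRight x) (fun g => by simp [mem_BF, B.mul_mem_cancel_right hx])
    fun _ _ => rfl

theorem sum_inv' {M : Type} [AddCommMonoid M] (B : Subgroup G) (F : G → M) :
    ∑ g ∈ BF B, F g⁻¹ = ∑ g ∈ BF B, F g :=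
  sum_equiv (Equiv.inv G) (fun g => by simp [mem_BF]) fun _ _ => rfl

theorem av_inv {A : Subgroup G} (x : G → ℝ) (g : G) {u : G} (hu : u ∈ A) :
    av A x (g * u) = av A x g := by
  rw [av_eq, av_eq]
  simp only [mul_assoc]
  rw [sum_left hu fun w => x (g * w)]

theorem av_fix {A : Subgroup G} {x : G → ℝ} {g : G} (h : ∀ u ∈ A, x (g * u) = x g) :
    av A x g = x g := by
  rw [av_eq, sum_congr rfl fun u hu => h u (mem_BF.1 hu), sum_const, nsmul_eq_mul]
  field_simp [(card_pos' A).ne']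

theorem av_adj {A B : Subgroup G} (h : A ≤ B) (x y : G → ℝ) :
    ∑ g ∈ BF B, av A x g * y g = ∑ g ∈ BF B, x g * av A y g := by
  simp only [av_eq, div_mul_eq_mul_div, ← mul_div_assoc, ← sum_div, sum_mul, mul_sum]
  congr 1
  rw [sum_comm, sum_comm (s := BF B), ← sum_inv' A]
  refine sum_congr rfl fun u hu => ?_
  rw [← sum_right (h (mem_BF.1 hu))]
  simp

theorem av_av {A A' : Subgroup G} (h : A' ≤ A) (x : G → ℝ) (g : G) :
    av A (av A' x) g = av A x g := by
  simp only [av_eq, ← sum_div]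
  rw [sum_comm, sum_congr rfl fun w hw => (by
    simp only [mul_assoc]
    exact sum_right (h (mem_BF.1 hw)) fun u => x (g * u) :
      ∑ u ∈ BF A, x (g * u * w) = ∑ u ∈ BF A, x (g * u)), sum_const, nsmul_eq_mul]
  field_simp [(card_pos' A').ne']

theorem av_sub (A : Subgroup G) (x y : G → ℝ) (g : G) :
    av A (fun g => x g - y g) g = av A x g - av A y g := by
  simp only [av_eq, sum_sub_distrib, sub_div]

theorem nsq_nonneg (B : Subgroup G) (x : G → ℝ) : 0 ≤ nsq B x :=
  sum_nonneg fun _ _ => sq_nonneg _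

theorem nsq_sum {J : Type} (B : Subgroup G) (s : Finset J) (x : J → G → ℝ) :
    nsq B (fun g => ∑ j ∈ s, x j g) ≤ s.card * ∑ j ∈ s, nsq B (x j) := by
  simp only [nsq_eq]
  rw [sum_comm, mul_sum]
  exact sum_le_sum fun g _ => sq_sum_le_card_mul_sum_sq

theorem nsq_add (B : Subgroup G) (x y : G → ℝ) :
    nsq B (fun g => x g + y g) ≤ 2 * nsq B x + 2 * nsq B y := by
  simp only [nsq_eq, mul_sum, ← sum_add_distrib]
  exact sum_le_sum fun g _ => by nlinarith [sq_nonneg (x g - y g)]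

theorem nsq_smul (B : Subgroup G) (c : ℝ) (x : G → ℝ) :
    nsq B (fun g => c * x g) = c ^ 2 * nsq B x := by
  simp only [nsq_eq, mul_sum, mul_pow]

/-- telescoping the two-type estimates -/
theorem tele {K : ι → Subgroup G} {B : Subgroup G} {lam : ℝ}
    (hS : ∀ T a b, a ∉ T → b ∉ T → a ≠ b → Sw K B lam T a b) {A : Finset ι} {v : ι} (hv : v ∉ A)
    {z : G → ℝ} (hz : ∀ g ∈ B, ∀ u ∈ B ⊓ KT K (insert v A), z (g * u) = z g) (p : Finset ι) :
    Disjoint p (insert v A) →
      nsq B (fun g => av (B ⊓ KT K (p ∪ A)) z g - av (B ⊓ KT K A) z g) ≤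
        4 ^ p.card * (lam ^ 2 * nsq B z) := by
  have h0 : 0 ≤ lam ^ 2 * nsq B z := mul_nonneg (sq_nonneg _) (nsq_nonneg _ _)
  induction p using Finset.induction_on with
  | empty => intro _; simpa [nsq_eq] using h0
  | insert b p hb ih =>
    intro hd
    rw [disjoint_insert_left] at hd
    have h1 := ih hd.2
    have hvp : v ∉ p := fun h => disjoint_left.1 hd.2 h (mem_insert_self _ _)
    have hb' := hd.1
    rw [mem_insert, not_or] at hb'
    have h2 := hS (p ∪ A) v b (by simp [hv, hvp]) (by simp [hb, hb'.2]) (fun e => hb'.1 e.symm) z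
      fun g hg u hu => hz g hg u (BT_le (insert_subset_insert v subset_union_right) hu)
    have h3 := nsq_add B (fun g => av (B ⊓ KT K (insert b (p ∪ A))) z g - av (B ⊓ KT K (p ∪ A)) z g)
      (fun g => av (B ⊓ KT K (p ∪ A)) z g - av (B ⊓ KT K A) z g)
    simp only [sub_add_sub_cancel] at h3
    rw [insert_union, card_insert_of_notMem hb, pow_succ]
    have h4 : (1 : ℝ) ≤ 4 ^ p.card := one_le_pow₀ (by norm_num)
    nlinarith

/-- the swap estimate -/
theorem swap {K : ι → Subgroup G} {B : Subgroup G} {lam : ℝ}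
    (hS : ∀ T a b, a ∉ T → b ∉ T → a ≠ b → Sw K B lam T a b) {A : Finset ι} {v : ι} (hv : v ∉ A)
    {p : Finset ι} (hp : Disjoint p (insert v A)) {h : G → ℝ}
    (hh : ∀ g ∈ B, ∀ u ∈ B ⊓ KT K (p ∪ A), h (g * u) = h g) :
    nsq B (fun g => av (B ⊓ KT K (insert v A)) h g - av (B ⊓ KT K A) h g) ≤
      4 ^ p.card * lam ^ 2 * nsq B h := by
  set z : G → ℝ := fun g => av (B ⊓ KT K (insert v A)) h g - av (B ⊓ KT K A) h g with hz
  have hle : B ⊓ KT K (insert v A) ≤ B ⊓ KT K A := BT_le (subset_insert _ _)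
  have hinv : ∀ g, ∀ u ∈ B ⊓ KT K (insert v A), z (g * u) = z g := fun g u hu => by
    simp only [hz, av_inv h g hu, av_inv h g (hle hu)]
  have hA : ∀ g, av (B ⊓ KT K A) z g = 0 := fun g => by
    rw [hz, av_sub, av_av hle, av_av le_rfl, sub_self]
  have h1 := tele hS hv (fun g _ => hinv g) p hp
  simp only [hA, sub_zero] at h1
  have h2 : nsq B z = ∑ g ∈ BF B, av (B ⊓ KT K (p ∪ A)) z g * h g := by
    have e1 : nsq B z = ∑ g ∈ BF B, z g * av (B ⊓ KT K (insert v A)) h g -
        ∑ g ∈ BF B, z g * av (B ⊓ KT K A) h g := by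
      rw [nsq_eq, ← sum_sub_distrib]
      exact sum_congr rfl fun g _ => by rw [sq, ← mul_sub]
    rw [e1, ← av_adj inf_le_left, ← av_adj inf_le_left, av_adj (A := B ⊓ KT K (p ∪ A)) inf_le_left]
    simp only [hA, zero_mul, sum_const_zero, sub_zero]
    refine sum_congr rfl fun g hg => ?_
    rw [av_fix (hinv g), av_fix (hh g (mem_BF.1 hg))]
  have h3 := sum_mul_sq_le_sq_mul_sq (BF B) (av (B ⊓ KT K (p ∪ A)) z) h
  rw [← h2, ← nsq_eq, ← nsq_eq] at h3
  rcases (nsq_nonneg B z).eq_or_lt with h0 | h0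
  · rw [← h0]
    exact mul_nonneg (by positivity) (nsq_nonneg _ _)
  · have h4 := mul_le_mul_of_nonneg_right h1 (nsq_nonneg B h)
    refine le_of_mul_le_mul_left ?_ h0
    nlinarith

/-- indicator of the support -/
def ind (c : ZMod 2) : ℝ := if c = 0 then 0 else 1

theorem ind_nonneg (c : ZMod 2) : 0 ≤ ind c := by unfold ind; split_ifs <;> norm_num

theorem ind_le (c : ZMod 2) : ind c ≤ 1 := by unfold ind; split_ifs <;> norm_num

theorem ind_sq (c : ZMod 2) : ind c ^ 2 = ind c := by unfold ind; split_ifs <;> norm_num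

theorem ind_zero : ind 0 = 0 := if_pos rfl

theorem ind_add (c d : ZMod 2) : ind (c + d) ≤ ind c + ind d := by
  by_cases h : c = 0
  · simp [h, ind_zero]
  · have : ind c = 1 := if_neg h
    linarith [ind_le (c + d), ind_nonneg d]

theorem ind_sum {J : Type} (s : Finset J) (c : J → ZMod 2) :
    ind (∑ j ∈ s, c j) ≤ ∑ j ∈ s, ind (c j) :=
  le_sum_of_subadditive ind ind_zero.le ind_add s c

theorem wt_eq [Fintype ι] (B : Subgroup G) (t : ℕ) (f : Finset ι → G → ZMod 2) :
    (wt B t f : ℝ) = ∑ T ∈ powersetCard t (univ : Finset ι), ∑ g ∈ BF B, ind (f T g) := by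
  classical
  unfold wt
  push_cast
  refine sum_congr rfl fun T _ => ?_
  rw [card_eq_sum_ones, sum_filter, BF, sum_filter]
  push_cast
  refine sum_congr rfl fun g _ => ?_
  by_cases h1 : g ∈ B <;> by_cases h2 : f T g = 0 <;> simp [h1, h2, ind]

/-- a cone gives coboundary expansion -/
theorem expand {K : ι → Subgroup G} {B : Subgroup G} {S : Finset ι} {R : ℕ}
    (hc : Cone K B S (fun _ _ => True) R) {t : ℕ} (ht : t + 1 ≤ S.card)
    {φ : Finset ι → G → ZMod 2} (hφ : Inv K B B φ) :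
    ∃ b, Inv K B B b ∧ ∑ T ∈ powersetCard t S, ∑ g ∈ BF B, ind (φ T g + dl b T g) ≤
      2 ^ S.card * R * ∑ Q ∈ powersetCard (t + 1) S, ∑ g ∈ BF B, ind (dl φ Q g) := by
  obtain ⟨c, hc1, hc2⟩ := hc
  set W := ∑ Q ∈ powersetCard (t + 1) S, ∑ g ∈ BF B, ind (dl φ Q g) with hW
  have hW0 : 0 ≤ W := sum_nonneg fun _ _ => sum_nonneg fun _ _ => ind_nonneg _
  let b : G → Finset ι → G → ZMod 2 := fun x T g => ∑ q ∈ c T (x⁻¹ * g), φ q.1 (x * q.2)
  have hb : ∀ x ∈ B, Inv K B B (b x) := fun x hx T g hg u hu hT => by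
    simp only [b, ← mul_assoc]
    rw [hc1 T _ (B.mul_mem (B.inv_mem hx) hg) u hu hT]
  have key : ∑ x ∈ BF B, ∑ T ∈ powersetCard t S, ∑ g ∈ BF B, ind (φ T g + dl (b x) T g) ≤
      ∑ _x ∈ BF B, 2 ^ S.card * R * W := by
    rw [sum_comm, sum_const, nsmul_eq_mul]
    have h1 : ∀ T ∈ powersetCard t S, ∑ x ∈ BF B, ∑ g ∈ BF B, ind (φ T g + dl (b x) T g) ≤
        (BF B).card * (R * W) := by
      intro T hT
      obtain ⟨hTS, hTc⟩ := mem_powersetCard.1 hT
      rw [sum_congr rfl fun x hx => (sum_left (mem_BF.1 hx) _).symm, sum_comm, ← nsmul_eq_mul,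
        ← sum_const]
      refine sum_le_sum fun y hy => ?_
      obtain ⟨h1, h2, h3⟩ := hc2 T hTS (by omega) y (mem_BF.1 hy) fun _ _ => trivial
      have h4 : ∀ x ∈ BF B, ind (φ T (x * y) + dl (b x) T (x * y)) ≤
          ∑ q ∈ c T y, ind (dl φ q.1 (x * q.2)) := by
        intro x hx
        have h5 := h3 (ZMod 2) two (fun T g => φ T (x * g)) fun T g hg u hu hT => by
          show φ T (x * (g * u)) = φ T (x * g)
          rw [← mul_assoc]
          exact hφ T _ (B.mul_mem (mem_BF.1 hx) hg) u hu hT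
        have h6 : φ T (x * y) + dl (b x) T (x * y) = ∑ q ∈ c T y, dl φ q.1 (x * q.2) := by
          refine Eq.trans ?_ h5.symm
          simp only [dl, b, inv_mul_cancel_left]
        rw [h6]
        exact ind_sum _ _
      refine (sum_le_sum h4).trans ?_
      rw [sum_comm]
      refine (sum_le_card_nsmul _ _ W fun q hq => ?_).trans ?_
      · obtain ⟨k1, k2, k3, -⟩ := h2 q hq
        rw [sum_right k3 fun x => ind (dl φ q.1 x)]
        exact single_le_sum (f := fun Q => ∑ g ∈ BF B, ind (dl φ Q g))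
          (fun _ _ => sum_nonneg fun _ _ => ind_nonneg _) (mem_powersetCard.2 ⟨k1, by omega⟩)
      · rw [nsmul_eq_mul]
        exact mul_le_mul_of_nonneg_right (Nat.cast_le.2 h1) hW0
    refine (sum_le_card_nsmul _ _ _ h1).trans ?_
    have h2 : ((powersetCard t S).card : ℝ) ≤ 2 ^ S.card := by
      rw [card_powersetCard]
      exact_mod_cast Nat.choose_le_two_pow _ _
    rw [nsmul_eq_mul]
    have := mul_le_mul_of_nonneg_right h2 (by positivity : 0 ≤ ((BF B).card : ℝ) * (R * W))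
    linarith
  obtain ⟨x, hx, hle⟩ := exists_le_of_sum_le ⟨1, mem_BF.2 B.one_mem⟩ key
  exact ⟨b x, hb x (mem_BF.1 hx), hle⟩

end DD
end Vale.Agent.P067
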