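import Mathlib

/-! P067: finite simplicial complexes, weighted `F_2`-cochains, coboundary expansion. -/

namespace Vale.Agent.P067
open Finset

/-- A finite simplicial complex with vertices in `ℕ`: a finite family of nonempty finite sets
closed under passing to nonempty subsets. -/
structure Cx where
  faces : Finset (Finset ℕ)
  nonempty : ∀ σ ∈ faces, σ.Nonempty
  down : ∀ σ ∈ faces, ∀ τ ⊆ σ, τ.Nonempty → τ ∈ faces

namespace Cx

/-- `X(i)`: the faces with `i + 1` vertices -/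
def X (Y : Cx) (i : ℕ) : Finset (Finset ℕ) := Y.faces.filter fun σ => σ.card = i + 1

/-- pure of dimension `d`: there is a `d`-face and every face lies in a `d`-face -/
def Pure (Y : Cx) (d : ℕ) : Prop := (Y.X d).Nonempty ∧ ∀ σ ∈ Y.faces, ∃ τ ∈ Y.X d, σ ⊆ τ

/-- any two vertices are joined by a path of edges -/
def Connected (Y : Cx) : Prop :=
  ∀ u v : ℕ, {u} ∈ Y.faces → {v} ∈ Y.faces →
    Relation.ReflTransGen (fun a b : ℕ => ({a, b} : Finset ℕ) ∈ Y.faces) u v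

/-- every vertex lies in at most `D` faces of dimension `d` -/
def DegLe (Y : Cx) (d D : ℕ) : Prop := ∀ v : ℕ, ((Y.X d).filter fun τ => v ∈ τ).card ≤ D

/-- the weight `w_i(σ)` -/
noncomputable def w (Y : Cx) (d i : ℕ) (σ : Finset ℕ) : ℝ :=
  (((Y.X d).filter fun τ => σ ⊆ τ).card : ℝ) / (((d + 1).choose (i + 1) : ℝ) * ((Y.X d).card : ℝ))

/-- the norm `‖f‖_i`; only the values of `f` on `X(i)` matter -/
noncomputable def nrm (Y : Cx) (d i : ℕ) (f : Finset ℕ → ZMod 2) : ℝ :=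
  ∑ σ ∈ (Y.X i).filter fun σ => f σ ≠ 0, Y.w d i σ

/-- the coboundary: sum over the faces of codimension one -/
def cob (f : Finset ℕ → ZMod 2) (τ : Finset ℕ) : ZMod 2 := ∑ v ∈ τ, f (τ.erase v)

/-- `B^i`: constants for `i = 0`, coboundaries of `(i-1)`-cochains for `i ≥ 1` -/
def IsB (Y : Cx) (i : ℕ) (b : Finset ℕ → ZMod 2) : Prop :=
  if i = 0 then ∃ c : ZMod 2, ∀ σ ∈ Y.X 0, b σ = c
  else ∃ a : Finset ℕ → ZMod 2, ∀ σ ∈ Y.X i, b σ = cob a σ

/-- `dist_i(f, B^i)` -/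
noncomputable def distB (Y : Cx) (d i : ℕ) (f : Finset ℕ → ZMod 2) : ℝ :=
  sInf {r : ℝ | ∃ b, Y.IsB i b ∧ r = Y.nrm d i (f - b)}

/-- `ε`-coboundary expander (for a pure `d`-dimensional complex) -/
def Expander (Y : Cx) (d : ℕ) (ε : ℝ) : Prop :=
  ∀ i < d, ∀ f : Finset ℕ → ZMod 2, ε * Y.distB d i f ≤ Y.nrm d (i + 1) (cob f)

end Cx

/-- the statement of Q1 in dimension `d` -/
def Q1 (d : ℕ) : Prop :=
  ∃ (D : ℕ) (ε : ℝ), 0 < ε ∧ ∃ Y : ℕ → Cx,
    Filter.Tendsto (fun m => ((Y m).X 0).card) Filter.atTop Filter.atTop ∧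
    ∀ m, (Y m).Pure d ∧ (Y m).Connected ∧ (Y m).DegLe d D ∧ (Y m).Expander d ε

end Vale.Agent.P067
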