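import Vale.Agent.P067.DD1

/-! P067 module E: from coset complexes to the statement of the problem. -/

namespace Vale.Agent.P067
namespace En
open Finset DD

/-- counting form of coboundary expansion -/
def Core (Y : Cx) (d M : ℕ) : Prop :=
  ∀ i < d, ∀ f : Finset ℕ → ZMod 2, ∃ a : Finset ℕ → ZMod 2,
    ((Y.X i).filter fun σ => (f - Cx.cob a) σ ≠ 0).card ≤
      M * ((Y.X (i + 1)).filter fun σ => Cx.cob f σ ≠ 0).card

theorem mem_X {Y : Cx} {i : ℕ} {σ : Finset ℕ} : σ ∈ Y.X i ↔ σ ∈ Y.faces ∧ σ.card = i + 1 :=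
  mem_filter

theorem isB_cob (Y : Cx) (i : ℕ) (a : Finset ℕ → ZMod 2) : Y.IsB i (Cx.cob a) := by
  unfold Cx.IsB
  split_ifs
  · refine ⟨a ∅, fun σ hσ => ?_⟩
    obtain ⟨v, rfl⟩ := card_eq_one.1 (mem_X.1 hσ).2
    simp [Cx.cob]
  · exact ⟨a, fun _ _ => rfl⟩

theorem w_nonneg (Y : Cx) (d i : ℕ) (σ : Finset ℕ) : 0 ≤ Y.w d i σ := by
  unfold Cx.w
  positivity

theorem nrm_nonneg (Y : Cx) (d i : ℕ) (f : Finset ℕ → ZMod 2) : 0 ≤ Y.nrm d i f :=
  sum_nonneg fun _ _ => w_nonneg _ _ _ _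

theorem expander {Y : Cx} {d D M : ℕ} (hP : Y.Pure d) (hD : Y.DegLe d D) (hC : Core Y d M) :
    Y.Expander d (1 / (D * M * 2 ^ (d + 1) + 1)) := by
  intro i hi f
  obtain ⟨a, ha⟩ := hC i hi f
  have hX : (0 : ℝ) < (Y.X d).card := Nat.cast_pos.2 hP.1.card_pos
  have h1 : Y.distB d i f ≤ Y.nrm d i (f - Cx.cob a) :=
    csInf_le ⟨0, fun r ⟨b, _, hr⟩ => hr ▸ nrm_nonneg _ _ _ _⟩ ⟨_, isB_cob Y i a, rfl⟩
  have h2 : Y.nrm d i (f - Cx.cob a) ≤
      ((Y.X i).filter fun σ => (f - Cx.cob a) σ ≠ 0).card * (D / (Y.X d).card : ℝ) := by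
    rw [← nsmul_eq_mul]
    refine sum_le_card_nsmul _ _ _ fun σ hσ => ?_
    obtain ⟨v, hv⟩ := Y.nonempty σ (mem_X.1 (mem_filter.1 hσ).1).1
    have a1 : ((Y.X d).filter fun τ => σ ⊆ τ).card ≤ D :=
      (card_le_card (monotone_filter_right _ fun τ _ h => h hv)).trans (hD v)
    have a2 : (1 : ℝ) ≤ ((d + 1).choose (i + 1) : ℕ) :=
      Nat.one_le_cast.2 (Nat.choose_pos (by omega))
    exact div_le_div₀ (Nat.cast_nonneg _) (Nat.cast_le.2 a1) hX (le_mul_of_one_le_left hX.le a2)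
  have h3 : ((Y.X (i + 1)).filter fun σ => Cx.cob f σ ≠ 0).card *
      (1 / (2 ^ (d + 1) * (Y.X d).card) : ℝ) ≤ Y.nrm d (i + 1) (Cx.cob f) := by
    rw [← nsmul_eq_mul]
    refine card_nsmul_le_sum _ _ _ fun σ hσ => ?_
    obtain ⟨τ, t1, t2⟩ := hP.2 σ (mem_X.1 (mem_filter.1 hσ).1).1
    have a1 : 1 ≤ ((Y.X d).filter fun τ => σ ⊆ τ).card := card_pos.2 ⟨τ, mem_filter.2 ⟨t1, t2⟩⟩
    have a2 : (((d + 1).choose (i + 1 + 1) : ℕ) : ℝ) ≤ 2 ^ (d + 1) := by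
      exact_mod_cast Nat.choose_le_two_pow _ _
    have a3 : (0 : ℝ) < ((d + 1).choose (i + 1 + 1) : ℕ) :=
      Nat.cast_pos.2 (Nat.choose_pos (by omega))
    exact div_le_div₀ (Nat.cast_nonneg _) (Nat.one_le_cast.2 a1) (by positivity)
      (mul_le_mul_of_nonneg_right a2 hX.le)
  have h4 := mul_le_mul_of_nonneg_right (Nat.cast_le (α := ℝ).2 ha)
    (by positivity : 0 ≤ (D / (Y.X d).card : ℝ))
  have h5 := mul_le_mul_of_nonneg_left h3 (by positivity : (0 : ℝ) ≤ D * M * 2 ^ (d + 1))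
  have h6 := nrm_nonneg Y d (i + 1) (Cx.cob f)
  rw [one_div, inv_mul_le_iff₀ (by positivity), add_mul]
  refine h1.trans (h2.trans (h4.trans (le_trans (le_of_eq ?_) (h5.trans (by linarith)))))
  push_cast
  field_simp

theorem connected {Y : Cx} {d M : ℕ} (hd : 1 ≤ d) (hC : Core Y d M) : Y.Connected := by
  classical
  intro u v hu hv
  set r := Relation.ReflTransGen fun a b : ℕ => ({a, b} : Finset ℕ) ∈ Y.faces with hr
  let f : Finset ℕ → ZMod 2 := fun σ => if ∃ x ∈ σ, r u x then 1 else 0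
  obtain ⟨a, ha⟩ := hC 0 hd f
  have h1 : ((Y.X (0 + 1)).filter fun σ => Cx.cob f σ ≠ 0) = ∅ := by
    refine filter_eq_empty_iff.2 fun σ hσ => not_not.2 ?_
    obtain ⟨x, y, hxy, rfl⟩ := card_eq_two.1 (mem_X.1 hσ).2
    have e := (mem_X.1 hσ).1
    have e1 : r u x ↔ r u y := ⟨fun h => h.tail e, fun h => h.tail (by rwa [pair_comm])⟩
    have e2 : ({x, y} : Finset ℕ).erase x = {y} := erase_insert (by simpa using hxy)
    have e3 : ({x, y} : Finset ℕ).erase y = {x} := by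
      rw [pair_comm]
      exact erase_insert (by simpa using hxy.symm)
    rw [Cx.cob, sum_pair hxy, e2, e3]
    simp [f, e1, two]
  rw [h1, card_empty, mul_zero, Nat.le_zero, card_eq_zero, filter_eq_empty_iff] at ha
  have k1 := ha (mem_X.2 ⟨hu, rfl⟩ : {u} ∈ Y.X 0)
  have k2 := ha (mem_X.2 ⟨hv, rfl⟩ : {v} ∈ Y.X 0)
  have k3 : r u u := Relation.ReflTransGen.refl
  by_contra k4
  simp only [Pi.sub_apply, Cx.cob, sum_singleton, erase_singleton, not_not, f, mem_singleton,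
    exists_eq_left, k3, k4, if_true, if_false, sub_eq_zero] at k1 k2
  exact absurd (k1.trans k2.symm) (by decide)

variable {G ι : Type} [Group G] [DecidableEq ι] [Fintype G] [Fintype ι]

omit [DecidableEq ι] in
theorem exists_lab (K : ι → Subgroup G) : ∃ lab : ι → G → ℕ,
    ∀ τ g τ' g', lab τ g = lab τ' g' ↔ τ = τ' ∧ g⁻¹ * g' ∈ K τ := by
  obtain ⟨e, he⟩ := exists_injective_nat (ι × Set G)
  refine ⟨fun τ g => e (τ, {x | g⁻¹ * x ∈ K τ}), fun τ g τ' g' => ?_⟩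
  rw [he.eq_iff, Prod.mk.injEq]
  refine and_congr_right fun h => ?_
  subst h
  refine ⟨fun h => (Set.ext_iff.1 h g').2 (by simp), fun h => Set.ext fun x => ?_⟩
  have : g⁻¹ * x = g⁻¹ * g' * (g'⁻¹ * x) := by group
  simp only [Set.mem_setOf_eq]
  rw [this, (K τ).mul_mem_cancel_left h]

/-- the face of type `T` of the chamber `g` -/
def nu (lab : ι → G → ℕ) (T : Finset ι) (g : G) : Finset ℕ := T.image fun τ => lab τ g

/-- the `d`-skeleton of the coset complex -/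
noncomputable def cx (lab : ι → G → ℕ) (B : Subgroup G) (d : ℕ) : Cx where
  faces := (((univ : Finset (Finset ι)).filter fun T => T.Nonempty ∧ T.card ≤ d + 1) ×ˢ BF B).image
    fun p => nu lab p.1 p.2
  nonempty σ hσ := by
    obtain ⟨p, hp, rfl⟩ := mem_image.1 hσ
    exact (mem_filter.1 (mem_product.1 hp).1).2.1.image _
  down σ hσ τ hτ h0 := by
    obtain ⟨p, hp, rfl⟩ := mem_image.1 hσ
    obtain ⟨T, hT, rfl⟩ := subset_image_iff.1 hτ
    obtain ⟨p1, p2⟩ := mem_product.1 hp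
    exact mem_image.2 ⟨(T, p.2), mem_product.2 ⟨mem_filter.2 ⟨mem_univ _, h0.of_image,
      (card_le_card hT).trans (mem_filter.1 p1).2.2⟩, p2⟩, rfl⟩

variable {K : ι → Subgroup G} {B : Subgroup G} {lab : ι → G → ℕ}
  (hl : ∀ τ g τ' g', lab τ g = lab τ' g' ↔ τ = τ' ∧ g⁻¹ * g' ∈ K τ)
include hl

omit [DecidableEq ι] [Fintype G] [Fintype ι] in
theorem lab_inj (g : G) : Function.Injective fun τ => lab τ g := fun _ _ h => ((hl _ _ _ _).1 h).1

omit [DecidableEq ι] [Fintype G] [Fintype ι] in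
theorem card_nu (T : Finset ι) (g : G) : (nu lab T g).card = T.card :=
  card_image_of_injective _ (lab_inj hl g)

omit [DecidableEq ι] [Fintype G] [Fintype ι] in
theorem mem_nu {T : Finset ι} {τ : ι} {g g' : G} :
    lab τ g ∈ nu lab T g' ↔ τ ∈ T ∧ g⁻¹ * g' ∈ K τ := by
  refine ⟨fun h => ?_, fun h => mem_image.2 ⟨τ, h.1, ((hl _ _ _ _).2 ⟨rfl, h.2⟩).symm⟩⟩
  obtain ⟨τ', h1, h2⟩ := mem_image.1 h
  obtain ⟨rfl, h3⟩ := (hl _ _ _ _).1 h2.symm
  exact ⟨h1, h3⟩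

omit [DecidableEq ι] [Fintype G] [Fintype ι] in
theorem nu_eq {T T' : Finset ι} {g g' : G} :
    nu lab T g = nu lab T' g' ↔ T = T' ∧ g⁻¹ * g' ∈ KT K T := by
  constructor
  · intro h
    have h1 : ∀ τ ∈ T, τ ∈ T' ∧ g⁻¹ * g' ∈ K τ := fun τ hτ =>
      (mem_nu hl).1 (h ▸ mem_image_of_mem _ hτ)
    have h2 : ∀ τ ∈ T', lab τ g' ∈ nu lab T g := fun τ hτ => h ▸ mem_image_of_mem _ hτ
    exact ⟨Subset.antisymm (fun τ hτ => (h1 τ hτ).1) fun τ hτ => ((mem_nu hl).1 (h2 τ hτ)).1,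
      mem_KT.2 fun τ hτ => (h1 τ hτ).2⟩
  · rintro ⟨rfl, h⟩
    exact image_congr fun τ hτ => (hl _ _ _ _).2 ⟨rfl, mem_KT.1 h τ hτ⟩

omit [Fintype G] [Fintype ι] in
theorem cob_nu (f : Finset ℕ → ZMod 2) (T : Finset ι) (g : G) :
    Cx.cob f (nu lab T g) = dl (fun T g => f (nu lab T g)) T g := by
  rw [Cx.cob, nu, sum_image fun _ _ _ _ h => lab_inj hl g h]
  exact sum_congr rfl fun τ _ => by rw [← image_erase (lab_inj hl g)]; rfl

omit [DecidableEq ι] in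
theorem mem_cx {d i : ℕ} (hi : i ≤ d) {σ : Finset ℕ} :
    σ ∈ (cx lab B d).X i ↔ ∃ T : Finset ι, T.card = i + 1 ∧ ∃ g ∈ B, nu lab T g = σ := by
  rw [mem_X]
  constructor
  · rintro ⟨h1, h2⟩
    obtain ⟨p, hp, rfl⟩ := mem_image.1 h1
    exact ⟨p.1, by rwa [card_nu hl] at h2, p.2, mem_BF.1 (mem_product.1 hp).2, rfl⟩
  · rintro ⟨T, hT, g, hg, rfl⟩
    exact ⟨mem_image.2 ⟨(T, g), mem_product.2 ⟨mem_filter.2 ⟨mem_univ _,
      card_pos.1 (by simp only [hT]; omega), by simp only [hT]; omega⟩, mem_BF.2 hg⟩, rfl⟩,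
      by rw [card_nu hl, hT]⟩

omit [DecidableEq ι] hl in
theorem card_BF (A : Subgroup G) : (BF A).card = Nat.card A :=
  (Nat.subtype_card (BF A) fun _ => mem_BF).symm

omit [DecidableEq ι] in
/-- comparison of the two ways of counting -/
theorem count {d i D0 : ℕ} (hi : i ≤ d) (hD : ∀ τ, Nat.card (B ⊓ K τ : Subgroup G) ≤ D0)
    (f : Finset ℕ → ZMod 2) {F : Finset ι → G → ZMod 2} (hF : ∀ T, ∀ g ∈ B, F T g = f (nu lab T g)) :
    (((cx lab B d).X i).filter fun σ => f σ ≠ 0).card ≤ wt B (i + 1) F ∧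
      wt B (i + 1) F ≤ D0 * (((cx lab B d).X i).filter fun σ => f σ ≠ 0).card := by
  classical
  set P := (powersetCard (i + 1) (univ : Finset ι) ×ˢ (univ : Finset G)).filter
    fun p => p.2 ∈ B ∧ F p.1 p.2 ≠ 0 with hP
  have e1 : wt B (i + 1) F = P.card := by
    rw [hP, card_filter, sum_product]
    refine sum_congr rfl fun T _ => ?_
    rw [card_filter]
  have mP : ∀ p, p ∈ P ↔ p.1.card = i + 1 ∧ p.2 ∈ B ∧ F p.1 p.2 ≠ 0 := fun p => by
    simp [hP, mem_powersetCard]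
  have e2 : (((cx lab B d).X i).filter fun σ => f σ ≠ 0) = P.image fun p => nu lab p.1 p.2 := by
    ext σ
    rw [mem_filter, mem_cx hl hi, mem_image]
    constructor
    · rintro ⟨⟨T, hT, g, hg, rfl⟩, h⟩
      exact ⟨(T, g), (mP _).2 ⟨hT, hg, by rwa [hF T g hg]⟩, rfl⟩
    · rintro ⟨p, hp, rfl⟩
      obtain ⟨p1, p2, p3⟩ := (mP p).1 hp
      exact ⟨⟨p.1, p1, p.2, p2, rfl⟩, by rwa [← hF _ _ p2]⟩
  rw [e1, e2]
  refine ⟨card_image_le, card_le_mul_card_image _ _ fun σ hσ => ?_⟩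
  obtain ⟨q, hq, rfl⟩ := mem_image.1 hσ
  obtain ⟨q1, q2, -⟩ := (mP q).1 hq
  obtain ⟨τ, hτ⟩ : q.1.Nonempty := card_pos.1 (by omega)
  refine le_trans ?_ ((card_BF _).le.trans (hD τ))
  refine card_le_card_of_injOn (fun p => q.2⁻¹ * p.2) (fun p hp => ?_) fun p hp p' hp' h => ?_
  · obtain ⟨p1, p2⟩ := mem_filter.1 hp
    exact mem_BF.2 ⟨B.mul_mem (B.inv_mem q2) ((mP p).1 p1).2.1,
      mem_KT.1 ((nu_eq hl).1 p2.symm).2 τ hτ⟩
  · exact Prod.ext ((nu_eq hl).1 ((mem_filter.1 hp).2.trans (mem_filter.1 hp').2.symm)).1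
      (mul_left_cancel h)

theorem pure {d : ℕ} (hN : Fintype.card ι = d + 2) : (cx lab B d).Pure d := by
  have h : ∀ T : Finset ι, T.card ≤ d + 1 → ∀ g ∈ B, ∃ τ ∈ (cx lab B d).X d, nu lab T g ⊆ τ := by
    intro T hT g hg
    obtain ⟨T', h1, -, h2⟩ := exists_subsuperset_card_eq (subset_univ T) hT
      (by rw [card_univ]; omega)
    exact ⟨_, (mem_cx hl le_rfl).2 ⟨T', h2, g, hg, rfl⟩, image_subset_image h1⟩
  refine ⟨?_, fun σ hσ => ?_⟩
  · obtain ⟨τ, hτ, -⟩ := h ∅ (by simp) 1 B.one_mem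
    exact ⟨τ, hτ⟩
  · obtain ⟨p, hp, rfl⟩ := mem_image.1 hσ
    obtain ⟨p1, p2⟩ := mem_product.1 hp
    exact h _ (mem_filter.1 p1).2.2 _ (mem_BF.1 p2)

theorem degLe {d D0 : ℕ} (hN : Fintype.card ι = d + 2)
    (hD : ∀ τ, Nat.card (B ⊓ K τ : Subgroup G) ≤ D0) : (cx lab B d).DegLe d (2 ^ (d + 2) * D0) := by
  intro v
  rcases (((cx lab B d).X d).filter fun τ => v ∈ τ).eq_empty_or_nonempty with h | ⟨σ, hσ⟩
  · simp [h]
  obtain ⟨T, -, g, hg, rfl⟩ := (mem_cx hl le_rfl).1 (mem_filter.1 hσ).1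
  obtain ⟨τ, -, rfl⟩ := mem_image.1 (mem_filter.1 hσ).2
  have h1 : (((cx lab B d).X d).filter fun σ => lab τ g ∈ σ) ⊆
      ((univ : Finset (Finset ι)) ×ˢ BF (B ⊓ K τ)).image fun p => nu lab p.1 (g * p.2) := by
    intro σ hσ
    obtain ⟨T', -, g', hg', rfl⟩ := (mem_cx hl le_rfl).1 (mem_filter.1 hσ).1
    exact mem_image.2 ⟨(T', g⁻¹ * g'), mem_product.2 ⟨mem_univ _, mem_BF.2
      ⟨B.mul_mem (B.inv_mem hg) hg', ((mem_nu hl).1 (mem_filter.1 hσ).2).2⟩⟩, by simp⟩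
  refine (card_le_card h1).trans (card_image_le.trans ?_)
  rw [card_product, card_univ, Fintype.card_finset, hN, card_BF]
  exact Nat.mul_le_mul_left _ (hD τ)

theorem core {d D0 C : ℕ} (hD : ∀ τ, Nat.card (B ⊓ K τ : Subgroup G) ≤ D0)
    (hE : ∀ t, 1 ≤ t → t ≤ d → ∀ f : Finset ι → G → ZMod 2, Inv K B B f →
      ∃ b, Inv K B B b ∧ wt B t (f + dl b) ≤ C * wt B (t + 1) (dl f)) :
    Core (cx lab B d) d (C * D0) := by
  classical
  intro i hi f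
  obtain ⟨b, hb, hle⟩ := hE (i + 1) (by omega) hi (fun T g => f (nu lab T g))
    fun T g _ u _ hT => congrArg f ((nu_eq hl).2 ⟨rfl, by simpa using hT⟩).symm
  have ha : ∀ σ : Finset ℕ, ∃ c : ZMod 2, ∀ T, ∀ g ∈ B, nu lab T g = σ → c = b T g := fun σ => by
    by_cases h : ∃ T, ∃ g ∈ B, nu lab T g = σ
    · obtain ⟨T, g, hg, rfl⟩ := h
      refine ⟨b T g, fun T' g' hg' e => ?_⟩
      obtain ⟨rfl, e2⟩ := (nu_eq hl).1 e.symm
      rw [← hb T g hg _ (B.mul_mem (B.inv_mem hg) hg') e2, mul_inv_cancel_left]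
    · exact ⟨0, fun T g hg e => absurd ⟨T, g, hg, e⟩ h⟩
  choose a ha using ha
  refine ⟨a, ((count hl hi.le hD (f - Cx.cob a) fun T g hg => ?_).1.trans hle).trans ?_⟩
  · rw [Pi.sub_apply, cob_nu hl, CharTwo.sub_eq_add]
    exact congrArg (f (nu lab T g) + ·) (sum_congr rfl fun τ _ => (ha _ _ g hg rfl).symm)
  · rw [mul_assoc]
    exact Nat.mul_le_mul_left _
      (count hl (i := i + 1) hi hD (Cx.cob f) fun T g _ => (cob_nu hl f T g).symm).2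

omit [DecidableEq ι] in
theorem verts {d D0 : ℕ} (hD : ∀ τ, Nat.card (B ⊓ K τ : Subgroup G) ≤ D0) (τ : ι) :
    Nat.card B ≤ D0 * ((cx lab B d).X 0).card := by
  classical
  have h := (count hl (Nat.zero_le d) hD (fun _ => 1) (F := fun _ _ => 1) fun _ _ _ => rfl).2
  refine le_trans ?_ (h.trans (Nat.mul_le_mul_left _ (card_filter_le _ _)))
  rw [← card_BF, ← Nat.cast_le (α := ℝ), wt_eq]
  refine le_trans (le_of_eq ?_) (single_le_sum
    (f := fun _ : Finset ι => ∑ _g ∈ BF B, ind 1) (fun _ _ => sum_nonneg fun _ _ => ind_nonneg _)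
    (mem_powersetCard.2 ⟨subset_univ _, card_singleton τ⟩))
  simp [ind]

end En

open En in
theorem endStmt : EndStmt := by
  intro d hd D0 C h
  have key : ∀ m : ℕ, ∃ Y : Cx, m ≤ (Y.X 0).card ∧ Y.Pure d ∧ Y.DegLe d (2 ^ (d + 2) * D0) ∧
      Core Y d (C * D0) := fun m => by
    obtain ⟨G, ι, _, _, _, _, K, B, hN, hm, hD, hE⟩ := h (D0 * m)
    obtain ⟨lab, hl⟩ := exists_lab K
    obtain ⟨τ⟩ : Nonempty ι := Fintype.card_pos_iff.1 (by omega)
    exact ⟨cx lab B d, Nat.le_of_mul_le_mul_left (hm.trans (verts hl hD τ))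
      (Nat.card_pos.trans_le (hD τ)), pure hl hN, degLe hl hN hD, core hl hD hE⟩
  choose Y h1 h2 h3 h4 using key
  exact ⟨_, _, by positivity, Y, Filter.tendsto_atTop_mono h1 Filter.tendsto_id,
    fun m => ⟨h2 m, connected hd (h4 m), h3 m, expander (h2 m) (h3 m) (h4 m)⟩⟩

end Vale.Agent.P067
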