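import Vale.Agent.P067.Fill1

/-! P067, module F, part 2: filling cycles in the complexes of opposite subspaces. -/

namespace Vale.Agent.P067
open Finset Module

namespace Fi

section

variable {F V : Type} [Field F] [AddCommGroup V] [Module F V] [Finite V]
  [DecidableEq (Submodule F V)] [Fintype (Submodule F V)]
  {n : ℕ} {Fl : ℕ → Submodule F V} {Y : Submodule F V}

/-- the free dimensions -/
noncomputable def free (n : ℕ) (σ : Finset (Submodule F V)) : Finset ℕ :=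
  Ioo 0 n \ σ.image fun W : Submodule F V => finrank F W

variable (n Fl Y) in
/-- small cycles have small fillings -/
def Loc (m j s R : ℕ) : Prop :=
  ∀ (σ : Finset (Submodule F V)) (S : Finset ℕ), SFace Fl Y ∅ (Ioo 0 n) σ → S ⊆ free n σ →
    (free n σ).card ≤ m → (free n σ).card ≤ S.card + j → ∀ t, t + 1 ≤ S.card →
    ∀ K : Ch (Submodule F V), Sup (fun ρ => SFace Fl Y σ S ρ ∧ ρ.card = t) K → bd K = 0 →
      sz K ≤ s → ∃ b, Sup (fun ρ => SFace Fl Y σ S ρ ∧ ρ.card = t + 1) b ∧ bd b = K ∧ sz b ≤ R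

omit [DecidableEq (Submodule F V)] [Fintype (Submodule F V)] in
theorem cmp {Z W : Submodule F V} (h : Z ≤ W ∨ W ≤ Z) (h' : finrank F Z ≤ finrank F W) : Z ≤ W := by
  rcases h with h | h
  · exact h
  · exact (Submodule.eq_of_le_of_finrank_le h h').ge

omit [DecidableEq (Submodule F V)] [Fintype (Submodule F V)] in
theorem one_dim {σ ρ : Finset (Submodule F V)} {S : Finset ℕ} (h : SFace Fl Y σ S ρ)
    {x y : Submodule F V} (hx : x ∈ ρ) (hy : y ∈ ρ) (e : finrank F x = finrank F y) : x = y :=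
  le_antisymm (cmp ((h x hx).2.2.2.1 y hy) e.le) (cmp ((h y hy).2.2.2.1 x hx) e.ge)

omit [Finite V] [DecidableEq (Submodule F V)] [Fintype (Submodule F V)] in
theorem sub_face {σ σ' ρ ρ' : Finset (Submodule F V)} {S S' : Finset ℕ} (h : SFace Fl Y σ S ρ)
    (h1 : ρ' ⊆ ρ) (h2 : σ' ⊆ σ) (h3 : ∀ W ∈ ρ', finrank F W ∈ S → finrank F W ∈ S') :
    SFace Fl Y σ' S' ρ' := fun W hW =>
  let ⟨a, b, c, d, e⟩ := h W (h1 hW)
  ⟨a, b, h3 W hW c, fun Z hZ => d Z (h1 hZ), fun Z hZ => e Z (h2 hZ)⟩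

omit [Finite V] [Fintype (Submodule F V)] in
theorem ins_face {σ ρ : Finset (Submodule F V)} {S : Finset ℕ} (h : SFace Fl Y σ S ρ)
    {W : Submodule F V} (h1 : W ⊓ Fl (finrank F W) = ⊥) (h2 : ¬ Y ≤ W) (h3 : finrank F W ∈ S)
    (h4 : ∀ Z ∈ ρ, W ≤ Z ∨ Z ≤ W) (h5 : ∀ Z ∈ σ, W ≤ Z ∨ Z ≤ W) :
    SFace Fl Y σ S (insert W ρ) := by
  intro Z hZ
  rcases mem_insert.1 hZ with rfl | hZ0
  · refine ⟨h1, h2, h3, fun Z' hZ' => ?_, h5⟩
    rcases mem_insert.1 hZ' with rfl | hZ1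
    exacts [Or.inl le_rfl, h4 Z' hZ1]
  · obtain ⟨a, b, c, d, e⟩ := h Z hZ0
    refine ⟨a, b, c, fun Z' hZ' => ?_, e⟩
    rcases mem_insert.1 hZ' with h0 | hZ1
    exacts [h0 ▸ (h4 Z hZ0).symm, d Z' hZ1]

omit [Fintype (Submodule F V)] in
theorem link_face {σ ρ : Finset (Submodule F V)} {S : Finset ℕ} {W : Submodule F V}
    (h : SFace Fl Y σ S (insert W ρ)) (hW : W ∉ ρ) :
    SFace Fl Y (insert W σ) (S.erase (finrank F W)) ρ := by
  intro Z hZ
  obtain ⟨a, b, c, d, e⟩ := h Z (mem_insert_of_mem hZ)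
  refine ⟨a, b, mem_erase.2 ⟨fun h' => hW ?_, c⟩, fun Z' hZ' => d Z' (mem_insert_of_mem hZ'),
    fun Z' hZ' => ?_⟩
  · rwa [← one_dim h (mem_insert_of_mem hZ) (mem_insert_self _ _) h']
  · rcases mem_insert.1 hZ' with rfl | hZ'
    exacts [d _ (mem_insert_self _ _), e Z' hZ']

omit [Finite V] [Fintype (Submodule F V)] in
theorem free_sub (σ : Finset (Submodule F V)) : free n σ ⊆ Ioo 0 n := sdiff_subset

omit [Finite V] [Fintype (Submodule F V)] in
theorem free_ins (σ : Finset (Submodule F V)) (W : Submodule F V) :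
    free n (insert W σ) = (free n σ).erase (finrank F W) := by
  ext d
  simp only [free, image_insert, mem_sdiff, mem_insert, mem_erase]
  tauto

omit [Finite V] [Fintype (Submodule F V)] in
theorem free_card (σ : Finset (Submodule F V)) : (free n σ).card ≤ n :=
  (card_le_card (free_sub σ)).trans (by simp)

omit [Finite V] [Fintype (Submodule F V)] in
theorem not_free {σ : Finset (Submodule F V)} {W : Submodule F V} (h : W ∈ σ) :
    finrank F W ∉ free n σ := fun h' => (mem_sdiff.1 h').2 (mem_image_of_mem _ h)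

/-- removing one type with the help of the links -/
theorem remove {m s R : ℕ} (hL : Loc n Fl Y m m s R) {σ : Finset (Submodule F V)} {S : Finset ℕ}
    (hσ : SFace Fl Y ∅ (Ioo 0 n) σ) (hS : S ⊆ free n σ) (hm : (free n σ).card ≤ m + 1) {e : ℕ}
    (he : e ∈ S) {t : ℕ} (ht : t + 1 ≤ S.card) {K : Ch (Submodule F V)}
    (hK : Sup (fun ρ => SFace Fl Y σ S ρ ∧ ρ.card = t) K) (hs : sz K ≤ s)
    (hb : ∀ W : Submodule F V, finrank F W = e → link (bd K) W = 0) :
    ∃ B, Sup (fun ρ => SFace Fl Y σ S ρ ∧ ρ.card = t + 1) B ∧ sz B ≤ s * n * R ∧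
      Sup (fun ρ => SFace Fl Y σ (S.erase e) ρ ∧ ρ.card = t) (K + bd B) ∧
      sz (K + bd B) ≤ s + s * n * R := by
  set A := (vert K).filter fun W : Submodule F V => finrank F W = e with hA
  have hn : S.card ≤ n := (card_le_card hS).trans (free_card σ)
  have cA : A.card ≤ s * n := (card_filter_le _ _).trans
    ((card_vert (hK.mono fun ρ h => by omega)).trans (Nat.mul_le_mul_right _ hs))
  have vA : ∀ W ∈ A, finrank F W = e ∧ 1 ≤ t ∧ SFace Fl Y σ S {W} := by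
    intro W hW
    obtain ⟨h1, h2⟩ := mem_filter.1 hW
    obtain ⟨ρ, h3, h4⟩ := mem_vert.1 h1
    obtain ⟨h5, h6⟩ := hK ρ h3
    exact ⟨h2, h6 ▸ card_pos.2 ⟨W, h4⟩,
      sub_face h5 (singleton_subset_iff.2 h4) Subset.rfl fun _ _ h => h⟩
  have ex : ∀ W, ∃ b : Ch (Submodule F V), W ∈ A →
      Sup (fun ρ => SFace Fl Y (insert W σ) (S.erase e) ρ ∧ ρ.card = t) b ∧ bd b = link K W ∧
        sz b ≤ R := by
    intro W
    by_cases hW : W ∈ A
    swap
    · exact ⟨0, fun h => absurd h hW⟩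
    obtain ⟨h1, h2, h3⟩ := vA W hW
    obtain ⟨a1, a2, a3, -, a5⟩ := h3 W (mem_singleton_self W)
    have c1 := card_erase_add_one he
    have c2 := card_erase_add_one (hS he)
    obtain ⟨b, hb⟩ := hL (insert W σ) (S.erase e)
      (ins_face hσ a1 a2 (free_sub σ (hS a3)) a5 (by simp))
      (by rw [free_ins, h1]; exact erase_subset_erase _ hS) (by rw [free_ins, h1]; omega)
      (by rw [free_ins, h1]; omega) (t - 1) (by omega) (link K W)
      (hK.link W fun ρ h h' => ⟨h1 ▸ link_face h.1 h', by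
        have := h.2
        rw [card_insert_of_notMem h'] at this
        omega⟩)
      (by rw [bd_link, hb W h1]) ((sz_link K W).trans hs)
    rw [show t - 1 + 1 = t by omega] at hb
    exact ⟨b, fun _ => hb⟩
  choose b hb using ex
  have key := rt K A (hK.mono fun ρ h x hx y hy x1 y1 =>
    one_dim h.1 hx hy ((vA x x1).1.trans (vA y y1).1.symm)) b fun W hW => (hb W hW).2.1
  refine ⟨∑ W ∈ A, cone W (b W), Sup.sum fun W hW => ?_, ?_, ?_, ?_⟩
  · obtain ⟨a1, a2, a3, -, a5⟩ := (vA W hW).2.2 W (mem_singleton_self W)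
    refine (hb W hW).1.cone W fun ρ h h' => ⟨ins_face (sub_face h.1 Subset.rfl (subset_insert _ _)
      fun _ _ => mem_of_mem_erase) a1 a2 a3 (fun Z hZ => ?_) a5, ?_⟩
    · exact ((h.1 Z hZ).2.2.2.2 W (mem_insert_self _ _)).symm
    · rw [card_insert_of_notMem h', h.2]
  · exact (sz_sum fun W hW => (sz_cone _ _).trans (hb W hW).2.2).trans
      (Nat.mul_le_mul_right _ cA)
  · rw [key]
    refine Sup.add (hK.rest A fun ρ h0 h h' => ⟨sub_face h.1 Subset.rfl Subset.rfl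
      fun W hW h1 => mem_erase.2 ⟨fun h2 => ?_, h1⟩, h.2⟩) (Sup.sum fun W hW => (hb W hW).1.mono
        fun ρ h => ⟨sub_face h.1 Subset.rfl (subset_insert _ _) fun _ _ h => h, h.2⟩)
    exact disjoint_left.1 h' hW (mem_filter.2 ⟨mem_vert.2 ⟨ρ, h0, hW⟩, h2⟩)
  · rw [key]
    exact (sz_add _ _).trans (add_le_add ((sz_rest _ _).trans hs)
      ((sz_sum fun W hW => (hb W hW).2.2).trans (Nat.mul_le_mul_right _ cA)))

theorem stepA {m j s R1 R2 : ℕ} (h1 : Loc n Fl Y (m + 1) j s R1) (h2 : Loc n Fl Y m m R1 R2) :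
    Loc n Fl Y (m + 1) (j + 1) s (R1 + R1 * n * R2) := by
  intro σ S hσ hS hm hj t ht K hK hb hs
  by_cases h : (free n σ).card ≤ S.card + j
  · obtain ⟨b, b1, b2, b3⟩ := h1 σ S hσ hS hm h t ht K hK hb hs
    exact ⟨b, b1, b2, by omega⟩
  obtain ⟨e, e1, e2⟩ := exists_mem_notMem_of_card_lt_card
    (show S.card < (free n σ).card by omega)
  have c := card_insert_of_notMem e2
  obtain ⟨b, b1, b2, b3⟩ := h1 σ (insert e S) hσ (insert_subset e1 hS) hm (by omega) t (by omega) K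
    (hK.mono fun ρ h => ⟨sub_face h.1 Subset.rfl Subset.rfl fun _ _ => mem_insert_of_mem, h.2⟩)
    hb hs
  obtain ⟨B, -, -, c3, c4⟩ := remove h2 hσ (insert_subset e1 hS) hm (mem_insert_self e S)
    (by omega) b1 b3 fun W hW => by
      rw [b2]
      funext ρ
      by_contra h0
      exact hK.link (Q := fun _ => False) W
        (fun ρ h _ => e2 (hW ▸ (h.1 W (mem_insert_self _ _)).2.2.1)) ρ h0
  rw [erase_insert e2] at c3
  exact ⟨_, c3, by rw [map_add, bd_bd, add_zero, b2], c4⟩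

/-- growth of the sizes -/
def psi (n : ℕ) : ℕ → ℕ → ℕ
  | 0, s => s
  | r + 1, s => s * n * s + psi n r (s + s * n * s)

theorem le_psi (n r : ℕ) : ∀ s, s ≤ psi n r s := by
  induction r with
  | zero => exact fun s => le_rfl
  | succ r ih => exact fun s => by have := ih (s + s * n * s); rw [psi]; omega

variable (Fl Y) in
/-- the line spanned by `x` is in general position -/
def Gen (x : V) (W : Submodule F V) : Prop :=
  (W ⊔ Submodule.span F {x}) ⊓ Fl (finrank F W + 1) = ⊥ ∧ ¬ Y ≤ W ⊔ Submodule.span F {x} ∧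
    finrank F (W ⊔ Submodule.span F {x} : Submodule F V) = finrank F W + 1

theorem sweep {σ : Finset (Submodule F V)} {S : Finset ℕ} (hS : S ⊆ free n σ) {e0 e1 t : ℕ}
    (ht : t ≤ n) (h0 : e0 ∉ S) (h1 : ∀ d, e0 < d → d ≤ e1 → d ∈ S) {x : V}
    (hx : ∀ Z ∈ σ, e1 < finrank F Z → x ∈ Z) {Wa : Submodule F V} (a1 : finrank F Wa = e0)
    (a2 : Gen Fl Y x Wa) (a3 : ∀ Z ∈ σ, Wa ≤ Z ∨ Z ≤ Wa)
    (a4 : ∀ ρ, SFace Fl Y σ S ρ → ∀ Z ∈ ρ, Wa ≤ Z ∨ Z ≤ Wa) (r : ℕ) :
    ∀ e, e0 ≤ e → e < e1 → e ≤ e0 + r → ∀ (s : ℕ) (K : Ch (Submodule F V)),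
      Sup (fun ρ => (SFace Fl Y σ S ρ ∧ ρ.card = t) ∧ ∀ W ∈ ρ, (e < finrank F W → x ∈ W) ∧
        (finrank F W ≤ e → Gen Fl Y x W)) K → bd K = 0 → sz K ≤ s →
      ∃ b, Sup (fun ρ => SFace Fl Y σ S ρ ∧ ρ.card = t + 1) b ∧ bd b = K ∧ sz b ≤ psi n r s := by
  have ext : ∀ W : Submodule F V, e0 ≤ finrank F W → finrank F W < e1 → Gen Fl Y x W →
      (∀ Z ∈ σ, W ≤ Z ∨ Z ≤ W) → ∀ ρ, SFace Fl Y σ S ρ →
      (∀ Z ∈ ρ, (W ≤ Z ∨ Z ≤ W) ∧ (finrank F W < finrank F Z → x ∈ Z)) →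
      SFace Fl Y σ S (insert (W ⊔ Submodule.span F {x}) ρ) := by
    intro W w1 w2 w3 w4 ρ w5 w6
    have c : ∀ Z : Submodule F V, (W ≤ Z ∨ Z ≤ W) → (finrank F W < finrank F Z → x ∈ Z) →
        W ⊔ Submodule.span F {x} ≤ Z ∨ Z ≤ W ⊔ Submodule.span F {x} := by
      intro Z z1 z2
      rcases le_or_gt (finrank F Z) (finrank F W) with h | h
      · exact Or.inr ((cmp z1.symm h).trans le_sup_left)
      · exact Or.inl (sup_le (cmp z1 h.le) ((Submodule.span_singleton_le_iff_mem _ _).2 (z2 h)))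
    refine ins_face w5 (w3.2.2 ▸ w3.1) w3.2.1 (w3.2.2 ▸ h1 _ (by omega) (by omega))
      (fun Z hZ => c Z (w6 Z hZ).1 (w6 Z hZ).2) fun Z hZ => c Z (w4 Z hZ) fun h => hx Z hZ ?_
    by_contra h'
    exact not_free hZ (hS (h1 _ (by omega) (by omega)))
  have base : ∀ r, e0 < e1 → ∀ (s : ℕ) (K : Ch (Submodule F V)),
      Sup (fun ρ => (SFace Fl Y σ S ρ ∧ ρ.card = t) ∧ ∀ W ∈ ρ, (e0 < finrank F W → x ∈ W) ∧
        (finrank F W ≤ e0 → Gen Fl Y x W)) K → bd K = 0 → sz K ≤ s →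
      ∃ b, Sup (fun ρ => SFace Fl Y σ S ρ ∧ ρ.card = t + 1) b ∧ bd b = K ∧ sz b ≤ psi n r s := by
    intro r h s K hK hb hs
    refine ⟨cone (Wa ⊔ Submodule.span F {x}) K, hK.cone _ fun ρ k1 k2 => ⟨ext Wa a1.ge (by omega)
      a2 a3 ρ k1.1.1 fun Z hZ => ⟨a4 ρ k1.1.1 Z hZ, a1 ▸ (k1.2 Z hZ).1⟩, ?_⟩, ?_,
      (sz_cone _ _).trans (hs.trans (le_psi n r s))⟩
    · rw [card_insert_of_notMem k2, k1.1.2]
    · rw [bd_cone, hb, cone_zero, add_zero]
  induction r with
  | zero =>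
    intro e b1 b2 b3
    obtain rfl : e = e0 := by omega
    exact base 0 b2
  | succ r ih =>
    intro e b1 b2 b3 s K hK hb hs
    rcases b1.eq_or_lt with rfl | b1
    · exact base _ b2 s K hK hb hs
    set A := (vert K).filter fun W : Submodule F V => finrank F W = e with hA
    have cA : A.card ≤ s * n := (card_filter_le _ _).trans
      ((card_vert (hK.mono fun ρ h => by have := h.1.2; omega)).trans (Nat.mul_le_mul_right _ hs))
    have vA : ∀ W ∈ A, finrank F W = e := fun W hW => (mem_filter.1 hW).2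
    have key := rt K A (hK.mono fun ρ h x hx y hy x1 y1 =>
      one_dim h.1.1 hx hy ((vA x x1).trans (vA y y1).symm))
      (fun W => cone (W ⊔ Submodule.span F {x}) (link K W)) fun W _ => by
        rw [bd_cone, bd_link, hb, link_zero, cone_zero, add_zero]
    have sb : ∀ W ∈ A, Sup (fun ρ => ((SFace Fl Y σ S ρ ∧ ρ.card = t) ∧ ∀ W ∈ ρ,
        (e - 1 < finrank F W → x ∈ W) ∧ (finrank F W ≤ e - 1 → Gen Fl Y x W)) ∧
        SFace Fl Y σ S (insert W ρ)) (cone (W ⊔ Submodule.span F {x}) (link K W)) := by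
      intro W hW
      have w0 := vA W hW
      refine (hK.link W fun ρ h h' => And.intro h h').cone _ fun ρ k1 k2 => ?_
      obtain ⟨⟨⟨k3, k4⟩, k5⟩, k6⟩ := k1
      have w1 := k3 W (mem_insert_self _ _)
      have w2 := (k5 W (mem_insert_self _ _)).2 w0.le
      have f := ext W (by omega) (by omega) w2 w1.2.2.2.2 _ k3 fun Z hZ =>
        ⟨w1.2.2.2.1 Z hZ, w0 ▸ (k5 Z hZ).1⟩
      rw [insert_comm] at f
      refine ⟨⟨⟨sub_face f (subset_insert _ _) Subset.rfl fun _ _ h => h, ?_⟩, fun Z hZ => ?_⟩, f⟩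
      · rw [card_insert_of_notMem k2, ← k4, card_insert_of_notMem k6]
      rcases mem_insert.1 hZ with rfl | hZ
      · refine ⟨fun _ => Submodule.mem_sup_right (Submodule.mem_span_singleton_self x), fun h => ?_⟩
        have := w2.2.2
        omega
      · have z1 := k5 Z (mem_insert_of_mem hZ)
        refine ⟨fun h => z1.1 ?_, fun h => z1.2 (by omega)⟩
        have : finrank F Z ≠ e := fun h' => k6 (by
          rwa [← one_dim k3 (mem_insert_of_mem hZ) (mem_insert_self _ _) (h'.trans w0.symm)])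
        omega
    have sz1 : ∀ W ∈ A, sz (cone (W ⊔ Submodule.span F {x}) (link K W)) ≤ s :=
      fun W _ => (sz_cone _ _).trans ((sz_link _ _).trans hs)
    obtain ⟨b, c1, c2, c3⟩ := ih (e - 1) (by omega) (by omega) (by omega) (s + s * n * s)
      (K + bd (∑ W ∈ A, cone W (cone (W ⊔ Submodule.span F {x}) (link K W)))) (by
        rw [key]
        refine Sup.add (hK.rest A fun ρ k0 k1 k2 => ⟨k1.1, fun Z hZ =>
          ⟨fun h => (k1.2 Z hZ).1 ?_, fun h => (k1.2 Z hZ).2 (by omega)⟩⟩)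
          (Sup.sum fun W hW => (sb W hW).mono fun ρ h => h.1)
        have : finrank F Z ≠ e := fun h' =>
          disjoint_left.1 k2 hZ (mem_filter.2 ⟨mem_vert.2 ⟨ρ, k0, hZ⟩, h'⟩)
        omega) (by rw [map_add, bd_bd, hb, add_zero]) (by
        rw [key]
        exact (sz_add _ _).trans (add_le_add ((sz_rest _ _).trans hs)
          ((sz_sum sz1).trans (Nat.mul_le_mul_right _ cA))))
    refine ⟨∑ W ∈ A, cone W (cone (W ⊔ Submodule.span F {x}) (link K W)) + b,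
      Sup.add (Sup.sum fun W hW => (sb W hW).cone W fun ρ k1 k2 => ⟨k1.2, ?_⟩) c1, ?_, ?_⟩
    · rw [card_insert_of_notMem k2, k1.1.1.2]
    · rw [map_add, c2, add_left_comm, twoC, add_zero]
    · exact (sz_add _ _).trans (add_le_add ((sz_sum fun W hW => (sz_cone _ _).trans
        (sz1 W hW)).trans (Nat.mul_le_mul_right _ cA)) c3)

omit [Fintype (Submodule F V)] in
theorem generic [Fintype F] (hn : finrank F V = n) (hA : Antitone Fl)
    (hF : ∀ e ≤ n, finrank F (Fl e) + e = n) {e1 : ℕ} (h1 : e1 + 1 ≤ n) {U : Submodule F V}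
    (u1 : finrank F U = e1 + 1) (u2 : U ⊓ Fl (e1 + 1) = ⊥) (G : Finset (Submodule F V))
    (hG : ∀ W ∈ G, finrank F W < e1 ∧ W ⊓ Fl (finrank F W) = ⊥ ∧ ¬ Y ≤ W)
    (hc : G.card * 2 < Fintype.card F) : ∃ x ∈ U, ∀ W ∈ G, Gen Fl Y x W := by
  have u3 : U ⊔ Fl (e1 + 1) = ⊤ := by
    refine Submodule.eq_top_of_finrank_eq ?_
    have := Submodule.finrank_sup_add_finrank_inf_eq U (Fl (e1 + 1))
    have := hF _ h1
    rw [u2, finrank_bot] at *
    omega
  have ex : ∀ W : Submodule F V, ∃ y, ¬ Y ≤ W → y ∈ Y ∧ y ∉ W := fun W => by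
    by_cases h : Y ≤ W
    · exact ⟨0, fun h' => absurd h h'⟩
    · obtain ⟨y, hy⟩ := SetLike.not_le_iff_exists.1 h
      exact ⟨y, fun _ => hy⟩
  choose y hy using ex
  let p : G × Bool → Submodule F U := fun i => Submodule.comap U.subtype
    (i.1.1 ⊔ if i.2 then Fl (finrank F i.1.1 + 1) else Submodule.span F {y i.1.1})
  have hp : ∀ i, p i ≠ ⊤ := by
    rintro ⟨⟨W, hW⟩, β⟩ h
    have w := hG W hW
    rw [Submodule.comap_subtype_eq_top] at h
    cases β
    · have h' : U ≤ W ⊔ Submodule.span F {y W} := h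
      have a1 := Submodule.finrank_mono h'
      have a2 := Submodule.finrank_add_le_finrank_add_finrank W (Submodule.span F {y W})
      have a3 : finrank F (Submodule.span F {y W}) ≤ 1 :=
        (finrank_span_le_card _).trans (by simp)
      have := w.1
      omega
    · simp only [if_true] at h
      have a0 : ⊤ ≤ W ⊔ Fl (finrank F W + 1) := by
        rw [← u3]
        exact sup_le h ((hA (by omega)).trans le_sup_right)
      have a1 := Submodule.finrank_mono a0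
      have a2 := Submodule.finrank_add_le_finrank_add_finrank W (Fl (finrank F W + 1))
      have a3 := hF (finrank F W + 1) (by omega)
      rw [finrank_top] at a1
      omega
  have := Submodule.iUnion_ssubset_of_forall_ne_top_of_card_lt univ p hp (by
    rw [ENat.card_eq_coe_fintype_card, card_univ, Fintype.card_prod, Fintype.card_coe,
      Fintype.card_bool]
    exact_mod_cast hc)
  obtain ⟨x, -, hx⟩ := Set.exists_of_ssubset this
  simp only [mem_univ, Set.iUnion_true, Set.mem_iUnion, not_exists] at hx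
  refine ⟨x, x.2, fun W hW => ?_⟩
  have x1 : (x : V) ∉ W ⊔ Fl (finrank F W + 1) := hx (⟨W, hW⟩, true)
  have x2 : (x : V) ∉ W ⊔ Submodule.span F {y W} := hx (⟨W, hW⟩, false)
  obtain ⟨-, w2, w3⟩ := hG W hW
  have k : ∀ (Z : Submodule F V) (v : V), (x : V) ∉ W ⊔ Z → v ∈ Z →
      v ∈ W ⊔ Submodule.span F {(x : V)} → v ∈ W := by
    intro Z v z1 z2 z3
    obtain ⟨w, hw, v', hv', rfl⟩ := Submodule.mem_sup.1 z3
    obtain ⟨c, rfl⟩ := Submodule.mem_span_singleton.1 hv'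
    by_cases hc : c = 0
    · simpa [hc] using hw
    · refine absurd ((Submodule.smul_mem_iff _ hc).1 ?_) z1
      have := sub_mem (Submodule.mem_sup_right (S := W) z2) (Submodule.mem_sup_left (T := Z) hw)
      rwa [add_sub_cancel_left] at this
  refine ⟨eq_bot_iff.2 fun v hv => ?_, fun h => (hy W w3).2 (k _ _ x2
    (Submodule.mem_span_singleton_self _) (h (hy W w3).1)), ?_⟩
  · rw [← w2]
    exact ⟨k _ _ x1 hv.2 hv.1, hA (Nat.le_succ _) hv.2⟩
  · exact Submodule.finrank_sup_span_singleton fun h => x1 (Submodule.mem_sup_left h)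

theorem stepB [Fintype F] (hn : finrank F V = n) (hA : Antitone Fl)
    (hF : ∀ e ≤ n, finrank F (Fl e) + e = n) (hY : Y ≠ ⊥) {m s R : ℕ} (h : Loc n Fl Y m m s R)
    (hc : ((s + s * n * R) * n + 1) * 2 < Fintype.card F) :
    Loc n Fl Y (m + 1) 0 s (s * n * R + psi n n (s + s * n * R)) := by
  intro σ S hσ hS hm hj t ht K hK hb hs
  obtain rfl : S = free n σ := eq_of_subset_of_card_le hS hj
  have hn' := free_card (n := n) σ
  obtain ⟨e1, e2, e3⟩ := exists_max_image (free n σ) id (card_pos.1 (by omega))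
  have e4 := mem_Ioo.1 (free_sub σ e2)
  obtain ⟨e0, f1, f2⟩ := exists_max_image ((range e1).filter (· ∉ free n σ)) id
    ⟨0, mem_filter.2 ⟨mem_range.2 e4.1, fun h => by simpa using free_sub σ h⟩⟩
  rw [mem_filter, mem_range] at f1
  have f3 : ∀ d, e0 < d → d ≤ e1 → d ∈ free n σ := by
    intro d d1 d2
    rcases d2.eq_or_lt with rfl | d2
    · exact e2
    · by_contra h'
      exact absurd (f2 d (mem_filter.2 ⟨mem_range.2 d2, h'⟩)) (not_le.2 d1)
  have mem : ∀ d, 0 < d → d < n → d ∉ free n σ → ∃ W ∈ σ, finrank F W = d := by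
    intro d d1 d2 d3
    by_contra h'
    exact d3 (mem_sdiff.2 ⟨mem_Ioo.2 ⟨d1, d2⟩, fun h'' => h' (mem_image.1 h'')⟩)
  obtain ⟨U, u1, u2, u3⟩ : ∃ U : Submodule F V, finrank F U = e1 + 1 ∧ U ⊓ Fl (e1 + 1) = ⊥ ∧
      ∀ Z ∈ σ, e1 < finrank F Z → U ≤ Z := by
    rcases (Nat.succ_le_of_lt e4.2).eq_or_lt with h' | h'
    · refine ⟨⊤, by rw [finrank_top]; omega, ?_, fun Z hZ h'' => ?_⟩
      · have := hF (e1 + 1) (by omega)
        rw [top_inf_eq, ← Submodule.finrank_eq_zero]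
        omega
      · have := mem_Ioo.1 (hσ Z hZ).2.2.1
        omega
    · obtain ⟨U, u1, u2⟩ := mem (e1 + 1) (by omega) h' fun h'' => by
        have := e3 _ h''
        simp at this
      exact ⟨U, u2, u2 ▸ (hσ U u1).1, fun Z hZ h'' => cmp ((hσ U u1).2.2.2.1 Z hZ) (by omega)⟩
  obtain ⟨Wa, a1, a2, a3, a4, a5⟩ : ∃ Wa : Submodule F V, finrank F Wa = e0 ∧
      Wa ⊓ Fl (finrank F Wa) = ⊥ ∧ ¬ Y ≤ Wa ∧ (∀ Z ∈ σ, Wa ≤ Z ∨ Z ≤ Wa) ∧
      ∀ ρ, SFace Fl Y σ (free n σ) ρ → ∀ Z ∈ ρ, Wa ≤ Z ∨ Z ≤ Wa := by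
    rcases Nat.eq_zero_or_pos e0 with rfl | h'
    · exact ⟨⊥, finrank_bot _ _, bot_inf_eq _, fun h' => hY (le_bot_iff.1 h'),
        fun _ _ => Or.inl bot_le, fun _ _ _ _ => Or.inl bot_le⟩
    · obtain ⟨W, w1, w2⟩ := mem e0 h' (by omega) f1.2
      exact ⟨W, w2, (hσ W w1).1, (hσ W w1).2.1, (hσ W w1).2.2.2.1,
        fun ρ hρ Z hZ => ((hρ Z hZ).2.2.2.2 W w1).symm⟩
  obtain ⟨B, b1, b2, b3, b4⟩ := remove h hσ hS hm e2 ht hK hs fun W _ => by rw [hb, link_zero]
  have lt : ∀ ρ, (K + bd B) ρ ≠ 0 → ∀ W ∈ ρ, finrank F W < e1 := fun ρ hρ W hW => by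
    have := mem_erase.1 ((b3 ρ hρ).1 W hW).2.2.1
    exact lt_of_le_of_ne (e3 _ this.2) this.1
  obtain ⟨x, x1, x2⟩ := generic (Y := Y) hn hA hF e4.2 u1 u2 (insert Wa (vert (K + bd B)))
    (fun W hW => by
      rcases mem_insert.1 hW with rfl | hW
      · exact ⟨by omega, a2, a3⟩
      · obtain ⟨ρ, h1, h2⟩ := mem_vert.1 hW
        exact ⟨lt ρ h1 W h2, ((b3 ρ h1).1 W h2).1, ((b3 ρ h1).1 W h2).2.1⟩)
    (lt_of_le_of_lt (Nat.mul_le_mul_right _ ((card_insert_le _ _).trans (Nat.succ_le_succ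
      ((card_vert (n := n) (b3.mono fun ρ h => by have := h.2; omega)).trans
        (Nat.mul_le_mul_right _ b4))))) hc)
  obtain ⟨b, c1, c2, c3⟩ := sweep hS (t := t) (by omega) f1.2 f3
    (fun Z hZ h' => u3 Z hZ h' x1) a1 (x2 _ (mem_insert_self _ _)) a4 a5 n (e1 - 1) (by omega)
    (by omega) (by omega) _ (K + bd B) (fun ρ hρ => ⟨⟨sub_face (b3 ρ hρ).1 Subset.rfl Subset.rfl
      fun _ _ => mem_of_mem_erase, (b3 ρ hρ).2⟩, fun W hW => ⟨fun h' => by
        have := lt ρ hρ W hW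
        omega, fun _ => x2 W (mem_insert_of_mem (mem_vert.2 ⟨ρ, hρ, hW⟩))⟩⟩)
    (by rw [map_add, bd_bd, hb, add_zero]) b4
  exact ⟨B + b, b1.add c1, by rw [map_add, c2, add_left_comm, twoC, add_zero],
    (sz_add _ _).trans (add_le_add b2 c3)⟩

theorem cones {r : ℕ → ℕ} (hr : Monotone r)
    (h : ∀ i < n, Loc n Fl Y n n (1 + n * r i) (r (i + 1))) {σ : Finset (Submodule F V)}
    {S : Finset ℕ} (hσ : SFace Fl Y ∅ (Ioo 0 n) σ) (hS : S ⊆ free n σ) (t : ℕ) (ht : t ≤ n) :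
    ∃ C : Finset (Submodule F V) → Ch (Submodule F V), ∀ ρ, SFace Fl Y σ S ρ →
      ρ.card + 1 ≤ S.card → ρ.card < t → Sup (fun τ => SFace Fl Y σ S τ ∧ τ.card = ρ.card + 1) (C ρ) ∧
        bd (C ρ) = Pi.single ρ 1 + ∑ W ∈ ρ, C (ρ.erase W) ∧ sz (C ρ) ≤ r t := by
  induction t with
  | zero => exact ⟨fun _ => 0, fun ρ _ _ h => absurd h (Nat.not_lt_zero _)⟩
  | succ t ih =>
    obtain ⟨C, hC⟩ := ih (by omega)
    have hn' := free_card (n := n) σ
    have ex : ∀ ρ, ∃ b : Ch (Submodule F V), SFace Fl Y σ S ρ → ρ.card + 1 ≤ S.card → ρ.card = t →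
        Sup (fun τ => SFace Fl Y σ S τ ∧ τ.card = ρ.card + 1) b ∧
          bd b = Pi.single ρ 1 + ∑ W ∈ ρ, C (ρ.erase W) ∧ sz b ≤ r (t + 1) := by
      intro ρ
      by_cases hρ : SFace Fl Y σ S ρ ∧ ρ.card + 1 ≤ S.card ∧ ρ.card = t
      swap
      · exact ⟨0, fun a b c => absurd ⟨a, b, c⟩ hρ⟩
      obtain ⟨p1, p2, p3⟩ := hρ
      have hE : ∀ W ∈ ρ, _ := fun W hW => hC (ρ.erase W)
        (sub_face p1 (erase_subset _ _) Subset.rfl fun _ _ h => h)
        (by have := card_erase_add_one hW; omega) (by have := card_erase_add_one hW; omega)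
      obtain ⟨b, hb⟩ := h t (by omega) σ S hσ hS hn' (by omega) ρ.card p2
        (Pi.single ρ 1 + ∑ W ∈ ρ, C (ρ.erase W)) (Sup.add (fun τ hτ => by
          obtain rfl : τ = ρ := by
            by_contra h'
            exact hτ (Pi.single_eq_of_ne h' _)
          exact ⟨p1, rfl⟩) (Sup.sum fun W hW => (hE W hW).1.mono fun τ h =>
            ⟨h.1, h.2.trans (card_erase_add_one hW)⟩)) (by
          rw [map_add, map_sum, sum_congr rfl fun W hW => (hE W hW).2.1, sum_add_distrib,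
            bd_single, ← add_assoc, twoC, zero_add, ← sym_sum twoC ρ
              (fun x y => if x = y then 0 else C ((ρ.erase x).erase y))
              (fun x y => by rw [erase_right_comm]; exact if_congr eq_comm rfl rfl)
              fun x => if_pos rfl]
          refine sum_congr rfl fun x hx => ?_
          rw [← add_sum_erase _ _ hx, if_pos rfl, zero_add]
          exact sum_congr rfl fun y hy => (if_neg (ne_of_mem_erase hy).symm).symm)
        ((sz_add _ _).trans (add_le_add (sz_single ρ) ((sz_sum fun W hW => (hE W hW).2.2).trans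
          (Nat.mul_le_mul_right _ (by omega)))))
      exact ⟨b, fun _ _ _ => hb⟩
    choose b hb using ex
    refine ⟨fun ρ => if ρ.card = t then b ρ else C ρ, fun ρ p1 p2 p3 => ?_⟩
    have e : ∑ W ∈ ρ, (if (ρ.erase W).card = t then b (ρ.erase W) else C (ρ.erase W)) =
        ∑ W ∈ ρ, C (ρ.erase W) :=
      sum_congr rfl fun W hW => if_neg (by have := card_erase_add_one hW; omega)
    dsimp only
    rw [e]
    split_ifs with h'
    · exact hb ρ p1 p2 h'
    · obtain ⟨c1, c2, c3⟩ := hC ρ p1 p2 (by omega)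
      exact ⟨c1, c2, c3.trans (hr (Nat.le_succ t))⟩

end

/-- the uniform statement -/
def Glob (n m j s R : ℕ) : Prop :=
  ∀ (F V : Type) [Field F] [Fintype F] [AddCommGroup V] [Module F V] [Finite V]
    [DecidableEq (Submodule F V)] [Fintype (Submodule F V)],
    R ≤ Fintype.card F → finrank F V = n → ∀ Fl : ℕ → Submodule F V, Antitone Fl →
    (∀ e ≤ n, finrank F (Fl e) + e = n) → ∀ Y : Submodule F V, Y ≠ ⊥ → Loc n Fl Y m j s R

theorem Glob.mk' {n m j s R R' : ℕ} (h : ∀ (F V : Type) [Field F] [Fintype F] [AddCommGroup V]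
    [Module F V] [Finite V] [DecidableEq (Submodule F V)] [Fintype (Submodule F V)],
    R' ≤ Fintype.card F → finrank F V = n → ∀ Fl : ℕ → Submodule F V, Antitone Fl →
    (∀ e ≤ n, finrank F (Fl e) + e = n) → ∀ Y : Submodule F V, Y ≠ ⊥ → Loc n Fl Y m j s R) :
    Glob n m j s (R + R') := by
  intro F V _ _ _ _ _ _ _ h1 h2 Fl h3 h4 Y h5 σ S a1 a2 a3 a4 t a5 K a6 a7 a8
  obtain ⟨b, b1, b2, b3⟩ := h F V (by omega) h2 Fl h3 h4 Y h5 σ S a1 a2 a3 a4 t a5 K a6 a7 a8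
  exact ⟨b, b1, b2, by omega⟩

theorem glob (n m : ℕ) : ∀ j s, ∃ R, Glob n m j s R := by
  induction m with
  | zero =>
    refine fun j s => ⟨0, ?_⟩
    intro F V _ _ _ _ _ _ _ h1 h2 Fl h3 h4 Y h5 σ S a1 a2 a3 a4 t a5
    have := card_le_card a2
    omega
  | succ m ihm =>
    intro j
    induction j with
    | zero =>
      intro s
      obtain ⟨R, hR⟩ := ihm m s
      refine ⟨_, Glob.mk' (R := s * n * R + psi n n (s + s * n * R))
        (R' := R + (((s + s * n * R) * n + 1) * 2 + 1)) ?_⟩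
      intro F V _ _ _ _ _ _ _ h1 h2 Fl h3 h4 Y h5
      exact stepB h2 h3 h4 h5 (hR F V (by omega) h2 Fl h3 h4 Y h5) (by omega)
    | succ j ihj =>
      intro s
      obtain ⟨R1, h1⟩ := ihj s
      obtain ⟨R2, h2⟩ := ihm m R1
      refine ⟨_, Glob.mk' (R := R1 + R1 * n * R2) (R' := R1 + R2) ?_⟩
      intro F V _ _ _ _ _ _ _ a1 a2 Fl a3 a4 Y a5
      exact stepA (h1 F V (by omega) a2 Fl a3 a4 Y a5) (h2 F V (by omega) a2 Fl a3 a4 Y a5)

end Fi

open Fi in
theorem fill : FillStmt := by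
  intro n
  choose φ hφ using glob n n n
  let r : ℕ → ℕ := fun i => Nat.rec 0 (fun _ a => a + φ (1 + n * a)) i
  have hr : Monotone r := monotone_nat_of_le_succ fun i => Nat.le_add_right _ _
  refine ⟨r n, ?_⟩
  intro F V _ _ _ _ _ h1 h2 Fl h3 h4 Y h5 σ S a1 a2 a3
  have : Finite (Submodule F V) := Finite.of_injective _ SetLike.coe_injective
  have := Fintype.ofFinite (Submodule F V)
  classical
  have a4 : S ⊆ free n σ := fun d hd => mem_sdiff.2 ⟨a2 hd, fun h => by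
    obtain ⟨W, w1, rfl⟩ := mem_image.1 h
    exact a3 W w1 hd⟩
  obtain ⟨C, hC⟩ := cones (n := n) (Fl := Fl) (Y := Y) hr (fun i hi => by
    have e : r (i + 1) = r i + φ (1 + n * r i) := rfl
    have : r (i + 1) ≤ r n := hr (Nat.succ_le_of_lt hi)
    intro σ S b1 b2 b3 b4 t b5 K b6 b7 b8
    obtain ⟨b, c1, c2, c3⟩ := hφ (1 + n * r i) F V (by omega) h2 Fl h3 h4 Y h5 σ S b1 b2 b3 b4 t
      b5 K b6 b7 b8
    exact ⟨b, c1, c2, by omega⟩) a1 a4 n le_rfl
  refine ⟨fun ρ => supp (C ρ), fun ρ p1 p2 => ?_⟩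
  have := (card_le_card a4).trans (free_card σ)
  obtain ⟨c1, c2, c3⟩ := hC ρ p1 p2 (by omega)
  refine ⟨c3, fun τ hτ => c1 τ (mem_supp.1 hτ), fun k _ hk a => ?_⟩
  rw [← pair_eq hk, pair_bd, c2, map_add, pair_single, map_sum]
  simp only [pair_eq]

end Vale.Agent.P067
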