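import Vale.Agent.P067.Spec

/-! P067, module F, part 1: chains in characteristic two. -/

namespace Vale.Agent.P067.Fi
open Finset

variable {α : Type} [Fintype α] [DecidableEq α]

/-- chains -/
abbrev Ch (α : Type) : Type := Finset α → ZMod 2

theorem two (x : ZMod 2) : x + x = 0 := by revert x; decide

theorem twoC (K : Ch α) : K + K = 0 := funext fun ρ => two (K ρ)

/-- boundary -/
def bd : Ch α →+ Ch α :=
  AddMonoidHom.mk' (fun K ρ => ∑ x, if x ∈ ρ then 0 else K (insert x ρ)) fun K L => by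
    funext ρ
    simp only [Pi.add_apply, ← sum_add_distrib]
    exact sum_congr rfl fun x _ => by split_ifs <;> simp

theorem bd_apply (K : Ch α) (ρ : Finset α) :
    bd K ρ = ∑ x, if x ∈ ρ then 0 else K (insert x ρ) := rfl

/-- cone -/
def cone (x : α) (K : Ch α) : Ch α := fun ρ => if x ∈ ρ then K (ρ.erase x) else 0

/-- link -/
def link (K : Ch α) (x : α) : Ch α := fun ρ => if x ∈ ρ then 0 else K (insert x ρ)

/-- the part away from a set of vertices -/
def rest (K : Ch α) (A : Finset α) : Ch α := fun ρ => if Disjoint ρ A then K ρ else 0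

/-- support -/
def supp (K : Ch α) : Finset (Finset α) := univ.filter fun ρ => K ρ ≠ 0

/-- size -/
def sz (K : Ch α) : ℕ := (supp K).card

/-- supported on faces with a property -/
def Sup (P : Finset α → Prop) (K : Ch α) : Prop := ∀ ρ, K ρ ≠ 0 → P ρ

theorem mem_supp {K : Ch α} {ρ : Finset α} : ρ ∈ supp K ↔ K ρ ≠ 0 := by simp [supp]

theorem sym_sum {β : Type} [AddCommGroup β] (h2 : ∀ x : β, x + x = 0) (s : Finset α)
    (f : α → α → β) (h : ∀ x y, f x y = f y x) (h0 : ∀ x, f x x = 0) :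
    ∑ x ∈ s, ∑ y ∈ s, f x y = 0 := by
  induction s using Finset.induction_on with
  | empty => simp
  | insert a s ha ih =>
    rw [sum_insert ha, sum_insert ha, h0, zero_add]
    simp only [sum_insert ha, sum_add_distrib, ih, add_zero, h a]
    exact h2 _

theorem bd_bd (K : Ch α) : bd (bd K) = 0 := by
  funext ρ
  have := sym_sum two univ (fun x y => if x ∈ ρ ∨ y ∈ ρ ∨ x = y then 0
    else K (insert x (insert y ρ))) (fun x y => by
      rw [insert_comm]
      exact if_congr (by tauto) rfl rfl) (fun x => by simp)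
  rw [Pi.zero_apply, ← this, bd_apply]
  refine sum_congr rfl fun x _ => ?_
  by_cases hx : x ∈ ρ
  · simp [hx]
  · rw [if_neg hx, bd_apply]
    refine sum_congr rfl fun y _ => ?_
    rw [insert_comm]
    exact if_congr (by simp [hx]; tauto) rfl rfl

theorem bd_cone (x : α) (K : Ch α) : bd (cone x K) = K + cone x (bd K) := by
  funext ρ
  rw [bd_apply, Pi.add_apply]
  by_cases hx : x ∈ ρ
  · have : cone x (bd K) ρ = K ρ + ∑ y, if y ∈ ρ then 0 else cone x K (insert y ρ) := by
      rw [cone, if_pos hx, bd_apply, ← add_sum_erase _ _ (mem_univ x),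
        ← add_sum_erase univ _ (mem_univ x), if_neg (notMem_erase _ _), insert_erase hx, if_pos hx,
        zero_add]
      congr 1
      refine sum_congr rfl fun y hy => ?_
      have hy := ne_of_mem_erase hy
      by_cases h : y ∈ ρ
      · simp [h, hy]
      · simp [h, cone, hx, erase_insert_of_ne hy]
    rw [this, ← add_assoc, two, zero_add]
  · rw [cone, if_neg hx, add_zero, sum_eq_single x]
    · simp [hx, cone]
    · intro y _ hy
      simp [cone, hx, hy.symm]
    · simp

theorem cone_zero (x : α) : cone x (0 : Ch α) = 0 := by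
  funext ρ; simp [cone]

theorem link_zero (x : α) : link (0 : Ch α) x = 0 := by
  funext ρ; simp [link]

theorem bd_link (K : Ch α) (x : α) : bd (link K x) = link (bd K) x := by
  funext ρ
  rw [bd_apply, link]
  by_cases hx : x ∈ ρ
  · simp [hx, link]
  · rw [if_neg hx, bd_apply]
    refine sum_congr rfl fun y _ => ?_
    by_cases h : y = x
    · simp [h, link]
    · simp [h, link, hx, Ne.symm h, insert_comm]

theorem bd_single (ρ : Finset α) :
    bd (Pi.single ρ 1 : Ch α) = ∑ x ∈ ρ, (Pi.single (ρ.erase x) 1 : Ch α) := by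
  funext τ
  rw [bd_apply, Finset.sum_apply, ← univ_inter ρ, ← sum_ite_mem, univ_inter]
  refine sum_congr rfl fun x _ => ?_
  simp only [Pi.single_apply]
  by_cases h : x ∉ τ ∧ insert x τ = ρ
  · obtain ⟨h1, rfl⟩ := h
    simp [h1]
  · by_cases h' : x ∈ ρ ∧ τ = ρ.erase x
    · obtain ⟨h1, rfl⟩ := h'
      exact absurd ⟨notMem_erase _ _, insert_erase h1⟩ h
    · split_ifs <;> tauto

theorem rt (K : Ch α) (A : Finset α)
    (h1 : Sup (fun ρ => ∀ x ∈ ρ, ∀ y ∈ ρ, x ∈ A → y ∈ A → x = y) K) (b : α → Ch α)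
    (hb : ∀ x ∈ A, bd (b x) = link K x) :
    K + bd (∑ x ∈ A, cone x (b x)) = rest K A + ∑ x ∈ A, b x := by
  have e : K = rest K A + ∑ x ∈ A, cone x (link K x) := by
    funext ρ
    rw [Pi.add_apply, Finset.sum_apply, rest]
    have e1 : ∀ x, cone x (link K x) ρ = if x ∈ ρ then K ρ else 0 := fun x => by
      by_cases hx : x ∈ ρ
      · simp [cone, link, hx, insert_erase hx]
      · simp [cone, hx]
    simp only [e1]
    by_cases h0 : K ρ = 0
    · simp [h0]
    split_ifs with h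
    · rw [sum_eq_zero fun x hx => if_neg (disjoint_right.1 h hx), add_zero]
    · obtain ⟨x, x1, x2⟩ := not_disjoint_iff.1 h
      rw [zero_add, sum_eq_single_of_mem x x2 fun y hy hxy => if_neg fun h' =>
        hxy (h1 ρ h0 y h' x x1 hy x2), if_pos x1]
  rw [map_sum, sum_congr rfl fun x hx => by rw [bd_cone, hb x hx], sum_add_distrib]
  nth_rewrite 1 [e]
  rw [add_assoc, add_left_comm (∑ x ∈ A, cone x (link K x)), twoC, add_zero]

omit [DecidableEq α] in
theorem Sup.mono {P Q : Finset α → Prop} {K : Ch α} (h : Sup P K) (h' : ∀ ρ, P ρ → Q ρ) :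
    Sup Q K := fun ρ hρ => h' ρ (h ρ hρ)

omit [DecidableEq α] in
theorem Sup.add {P : Finset α → Prop} {K L : Ch α} (h : Sup P K) (h' : Sup P L) :
    Sup P (K + L) := fun ρ hρ => by
  by_cases h0 : K ρ = 0
  · exact h' ρ (by simpa [h0] using hρ)
  · exact h ρ h0

omit [DecidableEq α] in
theorem Sup.sum {P : Finset α → Prop} {A : Finset α} {b : α → Ch α} (h : ∀ x ∈ A, Sup P (b x)) :
    Sup P (∑ x ∈ A, b x) := fun ρ hρ => by
  rw [Finset.sum_apply] at hρ
  obtain ⟨x, x1, x2⟩ := exists_ne_zero_of_sum_ne_zero hρ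
  exact h x x1 ρ x2

theorem Sup.cone {P Q : Finset α → Prop} {K : Ch α} (h : Sup P K) (x : α)
    (h' : ∀ ρ, P ρ → x ∉ ρ → Q (insert x ρ)) : Sup Q (cone x K) := fun ρ hρ => by
  unfold Fi.cone at hρ
  split_ifs at hρ with hx
  · rw [← insert_erase hx]
    exact h' _ (h _ hρ) (notMem_erase _ _)
  · exact absurd rfl hρ

theorem Sup.link {P Q : Finset α → Prop} {K : Ch α} (h : Sup P K) (x : α)
    (h' : ∀ ρ, P (insert x ρ) → x ∉ ρ → Q ρ) : Sup Q (link K x) := fun ρ hρ => by
  unfold Fi.link at hρ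
  split_ifs at hρ with hx
  · exact absurd rfl hρ
  · exact h' _ (h _ hρ) hx

theorem Sup.rest {P Q : Finset α → Prop} {K : Ch α} (h : Sup P K) (A : Finset α)
    (h' : ∀ ρ, K ρ ≠ 0 → P ρ → Disjoint ρ A → Q ρ) : Sup Q (rest K A) := fun ρ hρ => by
  unfold Fi.rest at hρ
  split_ifs at hρ with hx
  · exact h' _ hρ (h _ hρ) hx
  · exact absurd rfl hρ

theorem sz_add (K L : Ch α) : sz (K + L) ≤ sz K + sz L := by
  refine le_trans (card_le_card fun ρ hρ => ?_) (card_union_le _ _)
  exact Sup.add (P := fun ρ => ρ ∈ supp K ∪ supp L)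
    (fun ρ h => mem_union_left _ (mem_supp.2 h)) (fun ρ h => mem_union_right _ (mem_supp.2 h)) ρ
    (mem_supp.1 hρ)

theorem sz_sum {A : Finset α} {b : α → Ch α} {R : ℕ} (h : ∀ x ∈ A, sz (b x) ≤ R) :
    sz (∑ x ∈ A, b x) ≤ A.card * R := by
  refine le_trans (card_le_card fun ρ hρ => ?_) (card_biUnion_le_card_mul A (fun x => supp (b x)) R h)
  exact Sup.sum (P := fun ρ => ρ ∈ A.biUnion fun x => supp (b x))
    (fun x hx ρ h => mem_biUnion.2 ⟨x, hx, mem_supp.2 h⟩) ρ (mem_supp.1 hρ)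

theorem sz_cone (x : α) (K : Ch α) : sz (cone x K) ≤ sz K := by
  refine le_trans (card_le_card fun ρ hρ => ?_) (card_image_le (f := insert x))
  exact Sup.cone (P := fun ρ => ρ ∈ supp K) (Q := fun ρ => ρ ∈ (supp K).image (insert x))
    (fun ρ h => mem_supp.2 h) x (fun ρ h _ => mem_image_of_mem _ h) ρ (mem_supp.1 hρ)

theorem sz_link (K : Ch α) (x : α) : sz (link K x) ≤ sz K := by
  refine le_trans (card_le_card fun ρ hρ => ?_) (card_image_le (f := fun ρ => ρ.erase x))
  exact Sup.link (P := fun ρ => ρ ∈ supp K) (Q := fun ρ => ρ ∈ (supp K).image fun ρ => ρ.erase x)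
    (fun ρ h => mem_supp.2 h) x (fun ρ h h' => mem_image.2 ⟨_, h, erase_insert h'⟩) ρ
    (mem_supp.1 hρ)

theorem sz_rest (K : Ch α) (A : Finset α) : sz (rest K A) ≤ sz K :=
  card_le_card fun ρ hρ => Sup.rest (P := fun ρ => ρ ∈ supp K) (Q := fun ρ => ρ ∈ supp K)
    (fun _ h => mem_supp.2 h) A (fun _ _ h _ => h) ρ (mem_supp.1 hρ)

theorem sz_single (ρ : Finset α) : sz (Pi.single ρ 1 : Ch α) ≤ 1 := by
  refine le_trans (card_le_card fun τ hτ => ?_) (card_singleton ρ).le
  rw [mem_supp, Pi.single_apply] at hτ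
  rw [mem_singleton]
  by_contra h
  exact hτ (if_neg h)

/-- the vertices -/
def vert (K : Ch α) : Finset α := (supp K).biUnion id

theorem mem_vert {K : Ch α} {x : α} : x ∈ vert K ↔ ∃ ρ, K ρ ≠ 0 ∧ x ∈ ρ := by
  simp [vert, mem_supp]

theorem card_vert {K : Ch α} {n : ℕ} (h : Sup (fun ρ => ρ.card ≤ n) K) :
    (vert K).card ≤ sz K * n :=
  card_biUnion_le_card_mul _ _ _ fun ρ hρ => h ρ (mem_supp.1 hρ)

section

variable {k : Type} [AddCommGroup k] (h2 : ∀ x : k, x + x = 0)

/-- pairing with a cochain -/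
def pair (a : Finset α → k) : Ch α →+ k :=
  AddMonoidHom.mk' (fun K => ∑ ρ, if K ρ ≠ 0 then a ρ else 0) fun K L => by
    rw [← sum_add_distrib]
    refine sum_congr rfl fun ρ _ => ?_
    rw [Pi.add_apply]
    generalize K ρ = u
    generalize L ρ = v
    have hu : ∀ u : ZMod 2, u = 0 ∨ u = 1 := by decide
    rcases hu u with rfl | rfl <;> rcases hu v with rfl | rfl <;> simp [two, h2]

theorem pair_eq (a : Finset α → k) (K : Ch α) : pair h2 a K = ∑ ρ ∈ supp K, a ρ := by
  rw [supp, sum_filter]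
  rfl

theorem pair_single (a : Finset α → k) (ρ : Finset α) : pair h2 a (Pi.single ρ 1) = a ρ := by
  change (∑ τ, if (Pi.single ρ 1 : Ch α) τ ≠ 0 then a τ else 0) = _
  rw [sum_eq_single ρ]
  · simp
  · intro τ _ h
    simp [h]
  · simp

theorem pair_bd (a : Finset α → k) (K : Ch α) :
    pair h2 (fun ρ => ∑ x ∈ ρ, a (ρ.erase x)) K = pair h2 a (bd K) := by
  have : pair h2 (fun ρ => ∑ x ∈ ρ, a (ρ.erase x)) = (pair h2 a).comp bd := by
    refine AddMonoidHom.functions_ext _ _ _ fun ρ u => ?_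
    have hu : ∀ u : ZMod 2, u = 0 ∨ u = 1 := by decide
    rcases hu u with rfl | rfl
    · simp
    · rw [AddMonoidHom.comp_apply, bd_single, map_sum, pair_single]
      simp only [pair_single]
  rw [this, AddMonoidHom.comp_apply]

end

end Vale.Agent.P067.Fi
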