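import Vale.Agent.P067.Spec2

/-! P067, module G: generation of the pattern groups by elementary matrices. -/

set_option linter.unusedSectionVars false

namespace Vale.Agent.P067
open Finset

namespace Gn

variable {p h N : ℕ} [Fact p.Prime] {I : Type} [Fintype I] [DecidableEq I] {β : I → ZMod N}

/-- elementary matrix as a group element -/
noncomputable def el {i j : I} (hij : i ≠ j) (x : Rg p h) : Gp p h I :=
  ⟨Matrix.transvection i j x, Matrix.det_transvection_of_ne i j hij x⟩

theorem el_mem {i j : I} (hij : i ≠ j) {x : Rg p h} (hx : x ∈ Ar p h (β i - β j)) :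
    el hij x ∈ Pg p h β {i} {j} := by
  refine mem_Pg.2 fun a b => ?_
  have e : (el hij x : Gp p h I).1 - 1 = Matrix.single i j x := by
    simp [el, Matrix.transvection]
  rw [e]
  by_cases c : i = a ∧ j = b
  · obtain ⟨rfl, rfl⟩ := c
    simp [hx]
  · simp [Matrix.single_apply_of_ne _ _ _ _ _ c]

theorem tl (i j a b : I) (c : Rg p h) (M : Matrix I I (Rg p h)) :
    (Matrix.transvection i j c * M) a b = if a = i then M i b + c * M j b else M a b := by
  split_ifs with e
  · subst e; exact Matrix.transvection_mul_apply_same _ _ _ _ _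
  · exact Matrix.transvection_mul_apply_of_ne _ _ _ _ e _ _

theorem tr (i j a b : I) (c : Rg p h) (M : Matrix I I (Rg p h)) :
    (M * Matrix.transvection i j c) a b = if b = j then M a j + c * M a i else M a b := by
  split_ifs with e
  · subst e; exact Matrix.mul_transvection_apply_same _ _ _ _ _
  · exact Matrix.mul_transvection_apply_of_ne _ _ _ _ e _ _

theorem Ar_mul0 {a : ZMod N} {x y : Rg p h} (hx : x ∈ Ar p h a) (hy : y ∈ Ar p h (0 : ZMod N)) :
    x * (1 + y) ∈ Ar p h a := by
  rw [mul_add, mul_one]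
  exact add_mem hx (by simpa using Ar_mul hx hy)

theorem inv_ex {x : Rg p h} (hx : x ∈ Ar p h (0 : ZMod N)) :
    ∃ y ∈ Ar p h (0 : ZMod N), (1 + x) * (1 + y) = 1 := by
  have hp : ∀ k : ℕ, (-x) ^ (k + 1) ∈ Ar p h (0 : ZMod N) := by
    intro k
    induction k with
    | zero => simpa using hx
    | succ k ih => rw [pow_succ]; simpa using Ar_mul ih (neg_mem hx)
  have h0 : (-x) ^ (h + 1) = 0 := by
    obtain ⟨c, rfl⟩ := Ar_dvd hx
    rw [neg_pow, mul_pow, pi_pow p h (Nat.le_succ h)]
    simp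
  refine ⟨∑ k ∈ range h, (-x) ^ (k + 1), Submodule.sum_mem _ fun k _ => hp k, ?_⟩
  have := mul_neg_geom_sum (-x) (h + 1)
  rw [h0, sum_range_succ', pow_zero] at this
  linear_combination this

/-- diagonal matrix with two prescribed entries -/
noncomputable def dg (d d' : I) (u v : Rg p h) : Matrix I I (Rg p h) :=
  Matrix.diagonal fun i => if i = d then u else if i = d' then v else 1

theorem prod4 {d d' : I} (hd : d ≠ d') {a y v : Rg p h} (e : (1 + a * y) * v = 1) :
    Matrix.transvection d' d (-(y * v)) * (Matrix.transvection d d' a *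
      ((1 * Matrix.transvection d' d y) * Matrix.transvection d d' (-(a * v)))) =
      dg d d' (1 + a * y) v := by
  ext i j
  have hd' := hd.symm
  simp only [tl, tr, dg, Matrix.diagonal_apply, Matrix.one_apply]
  by_cases h1 : i = d <;> by_cases h2 : i = d' <;> by_cases h3 : j = d <;> by_cases h4 : j = d' <;>
    simp only [h1, h2, h3, h4, hd, hd', if_true, if_false, eq_comm (a := d) (b := j),
      eq_comm (a := d') (b := j)] <;>
    first
      | (exfalso; exact hd (h1.symm.trans h2))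
      | (exfalso; exact hd (h3.symm.trans h4))
      | ring1
      | linear_combination (-a) * e
      | linear_combination (-y) * e
      | linear_combination (a * y * v - 1) * e

variable [NeZero N]

theorem split_pi (a : ZMod N) {x : Rg p h} (hx : x ∈ Ar p h (0 : ZMod N)) :
    ∃ y ∈ Ar p h (-a), x = pi p h ^ a.val * y := by
  induction hx using Submodule.span_induction with
  | mem x hx =>
    obtain ⟨s, hs, e, rfl⟩ := hx
    have h1 : N ≤ s := Nat.le_of_dvd hs ((ZMod.natCast_eq_zero_iff s N).1 e)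
    have h2 := ZMod.val_lt a
    refine ⟨pi p h ^ (s - a.val), pi_mem (by omega) ?_, ?_⟩
    · rw [Nat.cast_sub (by omega), e]; simp
    · rw [← pow_add]; congr 1; omega
  | zero => exact ⟨0, zero_mem _, by simp⟩
  | add x z _ _ h1 h2 =>
    obtain ⟨y, hy, rfl⟩ := h1
    obtain ⟨y', hy', rfl⟩ := h2
    exact ⟨y + y', add_mem hy hy', by ring⟩
  | smul c x _ h1 =>
    obtain ⟨y, hy, rfl⟩ := h1
    exact ⟨c • y, Submodule.smul_mem _ _ hy, by rw [mul_smul_comm]⟩

variable {J : Finset I} {E : Subgroup (Gp p h I)}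

theorem dg1 (hE : ∀ i ∈ J, ∀ j ∈ J, i ≠ j → Pg p h β {i} {j} ≤ E) {d d' : I} (hd : d ∈ J)
    (hd' : d' ∈ J) (hb : β d ≠ β d') {x y : Rg p h} (hx : x ∈ Ar p h (0 : ZMod N))
    (hy : y ∈ Ar p h (0 : ZMod N)) (e : (1 + x) * (1 + y) = 1) :
    ∃ q ∈ E, q.1 = dg d d' (1 + x) (1 + y) := by
  have hne : d ≠ d' := fun c => hb (congrArg β c)
  have ha : β d - β d' ≠ 0 := sub_ne_zero.2 hb
  obtain ⟨z, hz, rfl⟩ := split_pi (β d - β d') hx
  rw [neg_sub] at hz
  have hs : pi p h ^ (β d - β d').val ∈ Ar p h (β d - β d') :=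
    pi_mem (Nat.pos_of_ne_zero (mt (ZMod.val_eq_zero _).1 ha)) (by simp)
  refine ⟨el hne.symm (-(z * (1 + y))) * (el hne (pi p h ^ (β d - β d').val) *
    ((1 * el hne.symm z) * el hne (-(pi p h ^ (β d - β d').val * (1 + y))))), ?_, prod4 hne e⟩
  exact mul_mem (hE _ hd' _ hd hne.symm (el_mem _ (neg_mem (Ar_mul0 hz hy))))
    (mul_mem (hE _ hd _ hd' hne (el_mem _ hs)) (mul_mem (mul_mem (one_mem _)
      (hE _ hd' _ hd hne.symm (el_mem _ hz))) (hE _ hd _ hd' hne (el_mem _ (neg_mem (Ar_mul0 hs hy))))))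

theorem dg2 (hJ : ∀ d ∈ J, ∃ j ∈ J, β j ≠ β d)
    (hE : ∀ i ∈ J, ∀ j ∈ J, i ≠ j → Pg p h β {i} {j} ≤ E) {d d' : I} (hd : d ∈ J)
    (hd' : d' ∈ J) (hne : d ≠ d') {x y : Rg p h} (hx : x ∈ Ar p h (0 : ZMod N))
    (hy : y ∈ Ar p h (0 : ZMod N)) (e : (1 + x) * (1 + y) = 1) :
    ∃ q ∈ E, q.1 = dg d d' (1 + x) (1 + y) := by
  by_cases hb : β d = β d'
  · obtain ⟨j, hj, hb'⟩ := hJ d hd
    obtain ⟨q, hq, e1⟩ := dg1 hE hd hj hb'.symm hx hy e
    obtain ⟨q', hq', e2⟩ := dg1 hE hj hd' (hb ▸ hb') hx hy e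
    have h1 : j ≠ d := fun c => hb' (congrArg β c)
    have h2 : j ≠ d' := fun c => hb' (hb ▸ congrArg β c)
    refine ⟨q * q', mul_mem hq hq', ?_⟩
    rw [Matrix.SpecialLinearGroup.coe_mul, e1, e2, dg, dg, dg, Matrix.diagonal_mul_diagonal]
    congr 1
    funext i
    by_cases c1 : i = d
    · subst c1; simp [h1.symm, hne]
    by_cases c2 : i = d'
    · subst c2; simp [h2.symm, c1]
    by_cases c3 : i = j
    · subst c3; simp only [c1, c2, if_true, if_false]; linear_combination e
    · simp [c1, c2, c3]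
  · exact dg1 hE hd hd' hb hx hy e

theorem ent {r c : Finset I} {g : Gp p h I} (hg : g ∈ Pg p h β r c) {i j : I} (hij : i ≠ j) :
    g.1 i j ∈ Ar p h (β i - β j) := by
  have := (mem_Pg.1 hg i j).1
  rwa [Matrix.sub_apply, Matrix.one_apply_ne hij, sub_zero] at this

theorem clear (hE : ∀ i ∈ J, ∀ j ∈ J, i ≠ j → Pg p h β {i} {j} ≤ E) {C : Finset I} {d : I}
    (hd : d ∈ J) (hC : d ∈ C) {g : Gp p h I} (hg : g ∈ Pg p h β J C) {y : Rg p h}
    (hy : y ∈ Ar p h (0 : ZMod N)) (e : g.1 d d * (1 + y) = 1) (S : Finset I)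
    (hS : S ⊆ J.erase d) :
    ∃ q ∈ E, q ∈ Pg p h β J C ∧ (q * g).1 d d = g.1 d d ∧ ∀ i ∈ S, (q * g).1 i d = 0 := by
  induction S using Finset.induction_on with
  | empty => exact ⟨1, one_mem _, one_mem _, by simp, by simp⟩
  | insert i S _ ih =>
    obtain ⟨q, hq, hq', e1, e2⟩ := ih ((subset_insert _ _).trans hS)
    obtain ⟨hi, hiJ⟩ := mem_erase.1 (hS (mem_insert_self _ _))
    have hm : el hi (-((q * g).1 i d * (1 + y))) ∈ Pg p h β {i} {d} :=
      el_mem _ (neg_mem (Ar_mul0 (ent (mul_mem hq' hg) hi) hy))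
    refine ⟨el hi (-((q * g).1 i d * (1 + y))) * q, mul_mem (hE _ hiJ _ hd hi hm) hq,
      mul_mem (Pg_mono (by simpa using hiJ) (by simpa using hC) hm) hq', ?_, fun a ha => ?_⟩
    · rw [mul_assoc, Matrix.SpecialLinearGroup.coe_mul, el, tl, if_neg hi.symm, e1]
    · rw [mul_assoc, Matrix.SpecialLinearGroup.coe_mul, el, tl]
      split_ifs with c
      · rw [e1]; linear_combination (-(q * g).1 i d) * e
      · exact e2 a ((mem_insert.1 ha).resolve_left c)

theorem drop {C : Finset I} {d : I} {g : Gp p h I} (hg : g ∈ Pg p h β J (insert d C))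
    (h1 : g.1 d d = 1) (h2 : ∀ i, i ≠ d → g.1 i d = 0) : g ∈ Pg p h β J C := by
  refine mem_Pg.2 fun i j => ⟨(mem_Pg.1 hg i j).1, fun hne => ?_⟩
  obtain ⟨a, b⟩ := (mem_Pg.1 hg i j).2 hne
  refine ⟨a, (mem_insert.1 b).resolve_left ?_⟩
  rintro rfl
  apply hne
  by_cases c : i = j
  · subst c; simp [h1]
  · simp [h2 i c, Matrix.one_apply_ne c]

theorem main (hJ : ∀ d ∈ J, ∃ j ∈ J, β j ≠ β d)
    (hE : ∀ i ∈ J, ∀ j ∈ J, i ≠ j → Pg p h β {i} {j} ≤ E) (C : Finset I) (hC : C ⊆ J) :
    Pg p h β J C ≤ E := by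
  induction C using Finset.induction_on with
  | empty =>
    intro g hg
    have : g = 1 := by
      apply Subtype.ext
      rw [← sub_eq_zero]
      ext i j
      by_contra c
      simpa using ((mem_Pg.1 hg i j).2 c).2
    rw [this]
    exact one_mem _
  | insert d C hdC ih =>
    intro g hg
    have hd : d ∈ J := hC (mem_insert_self _ _)
    have hC' : C ⊆ J := (subset_insert _ _).trans hC
    have hx : g.1 d d - 1 ∈ Ar p h (0 : ZMod N) := by simpa using (mem_Pg.1 hg d d).1
    obtain ⟨y, hy, e⟩ := inv_ex hx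
    have e' : g.1 d d * (1 + y) = 1 := by linear_combination e
    obtain ⟨q, hq, hq', e1, e2⟩ := clear hE hd (mem_insert_self _ _) hg hy e' _ subset_rfl
    have hg1 := mul_mem hq' hg
    have e3 : ∀ i, i ≠ d → (q * g).1 i d = 0 := by
      intro i hi
      by_contra c
      have := ((mem_Pg.1 hg1 i d).2 (by simpa [Matrix.one_apply_ne hi] using c)).1
      exact c (e2 i (mem_erase.2 ⟨hi, this⟩))
    refine (mul_mem_cancel_left hq).1 ?_
    rcases C.eq_empty_or_nonempty with rfl | ⟨d', hd'⟩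
    · refine ih hC' (drop hg1 ?_ e3)
      have e4 : (q * g).1 = Matrix.diagonal fun i => if i = d then (q * g).1 d d else 1 := by
        ext i j
        by_cases c : j = d
        · subst c
          by_cases c' : i = j
          · subst c'; simp
          · rw [e3 i c', Matrix.diagonal_apply_ne _ c']
        · have : ((q * g).1 - 1) i j = 0 := by
            by_contra c'
            exact c (by simpa using ((mem_Pg.1 hg1 i j).2 c').2)
          rw [Matrix.sub_apply, sub_eq_zero] at this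
          rw [this]
          by_cases c' : i = j
          · subst c'; simp [c]
          · rw [Matrix.one_apply_ne c', Matrix.diagonal_apply_ne _ c']
      have := (q * g).2
      rw [e4, Matrix.det_diagonal] at this
      simpa using this
    · have hne : d ≠ d' := fun c => hdC (c ▸ hd')
      obtain ⟨w, hw, e4⟩ := dg2 hJ hE hd (hC' hd') hne hy hx (by linear_combination e)
      have hw' : w ∈ Pg p h β J (insert d C) := by
        refine mem_Pg.2 fun i j => ?_
        rw [e4, Matrix.sub_apply]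
        by_cases c : i = j
        · subst c
          by_cases c1 : i = d
          · subst c1; simp [dg, hy, hd]
          by_cases c2 : i = d'
          · subst c2; simpa [dg, c1, hd', hC' hd'] using hx
          · simp [dg, c1, c2]
        · simp [dg, Matrix.diagonal_apply_ne _ c, Matrix.one_apply_ne c]
      refine (mul_mem_cancel_left hw).1 (ih hC' (drop (mul_mem hw' hg1) ?_ fun i hi => ?_))
      · rw [Matrix.SpecialLinearGroup.coe_mul, e4, dg, Matrix.diagonal_mul, if_pos rfl, e1]
        linear_combination e'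
      · rw [Matrix.SpecialLinearGroup.coe_mul, e4, dg, Matrix.diagonal_mul, e3 i hi, mul_zero]

end Gn

theorem gen : GenStmt := fun _ _ _ _ _ _ _ _ _ J hJ _ hE => Gn.main hJ hE J subset_rfl

end Vale.Agent.P067
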