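import Vale.Agent.P067.Base

/-! Module H: the rank two estimate. -/

set_option linter.unusedSectionVars false

namespace Vale.Agent.P067
open Finset

namespace Heis

section abs
open Classical
variable {G : Type} [Group G] [Fintype G] {A A' B G0 G1 G2 : Subgroup G} {x : G → ℝ} {u w : G}

lemma sum_r (f : G → ℝ) (hu : u ∈ A) : ∑ g with g ∈ A, f (g * u) = ∑ g with g ∈ A, f g :=
  sum_equiv (Equiv.mulRight u) (fun g => by simp [A.mul_mem_cancel_right hu]) fun _ _ => rfl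

lemma sum_l (f : G → ℝ) (hu : u ∈ A) : ∑ g with g ∈ A, f (u * g) = ∑ g with g ∈ A, f g :=
  sum_equiv (Equiv.mulLeft u) (fun g => by simp [A.mul_mem_cancel_left hu]) fun _ _ => rfl

/-- cardinality -/
noncomputable def cd (A : Subgroup G) : ℝ := ((univ.filter fun u : G => u ∈ A).card : ℝ)

lemma cd_pos (A : Subgroup G) : 0 < cd A :=
  Nat.cast_pos.2 (card_pos.2 ⟨1, by simp [A.one_mem]⟩)

/-- correlation -/
noncomputable def cr (B : Subgroup G) (x : G → ℝ) (w : G) : ℝ := ∑ g with g ∈ B, x g * x (g * w)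

lemma cr_le (hw : w ∈ B) : |cr B x w| ≤ nsq B x := by
  have e := sum_r (fun g => x g ^ 2) hw
  have : ∑ g with g ∈ B, |x g * x (g * w)| ≤ ∑ g with g ∈ B, (x g ^ 2 + x (g * w) ^ 2) / 2 :=
    sum_le_sum fun g _ => abs_le.2 ⟨by nlinarith [sq_nonneg (x g + x (g * w))],
      by nlinarith [sq_nonneg (x g - x (g * w))]⟩
  rw [← sum_div, sum_add_distrib, e] at this
  exact (abs_sum_le_sum_abs _ _).trans (this.trans_eq (by rw [nsq]; ring))

lemma av_av (h : A ≤ A') (h' : A' ≤ B) :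
    ∑ g with g ∈ B, av A x g * av A' x g = (∑ w with w ∈ A', cr B x w) / cd A' := by
  have k : ∀ u ∈ univ.filter (· ∈ A), ∑ w with w ∈ A', ∑ g with g ∈ B, x (g * u) * x (g * w) =
      ∑ w with w ∈ A', cr B x w := fun u hu => by
    have hu := (mem_filter.1 hu).2
    rw [← sum_l (fun w => ∑ g with g ∈ B, x (g * u) * x (g * w)) (h hu)]
    refine sum_congr rfl fun w _ => ?_
    simpa only [mul_assoc] using! sum_r (fun g => x g * x (g * w)) (h' (h hu))
  simp only [av, div_mul_div_comm, sum_mul_sum]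
  rw [← sum_div, sum_comm, sum_congr rfl fun u hu => sum_comm.trans (k u hu), sum_const,
    nsmul_eq_mul]
  exact mul_div_mul_left _ _ (cd_pos A).ne'

theorem main (h0 : G0 ≤ B) (h1 : G1 ≤ G0) (h2 : G2 ≤ G0) (φ : G → G) (bad : G → Prop) {δ : ℝ}
    (p1 : ∀ w ∈ G0, φ w ∈ G2) (p2 : ∀ w ∈ G0, ∀ y ∈ G2, φ (y * w) = y * φ w)
    (p3 : ∑ w with w ∈ G0, (if bad w then (1 : ℝ) else 0) ≤ δ * cd G0)
    (p4 : ∀ w ∈ G0, ¬ bad w → ∃ u ∈ G1, ∃ u' ∈ G1, w = u * φ w * u')
    (hx : ∀ g ∈ B, ∀ u ∈ G1, x (g * u) = x g) :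
    nsq B (fun g => av G2 x g - av G0 x g) ≤ 2 * δ * nsq B x := by
  have c0 := cd_pos G0
  have c2 := cd_pos G2
  have n0 : 0 ≤ nsq B x := sum_nonneg fun _ _ => sq_nonneg _
  have e1 : nsq B (fun g => av G2 x g - av G0 x g) =
      (∑ w with w ∈ G2, cr B x w) / cd G2 - (∑ w with w ∈ G0, cr B x w) / cd G0 := by
    have : ∀ g, (av G2 x g - av G0 x g) ^ 2 =
      av G2 x g * av G2 x g - 2 * (av G2 x g * av G0 x g) + av G0 x g * av G0 x g := fun g => by ring
    simp only [nsq, this, sum_add_distrib, sum_sub_distrib, ← mul_sum]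
    rw [av_av le_rfl (h2.trans h0), av_av h2 h0, av_av le_rfl h0]; ring
  have e2 : cd G2 * ∑ w with w ∈ G0, cr B x (φ w) = cd G0 * ∑ w with w ∈ G2, cr B x w := by
    rw [cd, cd, ← nsmul_eq_mul, ← nsmul_eq_mul, ← sum_const, ← sum_const,
      ← sum_congr rfl fun y hy => sum_l (fun w => cr B x (φ w)) (h2 (mem_filter.1 hy).2), sum_comm]
    refine sum_congr rfl fun w hw => ?_
    have hw := (mem_filter.1 hw).2
    rw [← sum_r (cr B x) (p1 w hw)]
    exact sum_congr rfl fun y hy => by rw [p2 w hw y (mem_filter.1 hy).2]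
  have e3 : ∑ w with w ∈ G0, (cr B x (φ w) - cr B x w) ≤
      ∑ w with w ∈ G0, (if bad w then (1 : ℝ) else 0) * (2 * nsq B x) := sum_le_sum fun w hw => by
    have hw := (mem_filter.1 hw).2
    have hφ := h0 (h2 (p1 w hw))
    split_ifs with hb
    · linarith [(abs_le.1 (cr_le (x := x) hφ)).2, (abs_le.1 (cr_le (x := x) (h0 hw))).1]
    · obtain ⟨u, hu, u', hu', e⟩ := p4 w hw hb
      have ub := h0 (h1 hu)
      rw [zero_mul, sub_nonpos, cr, cr, ← sum_r _ ub]
      refine (sum_congr rfl fun g hg => ?_).le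
      have hg := (mem_filter.1 hg).2
      rw [hx g hg u hu, ← hx _ (B.mul_mem (B.mul_mem hg ub) hφ) u' hu', mul_assoc, mul_assoc,
        ← mul_assoc u, ← e]
  rw [← sum_mul, sum_sub_distrib] at e3
  rw [e1, show (∑ w with w ∈ G2, cr B x w) / cd G2 = (∑ w with w ∈ G0, cr B x (φ w)) / cd G0 by
    rw [div_eq_div_iff c2.ne' c0.ne']; linarith, ← sub_div, div_le_iff₀ c0]
  nlinarith [mul_le_mul_of_nonneg_right p3 n0]

lemma frac {S : Type} [Fintype S] (e : S → G) (he : ∀ s, e s ∈ G0) (bad : G → Prop) {b : ℕ}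
    (h : ∀ w ∈ G0, (univ.filter fun s => bad (e s * w)).card ≤ b) :
    (Fintype.card S : ℝ) * ∑ w with w ∈ G0, (if bad w then (1 : ℝ) else 0) ≤ b * cd G0 := by
  rw [← nsmul_eq_mul, ← card_univ, ← sum_const,
    ← sum_congr rfl fun s _ => sum_l (fun w => if bad w then (1 : ℝ) else 0) (he s), sum_comm, cd,
    mul_comm, ← nsmul_eq_mul, ← sum_const]
  refine sum_le_sum fun w hw => ?_
  rw [sum_boole]
  exact_mod_cast h w (mem_filter.1 hw).2

end abs

section mat
variable {p N b : ℕ} [Fact p.Prime] [NeZero N]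

/-- a matrix with one block -/
def blk (c d : ZMod N) (M : Matrix (Fin b) (Fin b) (ZMod p)) :
    Matrix (ZMod N × Fin b) (ZMod N × Fin b) (ZMod p) :=
  Matrix.of fun i j => if i.1 = c ∧ j.1 = d then M i.2 j.2 else 0

/-- a block of a matrix -/
def bl (m : Matrix (ZMod N × Fin b) (ZMod N × Fin b) (ZMod p)) (c d : ZMod N) :
    Matrix (Fin b) (Fin b) (ZMod p) := Matrix.of fun s t => m (c, s) (d, t)

variable {c d c' d' τ : ZMod N} {M M' : Matrix (Fin b) (Fin b) (ZMod p)}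
  {m m' : Matrix (ZMod N × Fin b) (ZMod N × Fin b) (ZMod p)}

lemma blk_mul : blk c d M * blk c' d' M' = if d = c' then blk c d' (M * M') else 0 := by
  ext i j
  rw [Matrix.mul_apply, Fintype.sum_prod_type, sum_eq_single d (fun x _ hx => by simp [blk, hx])
    (by simp)]
  by_cases h : d = c' <;> by_cases h1 : i.1 = c <;> by_cases h2 : j.1 = d' <;>
    simp [blk, h, h1, h2, Matrix.mul_apply]

lemma blk_add : blk c d (M + M') = blk c d M + blk c d M' := by
  ext i j
  simp only [blk, Matrix.of_apply, Matrix.add_apply]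
  split_ifs <;> simp

lemma blk_bl (i j : ZMod N × Fin b) :
    blk c d (bl m c d) i j = if i.1 = c ∧ j.1 = d then m i j else 0 := by
  simp only [blk, bl, Matrix.of_apply]
  split_ifs with h
  · rw [← h.1, ← h.2]
  · rfl

lemma pos_eq (i : ZMod N × Fin b) : i.1 = c ↔ pos Prod.fst τ i = (c - τ).val := by
  rw [pos, (ZMod.val_injective N).eq_iff, sub_left_inj]

lemma val_pred (hN : 3 ≤ N) (h : c ≠ τ) : (c - 1 - τ).val + 1 = (c - τ).val := by
  have : Fact (1 < N) := ⟨by omega⟩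
  have := ZMod.val_pos.2 (sub_ne_zero.2 h)
  rw [sub_right_comm, ZMod.val_sub (by rw [ZMod.val_one]; omega), ZMod.val_one]; omega

lemma pred_eq (hN : 3 ≤ N) (h : c ≠ τ) : c - 1 = d ↔ (c - τ).val = (d - τ).val + 1 := by
  rw [← val_pred hN h, Nat.add_right_cancel_iff, (ZMod.val_injective N).eq_iff, sub_left_inj]

lemma pos_pred (hN : 3 ≤ N) (h : c ≠ τ) (i : ZMod N × Fin b) :
    i.1 = c - 1 ↔ (c - τ).val = pos Prod.fst τ i + 1 := by rw [eq_comm, pred_eq hN h, pos]

lemma uni_blk (hN : 3 ≤ N) (h : c ≠ τ) (M : Matrix (Fin b) (Fin b) (ZMod p)) :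
    Uni Prod.fst τ (1 + blk c (c - 1) M) := fun i j hij => by
  rw [Matrix.add_apply, blk, Matrix.of_apply, if_neg, add_zero]
  rw [pos_eq (τ := τ), pos_pred hN h]; omega

lemma bl_mul (hN : 3 ≤ N) (h : c ≠ τ) (h1 : Uni Prod.fst τ m) (h2 : Uni Prod.fst τ m') :
    bl (m * m') c (c - 1) = bl m c (c - 1) + bl m' c (c - 1) := by
  ext s t
  have a1 : pos Prod.fst τ (c, s) = (c - τ).val := rfl
  have a2 := (pos_pred hN h (c - 1, t)).1 rfl
  have : ((m - 1) * (m' - 1)) (c, s) (c - 1, t) = 0 := by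
    rw [Matrix.mul_apply]
    refine sum_eq_zero fun l _ => ?_
    by_cases hl : pos Prod.fst τ l < pos Prod.fst τ (c, s)
    · rw [Matrix.sub_apply m', h2 l _ (by omega), sub_self, mul_zero]
    · rw [Matrix.sub_apply m, h1 _ l hl, sub_self, zero_mul]
  rw [show m * m' = (m - 1) * (m' - 1) + m + m' - 1 by noncomm_ring]
  simp only [bl, Matrix.of_apply, Matrix.add_apply, Matrix.sub_apply _ 1, this, zero_add]
  rw [Matrix.one_apply_ne (fun e => by rw [e] at a1; omega), sub_zero]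

lemma dec (hN : 3 ≤ N) {a a' : ZMod N} (ha : a ≠ τ) (ha' : a' ≠ τ) (hne : a ≠ a')
    (h1 : Uni Prod.fst τ m) (h2 : ∀ c, c ≠ a → c ≠ a' → ∀ i j, pos Prod.fst τ j < (c - τ).val →
      (c - τ).val ≤ pos Prod.fst τ i → m i j = 0) :
    m = 1 + blk a' (a' - 1) (bl m a' (a' - 1)) + blk a (a - 1) (bl m a (a - 1)) +
      (if a' - 1 = a then blk a' (a - 1) (bl m a' (a - 1)) else 0) +
      if a - 1 = a' then blk a (a' - 1) (bl m a (a' - 1)) else 0 := by
  ext i j
  have n : (a - τ).val ≠ (a' - τ).val := fun e => hne (sub_left_inj.1 (ZMod.val_injective N e))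
  simp only [Matrix.add_apply, Matrix.ite_apply, blk_bl, Matrix.zero_apply, pos_eq (τ := τ) i,
    pos_pred hN ha, pos_pred hN ha', pred_eq hN ha, pred_eq hN ha']
  by_cases hij : pos Prod.fst τ j < pos Prod.fst τ i
  · rw [Matrix.one_apply_ne (by rintro rfl; omega)]
    by_cases h0 : m i j = 0
    · simp [h0]
    have H : ∀ v, pos Prod.fst τ j < v → v ≤ pos Prod.fst τ i →
        v = (a - τ).val ∨ v = (a' - τ).val := fun v v1 v2 => by
      have e : (τ + v - τ).val = v := by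
        rw [add_sub_cancel_left, ZMod.val_cast_of_lt (v2.trans_lt (pos_lt τ i))]
      by_contra hc
      exact h0 (h2 (τ + v) (fun h => hc (.inl (h ▸ e.symm))) (fun h => hc (.inr (h ▸ e.symm))) i j
        (by omega) (by omega))
    have k1 := H _ hij le_rfl
    have k2 := H (pos Prod.fst τ j + 1) (by omega) hij
    have k3 := H (pos Prod.fst τ j + 2) (by omega)
    split_ifs <;> first | omega | simp
  · rw [h1 i j hij]
    split_ifs <;> first | omega | simp

lemma roots (M : Matrix (Fin b) (Fin b) (ZMod p)) :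
    (univ.filter fun s : ZMod p => (s • (1 : Matrix (Fin b) (Fin b) (ZMod p)) + M).det = 0).card
      ≤ b := by
  refine le_trans (card_le_card (t := (-M).charpoly.roots.toFinset) fun s hs => ?_)
    ((Multiset.toFinset_card_le _).trans ((Polynomial.card_roots' _).trans (by simp)))
  rw [Multiset.mem_toFinset, Polynomial.mem_roots (-M).charpoly_monic.ne_zero, Polynomial.IsRoot,
    Matrix.eval_charpoly, sub_neg_eq_add, Matrix.scalar_apply, ← Matrix.smul_one_eq_diagonal]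
  exact (mem_filter.1 hs).2

variable {h : ℕ} {T : Finset (ZMod N)} {a a' : ZMod N} {w y : Gp p h (ZMod N × Fin b)}

/-- elementary elements -/
noncomputable def eb (h : ℕ) (hN : 3 ≤ N) (hc : c ≠ τ) (M : Matrix (Fin b) (Fin b) (ZMod p)) :
    Gp p h (ZMod N × Fin b) := ek h (uni_blk hN hc M)

lemma eb_K {hN : 3 ≤ N} {hc : c ≠ τ} : eb h hN hc M ∈ Kg p h Prod.fst τ := ek_mem _

/-- face stabilisers -/
noncomputable def St (p h b : ℕ) (T : Finset (ZMod N)) : Subgroup (Gp p h (ZMod N × Fin b)) :=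
  Pg p h Prod.fst univ univ ⊓ KT (Kg p h Prod.fst) T

lemma St_mem : w ∈ St p h b T → c ∈ T → w ∈ Kg p h Prod.fst c := fun h1 h2 => mem_KT.1 h1.2 c h2

lemma St_le : St p h b (insert c T) ≤ St p h b T := fun _ hg =>
  ⟨hg.1, mem_KT.2 fun _ hσ => St_mem hg (mem_insert_of_mem hσ)⟩

variable (hN : 3 ≤ N) (hh : N ≤ h)
include hN hh

lemma cf_eb (hc : c ≠ τ) : cf Prod.fst τ (eb h hN hc M) = 1 + blk c (c - 1) M := cf_em hh rfl

lemma eb_mem (hc : c ≠ τ) (h1 : c ∉ T) : eb h hN hc M ∈ St p h b T := by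
  refine ⟨Kg_le hh τ eb_K, mem_KT.2 fun σ hσ => ?_⟩
  rw [em_mem_Kg hh (uni_blk hN hc M) rfl]
  intro i j i1 i2
  rw [Matrix.add_apply, Matrix.one_apply_ne (by rintro rfl; omega), blk, Matrix.of_apply, if_neg,
    add_zero]
  rw [pos_eq (τ := τ), pos_pred hN hc]
  rintro ⟨e1, e2⟩
  obtain rfl : σ = c := sub_left_inj.1 (ZMod.val_injective N (show _ = (c - τ).val by omega))
  exact h1 hσ

lemma vz (hw : w ∈ Kg p h Prod.fst τ) (hc : w ∈ Kg p h Prod.fst c) (i j : ZMod N × Fin b) :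
    pos Prod.fst τ j < (c - τ).val → (c - τ).val ≤ pos Prod.fst τ i → cf Prod.fst τ w i j = 0 :=
  (em_mem_Kg hh (cf_spec hh hw).1 (cf_spec hh hw).2 c).1 hc i j

lemma ad (hc : c ≠ τ) (hw : w ∈ Kg p h Prod.fst τ) (hy : y ∈ Kg p h Prod.fst τ) :
    bl (cf Prod.fst τ (y * w)) c (c - 1) =
      bl (cf Prod.fst τ y) c (c - 1) + bl (cf Prod.fst τ w) c (c - 1) := by
  rw [cf_mul hh hy hw, bl_mul hN hc (cf_spec hh hy).1 (cf_spec hh hw).1]

lemma bl_eb (hc : c ≠ τ) : bl (cf Prod.fst τ (eb h hN hc M)) c (c - 1) = M := by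
  ext s t
  have : c ≠ c - 1 := fun e => by have := (pred_eq hN hc).1 e.symm; omega
  simp [cf_eb hN hh, bl, blk, this]

lemma eb_add (hc : c ≠ τ) : eb h hN hc (M + M') = eb h hN hc M * eb h hN hc M' := by
  refine cf_inj hh eb_K (mul_mem eb_K eb_K) ?_
  have : c - 1 ≠ c := fun e => by have := (pred_eq hN hc).1 e; omega
  rw [cf_mul hh eb_K eb_K, cf_eb hN hh, cf_eb hN hh, cf_eb hN hh, blk_add, add_mul,
    mul_add, mul_add, blk_mul, if_neg this]
  simp only [one_mul, mul_one]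
  abel

variable (hτ : τ ∈ T) (ha : a ≠ τ) (ha' : a' ≠ τ) (hne : a ≠ a') (hU : ∀ c, c ≠ a → c ≠ a' → c ∈ T)
include hτ ha' hne hU

lemma eq_eb (hy : y ∈ St p h b (insert a' T)) :
    y = eb h hN ha (bl (cf Prod.fst τ y) a (a - 1)) := by
  have k := St_mem hy (mem_insert_of_mem hτ)
  refine cf_inj hh k eb_K ?_
  have z : ∀ c d, (d - τ).val < (a' - τ).val → (a' - τ).val ≤ (c - τ).val →
      blk c d (bl (cf Prod.fst τ y) c d) = 0 := fun c d h1 h2 => by
    ext i j
    rw [blk_bl]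
    split_ifs with e
    · exact vz hN hh k (St_mem hy (mem_insert_self _ _)) i j (by rwa [pos, e.2]) (by rwa [pos, e.1])
    · rfl
  have v1 := val_pred hN ha
  have v2 := val_pred hN ha'
  have := dec hN ha ha' hne (cf_spec hh k).1 fun c c1 c2 =>
    vz hN hh k (St_mem hy (mem_insert_of_mem (hU c c1 c2)))
  rw [z a' (a' - 1) (by omega) le_rfl, ite_eq_right_iff.2 fun e => z _ _ (by
    have := (pred_eq hN ha').1 e; omega) le_rfl, ite_eq_right_iff.2 fun e => z _ _ (by omega) (by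
    have := (pred_eq hN ha).1 e; omega), add_zero, add_zero, add_zero] at this
  rwa [cf_eb hN hh]

lemma fac (hw : w ∈ St p h b T) (hd : (bl (cf Prod.fst τ w) a (a - 1)).det ≠ 0) :
    ∃ X X', w = eb h hN ha' X * eb h hN ha (bl (cf Prod.fst τ w) a (a - 1)) * eb h hN ha' X' := by
  have k := St_mem hw hτ
  have e := dec hN ha ha' hne (cf_spec hh k).1 fun c c1 c2 => vz hN hh k (St_mem hw (hU c c1 c2))
  have n : a' - 1 ≠ a' := fun e => by have := (pred_eq hN ha').1 e; omega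
  have n' : ¬ (a' - 1 = a ∧ a - 1 = a') := fun e => by
    have := (pred_eq hN ha').1 e.1; have := (pred_eq hN ha).1 e.2; omega
  generalize bl (cf Prod.fst τ w) a (a - 1) = Y at e hd
  generalize bl (cf Prod.fst τ w) a' (a' - 1) = X at e
  generalize bl (cf Prod.fst τ w) a' (a - 1) = Z at e
  generalize bl (cf Prod.fst τ w) a (a' - 1) = Z' at e
  suffices ∃ X X', cf Prod.fst τ w =
      (1 + blk a' (a' - 1) X) * (1 + blk a (a - 1) Y) * (1 + blk a' (a' - 1) X') by
    obtain ⟨X, X', e⟩ := this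
    refine ⟨X, X', cf_inj hh k (mul_mem (mul_mem eb_K eb_K) eb_K) ?_⟩
    rw [cf_mul hh (mul_mem eb_K eb_K) eb_K, cf_mul hh eb_K eb_K,
      cf_eb hN hh, cf_eb hN hh, cf_eb hN hh, e]
  have u := hd.isUnit
  by_cases q : a - 1 = a'
  · have q' : a' - 1 ≠ a := fun e => n' ⟨e, q⟩
    refine ⟨X - Y⁻¹ * Z', Y⁻¹ * Z', ?_⟩
    nth_rewrite 1 [e, ← sub_add_cancel X (Y⁻¹ * Z'), blk_add]
    simp only [add_mul, mul_add, one_mul, mul_one, blk_mul, if_neg n, if_neg q', if_pos q,
      Matrix.mul_nonsing_inv_cancel_left _ _ u, zero_mul]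
    abel
  · refine ⟨Z * Y⁻¹, X - Z * Y⁻¹, ?_⟩
    nth_rewrite 1 [e, ← sub_add_cancel X (Z * Y⁻¹), blk_add]
    simp only [add_mul, mul_add, one_mul, mul_one, blk_mul, if_neg n, if_neg q, ite_mul,
      Matrix.nonsing_inv_mul_cancel_right _ _ u, zero_mul, ite_self]
    abel

end mat

end Heis

open Heis in
theorem heis : HeisStmt := by
  classical
  intro N b _ hN _ del hdel
  refine ⟨⌈2 * b / del ^ 2⌉₊, fun p h _ hp hh _ T a a' ha ha' hne hT x hx => ?_⟩
  obtain ⟨τ, hτ⟩ : T.Nonempty := card_pos.1 (by omega)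
  have t1 : a ≠ τ := (ne_of_mem_of_not_mem hτ ha).symm
  have t2 : a' ≠ τ := (ne_of_mem_of_not_mem hτ ha').symm
  have hU : ∀ c, c ≠ a → c ≠ a' → c ∈ T := fun c c1 c2 => by
    have : insert a (insert a' T) = univ := eq_univ_of_card _ (by
      rw [card_insert_of_notMem (by simp [hne, ha]), card_insert_of_notMem ha', ZMod.card, hT])
    simpa [c1, c2] using eq_univ_iff_forall.1 this c
  have p0 : (0 : ℝ) < p := Nat.cast_pos.2 (Fact.out : p.Prime).pos
  have m1 : a ∉ insert a' T := by simp [hne, ha]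
  have m2 : a' ∉ insert a T := by simp [hne.symm, ha']
  refine (main (G0 := St p h b T) (G1 := St p h b (insert a T)) (G2 := St p h b (insert a' T))
    inf_le_left St_le St_le (fun w => eb h hN t1 (bl (cf Prod.fst τ w) a (a - 1)))
    (fun w => (bl (cf Prod.fst τ w) a (a - 1)).det = 0) (δ := b / p)
    (fun w _ => eb_mem hN hh t1 m1) (fun w hw y hy => ?_) ?_ (fun w hw hb => ?_) hx).trans ?_
  · rw [ad hN hh t1 (St_mem hw hτ) (St_mem (St_le hy) hτ), eb_add hN hh,
      ← eq_eb hN hh hτ t1 t2 hne hU hy]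
  · have := frac (G0 := St p h b T) (fun s : ZMod p => eb h hN t1 (s • 1))
      (fun _ => eb_mem hN hh t1 ha) (fun w => (bl (cf Prod.fst τ w) a (a - 1)).det = 0) (b := b)
      fun w hw => le_trans (card_le_card fun s hs => by
        simpa only [mem_filter, ad hN hh t1 (St_mem hw hτ) eb_K, bl_eb hN hh] using hs)
        (roots (bl (cf Prod.fst τ w) a (a - 1)))
    rw [ZMod.card] at this
    rwa [div_mul_eq_mul_div, le_div_iff₀' p0]
  · obtain ⟨X, X', e⟩ := fac hN hh hτ t1 t2 hne hU hw hb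
    exact ⟨_, eb_mem hN hh t2 m2, _, eb_mem hN hh t2 m2, e⟩
  · refine mul_le_mul_of_nonneg_right ?_ (sum_nonneg fun _ _ => sq_nonneg _)
    have := Nat.ceil_le.1 hp
    rw [div_le_iff₀ (by positivity)] at this
    rw [← mul_div_assoc, div_le_iff₀ p0]
    linarith

end Vale.Agent.P067
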