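import Vale.Agent.P067.Base

/-! Module Z: joins and the stability zigzag. -/

set_option linter.unusedSectionVars false

namespace Vale.Agent.P067
open Finset

namespace Zig
variable {G ι κ k : Type} [Group G] [DecidableEq ι] [DecidableEq κ] [AddCommGroup k]
  {K : ι → Subgroup G} {A B : Subgroup G} {S : Finset ι} {t : ℕ} {a b : Finset ι → G → k}

lemma dl_insert (a : Finset ι → G → k) {d : ι} {T : Finset ι} (h : d ∉ T) (g : G) :
    dl a (insert d T) g = a T g + dl (fun X => a (insert d X)) T g := by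
  rw [dl, sum_insert h, erase_insert h, dl]
  exact congrArg _ (sum_congr rfl fun τ hτ => by
    rw [erase_insert_of_ne (ne_of_mem_of_not_mem hτ h).symm])

lemma dl_add (a b : Finset ι → G → k) (T : Finset ι) (g : G) :
    dl (a + b) T g = dl a T g + dl b T g := sum_add_distrib

lemma dl_dl (h2 : ∀ x : k, x + x = 0) (a : Finset ι → G → k) (T : Finset ι) (g : G) :
    dl (dl a) T g = 0 := by
  induction T using Finset.induction_on generalizing a with
  | empty => rfl
  | insert d T hd ih =>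
    have : dl (fun X => dl a (insert d X)) T g = dl a T g + dl (dl fun X => a (insert d X)) T g := by
      rw [← dl_add]
      exact sum_congr rfl fun τ _ => dl_insert a (fun h => hd (mem_of_mem_erase h)) g
    rw [dl_insert _ hd, this, ih, add_zero, h2]

lemma KT_anti {T T' : Finset ι} (h : T ⊆ T') {u : G} (hu : u ∈ KT K T') : u ∈ KT K T :=
  mem_KT.2 fun τ hτ => mem_KT.1 hu τ (h hτ)

lemma inv_dl (h : Inv K B A a) : Inv K B A (dl a) := fun T g hg u hu hT =>
  sum_congr rfl fun τ _ => h _ g hg u hu (KT_anti (erase_subset τ T) hT)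

lemma inv_add (h : Inv K B A a) (h' : Inv K B A b) : Inv K B A (a + b) := fun T g hg u hu hT =>
  congrArg₂ (· + ·) (h T g hg u hu hT) (h' T g hg u hu hT)

lemma dl_congr {T : Finset ι} (hT : T ⊆ S) (ht : T.card = t + 1) {g : G}
    (h : ∀ T ⊆ S, T.card = t → a T g = b T g) : dl a T g = dl b T g :=
  sum_congr rfl fun τ hτ => h _ ((erase_subset τ T).trans hT) (by rw [card_erase_of_mem hτ, ht]; rfl)

lemma eq_of_add (h2 : ∀ x : k, x + x = 0) {x y : k} (h : x + y = 0) : x = y := by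
  rw [← add_zero x, ← h2 y, ← add_assoc, h, zero_add]

theorem _root_.Vale.Agent.P067.spread (hA : A ≤ B) (h : ∀ g ∈ B, Cob K A S t fun T x => a T (g * x)) :
    ∃ b, Inv K B A b ∧ ∀ T ⊆ S, T.card = t → ∀ g ∈ B, a T g = dl b T g := by
  choose! c c1 c2 using h
  obtain ⟨ρ, hρ⟩ : ∃ ρ : G → G, ρ = fun g => (QuotientGroup.mk g : G ⧸ A).out := ⟨_, rfl⟩
  have r1 : ∀ g, (ρ g)⁻¹ * g ∈ A := fun g => QuotientGroup.eq.1 (by rw [hρ]; exact Quotient.out_eq _)
  have r2 : ∀ g, ∀ u ∈ A, ρ (g * u) = ρ g := fun g u hu => by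
    simp only [hρ, QuotientGroup.mk_mul_of_mem g hu]
  have r3 : ∀ g ∈ B, ρ g ∈ B := fun g hg => by
    simpa using B.mul_mem hg (B.inv_mem (hA (r1 g)))
  refine ⟨fun T g => c (ρ g) T ((ρ g)⁻¹ * g), fun T g hg u hu hT => ?_, fun T hT ht g hg => ?_⟩
  · simp only [r2 g u hu, ← mul_assoc]
    exact c1 _ (r3 g hg) T _ (r1 g) u hu hT
  · simpa using! c2 _ (r3 g hg) T hT ht _ (r1 g)

theorem aspread (h : Acyc k K A S t) (hA : A ≤ B) (h1 : Inv K B A a) (h2 : Coc B S t a) :
    ∃ b, Inv K B A b ∧ ∀ T ⊆ S, T.card = t → ∀ g ∈ B, a T g = dl b T g :=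
  spread hA fun g hg => h _ (fun T x hx u hu hT => by
    simpa only [mul_assoc] using h1 T _ (B.mul_mem hg (hA hx)) u hu hT)
    fun T hT ht x hx => h2 T hT ht _ (B.mul_mem hg (hA hx))

end Zig

open Zig in
theorem join : JoinStmt := by
  intro G κ k _ _ _ h2 L B D h r
  induction r using Nat.strong_induction_on generalizing B D with
  | _ r ih =>
  intro hr a a1 a2
  obtain ⟨d, hd⟩ : D.Nonempty := card_pos.1 (by omega)
  choose! y y1 y2 y3 using h d hd
  have yK : ∀ g ∈ B, ∀ E ⊆ D, d ∉ E → y g ∈ KT L E := fun g hg E hE hd' =>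
    mem_KT.2 fun τ hτ => y2 g hg τ (hE hτ) (ne_of_mem_of_not_mem hτ hd')
  obtain ⟨b, hb⟩ : ∃ b : Finset κ → G → k,
    b = fun E g => if d ∉ E ∧ E ⊆ D then a (insert d E) (g * y g) else 0 := ⟨_, rfl⟩
  have b1 : Inv L B B b := fun E g hg u hu hE => by
    simp only [hb]
    split_ifs with hc
    · have gu := B.mul_mem hg hu
      have := a1 (insert d E) _ (B.mul_mem hg (y1 g hg)) ((g * y g)⁻¹ * (g * u * y (g * u)))
        (B.mul_mem (B.inv_mem (B.mul_mem hg (y1 g hg))) (B.mul_mem gu (y1 _ gu))) (mem_KT.2 ?_)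
      · rwa [mul_inv_cancel_left] at this
      intro τ hτ
      rcases mem_insert.1 hτ with rfl | hτ
      · exact mul_mem (inv_mem (y3 g hg)) (y3 _ gu)
      · rw [show (g * y g)⁻¹ * (g * u * y (g * u)) = (y g)⁻¹ * u * y (g * u) by group]
        exact mem_KT.1 (mul_mem (mul_mem (inv_mem (yK g hg E hc.2 hc.1)) hE) (yK _ gu E hc.2 hc.1))
          τ hτ
    · rfl
  have b2 : ∀ E ⊆ D, E.card = r → d ∉ E → ∀ g ∈ B, (a + dl b) E g = 0 := fun E hE hc hd' g hg => by
    have := a2 (insert d E) (insert_subset hd hE) (by rw [card_insert_of_notMem hd', hc]) _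
      (B.mul_mem hg (y1 g hg))
    rw [dl_insert _ hd', a1 E g hg _ (y1 g hg) (yK g hg E hE hd')] at this
    refine Eq.trans (congrArg (a E g + ·) (sum_congr rfl fun τ _ => ?_)) this
    rw [hb]
    exact if_pos ⟨fun h => hd' (mem_of_mem_erase h), (erase_subset _ _).trans hE⟩
  rcases r with _ | r
  · exact ⟨b, b1, fun E hE hc g hg => eq_of_add h2 (b2 E hE hc (by simp [card_eq_zero.1 hc]) g hg)⟩
  obtain ⟨c, c1, c2⟩ := aspread (a := fun E => (a + dl b) (insert d E)) (B := B)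
    (ih r r.lt_succ_self (B ⊓ L d) (D.erase d) (fun e he g hg => by
      obtain ⟨z, z1, z2, z3⟩ := h e (mem_of_mem_erase he) g hg.1
      exact ⟨z, ⟨z1, z2 d hd (ne_of_mem_erase he).symm⟩,
        fun e' he' => z2 e' (mem_of_mem_erase he'), z3⟩) (by rw [card_erase_of_mem hd]; omega))
    inf_le_left (fun E g hg u hu hE => (inv_add a1 (inv_dl b1)) _ g hg u hu.1 (mem_KT.2 fun τ hτ => by
      rcases mem_insert.1 hτ with rfl | hτ
      exacts [hu.2, mem_KT.1 hE τ hτ])) fun E hE hc g hg => by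
      obtain ⟨e1, e2⟩ := subset_erase.1 hE
      have := dl_insert (a + dl b) e2 g
      rw [b2 E e1 hc e2 g hg, zero_add, dl_add, dl_dl h2, add_zero,
        a2 _ (insert_subset hd e1) (by rw [card_insert_of_notMem e2, hc]) g hg] at this
      exact this.symm
  refine ⟨b + fun E g => if d ∈ E then c (E.erase d) g else 0, inv_add b1 fun E g hg u hu hE => ?_,
    fun E hE hc g hg => ?_⟩
  · by_cases hc : d ∈ E
    · simp only [if_pos hc]
      exact c1 _ g hg u ⟨hu, mem_KT.1 hE d hc⟩ (KT_anti (erase_subset _ _) hE)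
    · simp only [if_neg hc]
  rw [dl_add]
  refine eq_of_add h2 ?_
  rw [← add_assoc]
  by_cases he : d ∈ E
  · obtain ⟨E, e2, rfl⟩ : ∃ E', d ∉ E' ∧ insert d E' = E :=
      ⟨_, notMem_erase d E, insert_erase he⟩
    rw [card_insert_of_notMem e2] at hc
    rw [dl_insert (fun E g => if d ∈ E then c (E.erase d) g else 0) e2, if_neg e2, zero_add]
    refine Eq.trans (congrArg₂ (· + ·) (c2 E (subset_erase.2 ⟨(subset_insert _ _).trans hE, e2⟩)
      (by omega) g hg) (sum_congr rfl fun τ _ => ?_)) (h2 _)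
    simp only [mem_insert_self, if_true]
    rw [erase_insert fun h => e2 (mem_of_mem_erase h)]
  · exact (congrArg₂ (· + ·) (b2 E hE hc he g hg)
      (sum_eq_zero fun τ _ => if_neg fun h => he (mem_of_mem_erase h))).trans (add_zero 0)

namespace Zig
variable {G ι κ k : Type} [Group G] [DecidableEq ι] [DecidableEq κ] [AddCommGroup k]

/-- invariance of doubly indexed families -/
def I2 (K : ι → Subgroup G) (L : κ → Subgroup G) (B : Subgroup G)
    (F : Finset κ → Finset ι → G → k) : Prop := ∀ E, Inv K B (B ⊓ KT L E) (F E)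

/-- the second differential -/
def d2 (F : Finset κ → Finset ι → G → k) (E : Finset κ) (T : Finset ι) (g : G) : k :=
  dl (fun E => F E T) E g

variable {K : ι → Subgroup G} {L : κ → Subgroup G} {B : Subgroup G}
  {F F' : Finset κ → Finset ι → G → k}

lemma I2.d2 (h : I2 K L B F) : I2 K L B (d2 F) := fun E T g hg u hu hT =>
  sum_congr rfl fun τ _ => h _ T g hg u ⟨hu.1, KT_anti (erase_subset τ E) hu.2⟩ hT

lemma I2.ad (h : I2 K L B F) (h' : I2 K L B F') : I2 K L B fun E => F E + dl (F' E) := fun E =>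
  inv_add (h E) (inv_dl (h' E))

lemma d12 (F : Finset κ → Finset ι → G → k) (E : Finset κ) (T : Finset ι) (g : G) :
    dl (d2 F E) T g = d2 (fun E => dl (F E)) E T g := sum_comm

lemma key [Fintype ι] (h2 : ∀ x : k, x + x = 0) {D : Finset κ} {t : ℕ}
    (h1 : ∀ (T : Finset ι) (r : ℕ), r ≤ t → Acyc k L (B ⊓ KT K T) D r)
    (h3 : ∀ D' ⊆ D, 2 ≤ D'.card → ∀ s < t, Acyc k K (B ⊓ KT L D') univ s) (s : ℕ) :
    ∀ r, r + s = t → ∀ F F' : Finset κ → Finset ι → G → k, I2 K L B F' →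
      (∀ E ⊆ D, E.card = r + 1 → ∀ T, T.card = s → ∀ g ∈ B, d2 F E T g = dl (F' E) T g) →
      ∃ b, I2 K L B b ∧ ∀ E ⊆ D, E.card = r + 1 → ∀ T, T.card = s → ∀ g ∈ B,
        d2 (fun E => F E + dl (b E)) E T g = 0 := by
  induction s with
  | zero =>
    refine fun r _ F F' _ h => ⟨0, fun _ _ _ _ _ _ _ => rfl, fun E hE hc T hT g hg => ?_⟩
    obtain rfl := card_eq_zero.1 hT
    exact (sum_congr rfl fun _ _ => add_zero _).trans (h E hE hc ∅ rfl g hg)
  | succ s ih =>
    intro r hr F F' i1 h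
    have : ∀ E, ∃ c, Inv K B (B ⊓ KT L E) c ∧ (E ⊆ D → E.card = r + 1 + 1 →
        ∀ T, T.card = s → ∀ g ∈ B, d2 F' E T g = dl c T g) := fun E => by
      by_cases hc : E ⊆ D ∧ E.card = r + 1 + 1
      · obtain ⟨c, c1, c2⟩ := aspread (h3 E hc.1 (by omega) s (by omega)) inf_le_left (i1.d2 E)
          fun T _ hT g hg => by
            rw [d12, ← dl_dl h2 (fun E => F E T) E g]
            exact dl_congr hc.1 hc.2 fun E' e1 e2 => (h E' e1 e2 T hT g hg).symm
        exact ⟨c, c1, fun _ _ T => c2 T (subset_univ T)⟩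
      · exact ⟨0, fun _ _ _ _ _ _ => rfl, fun a b => absurd ⟨a, b⟩ hc⟩
    choose c c1 c2 using this
    obtain ⟨b, b1, b2⟩ := ih (r + 1) (by omega) F' c c1 c2
    have : ∀ T, ∃ e, Inv L B (B ⊓ KT K T) e ∧ (T.card = s → ∀ E ⊆ D, E.card = r + 1 →
        ∀ g ∈ B, (F' E + dl (b E)) T g = dl e E g) := fun T => by
      by_cases hT : T.card = s
      · obtain ⟨e, e1, e2⟩ := aspread (h1 T (r + 1) (by omega)) inf_le_left
          (a := fun E => (F' E + dl (b E)) T)
          (fun E g hg u hu hE => i1.ad b1 E T g hg u ⟨hu.1, hE⟩ hu.2)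
          fun E hE hc g hg => b2 E hE hc T hT g hg
        exact ⟨e, e1, fun _ => e2⟩
      · exact ⟨0, fun _ _ _ _ _ _ => rfl, fun a => absurd a hT⟩
    choose e e1 e2 using this
    refine ⟨fun E T => e T E, fun E T g hg u hu hT => e1 T E g hg u ⟨hu.1, hT⟩ hu.2,
      fun E hE hc T hT g hg => ?_⟩
    have q : dl (d2 (fun E T => e T E) E) T g = dl (F' E + dl (b E)) T g :=
      dl_congr (subset_univ T) hT fun T' _ hT' => (e2 T' hT' E hE hc g hg).symm
    rw [dl_add, dl_dl h2, add_zero, d12, ← h E hE hc T hT g hg] at q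
    exact sum_add_distrib.trans ((congrArg _ q).trans (h2 _))

end Zig

open Zig in
theorem zig : ZigStmt := by
  intro G ι κ k _ _ _ _ _ h2 K L B D t h1 h3 f f1 _ f3
  have : ∀ E : Finset κ, ∃ c, Inv K B (B ⊓ KT L E) c ∧ (E ⊆ D → E.card = 0 + 1 →
      ∀ T, T.card = t → ∀ g ∈ B, d2 (fun _ => f) E T g = dl c T g) := fun E => by
    by_cases hc : E ⊆ D ∧ E.card = 0 + 1
    · obtain ⟨d, rfl⟩ := card_eq_one.1 hc.2
      obtain ⟨c, c1, c2⟩ := spread inf_le_left (f3 d (hc.1 (mem_singleton_self d)))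
      exact ⟨c, fun T g hg u hu => c1 T g hg u ⟨hu.1, mem_KT.1 hu.2 d (mem_singleton_self d)⟩,
        fun _ _ T hT g hg => (sum_singleton _ _).trans (c2 T (subset_univ T) hT g hg)⟩
    · exact ⟨0, fun _ _ _ _ _ _ => rfl, fun a b => absurd ⟨a, b⟩ hc⟩
  choose c c1 c2 using this
  obtain ⟨b, b1, b2⟩ := key h2 h1 h3 t 0 (zero_add t) (fun _ => f) c c1 c2
  refine ⟨b ∅, fun T g hg u hu => b1 ∅ T g hg u ⟨hu, mem_KT.2 (by simp)⟩, fun T _ hT g hg => ?_⟩
  obtain ⟨e, -, e2⟩ := aspread (h1 T 0 t.zero_le) inf_le_left (a := fun E => (f + dl (b E)) T)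
    (fun E g hg u hu hE => I2.ad (F := fun _ => f) (fun _ T g hg u hu => f1 T g hg u hu.1) b1
      E T g hg u ⟨hu.1, hE⟩ hu.2) fun E hE hc g hg => b2 E hE hc T hT g hg
  exact eq_of_add h2 (e2 ∅ (empty_subset _) rfl g hg)

end Vale.Agent.P067
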