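import Vale.Agent.P067.Spec2
import Vale.Agent.P067.Zig

/-! Module M: discrete Morse theory along a filtration by full subcomplexes. -/

namespace Vale.Agent.P067
open Finset Zig

lemma Mo.step {G ι k : Type} [Group G] [Fintype ι] [DecidableEq ι] [AddCommGroup k]
    (h2 : ∀ x : k, x + x = 0) {K : ι → Subgroup G} {B : Subgroup G} {gd gd' : ι → G → Prop}
    {τ0 : ι} {R : ℕ} (i1 : ∀ g ∈ B, ∀ u ∈ B, u ∈ K τ0 → (gd τ0 (g * u) ↔ gd τ0 g))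
    (i2 : ∀ g ∈ B, ∀ u ∈ B, u ∈ K τ0 → (gd' τ0 (g * u) ↔ gd' τ0 g))
    (h3 : ∀ τ, ∀ g ∈ B, τ ≠ τ0 → gd' τ g → gd τ g)
    (h4 : ∀ g ∈ B, gd' τ0 g → ¬ gd τ0 g →
      Cone K (B ⊓ K τ0) (univ.erase τ0) (fun τ u => gd τ (g * u)) R)
    {t : ℕ} (ht : t + 1 ≤ Fintype.card ι) {a : Finset ι → G → k} (a1 : Inv K B B a)
    (a2 : Coc B univ t a) (a3 : ∀ T, T.card = t → ∀ g ∈ B, (∀ τ ∈ T, gd τ g) → a T g = 0) :
    ∃ b, Inv K B B b ∧ (∀ T, ∀ g ∈ B, (∀ τ ∈ T, gd τ g) → b T g = 0) ∧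
      ∀ T, T.card = t → ∀ g ∈ B, (∀ τ ∈ T, gd' τ g) → a T g = dl b T g := by
  classical
  choose! c c1 c2 using h4
  obtain ⟨ρ, hρ⟩ : ∃ ρ : G → G, ρ = fun g => (QuotientGroup.mk g : G ⧸ (B ⊓ K τ0)).out := ⟨_, rfl⟩
  have r1 : ∀ g, (ρ g)⁻¹ * g ∈ B ⊓ K τ0 := fun g =>
    QuotientGroup.eq.1 (by rw [hρ]; exact Quotient.out_eq _)
  have r2 : ∀ g, ∀ u ∈ B ⊓ K τ0, ρ (g * u) = ρ g := fun g u hu => by
    simp only [hρ, QuotientGroup.mk_mul_of_mem g hu]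
  have r3 : ∀ g ∈ B, ρ g ∈ B := fun g hg => by
    simpa using B.mul_mem hg (B.inv_mem (r1 g).1)
  have r4 : ∀ g ∈ B, gd' τ0 g ∧ ¬ gd τ0 g → gd' τ0 (ρ g) ∧ ¬ gd τ0 (ρ g) := fun g hg h => by
    rwa [← i1 _ (r3 g hg) _ (r1 g).1 (r1 g).2, ← i2 _ (r3 g hg) _ (r1 g).1 (r1 g).2,
      mul_inv_cancel_left]
  obtain ⟨b, hb⟩ : ∃ b : Finset ι → G → k, b = fun T g => if τ0 ∈ T ∧ gd' τ0 g ∧ ¬ gd τ0 g then
    ∑ q ∈ c (ρ g) (T.erase τ0) ((ρ g)⁻¹ * g), a (insert τ0 q.1) (ρ g * q.2) else 0 := ⟨_, rfl⟩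
  have b2 : ∀ T g, (∀ τ ∈ T, gd τ g) → b T g = 0 := fun T g h => by
    simp only [hb]; exact if_neg fun h' => h'.2.2 (h _ h'.1)
  refine ⟨b, fun T g hg u hu hT => ?_, fun T g _ => b2 T g, fun T hT g hg h => ?_⟩
  · simp only [hb]
    by_cases h0 : τ0 ∈ T
    · have hu' := mem_KT.1 hT _ h0
      rw [i1 g hg u hu hu', i2 g hg u hu hu', r2 g u ⟨hu, hu'⟩, ← mul_assoc]
      split_ifs with h
      · rw [c1 _ (r3 g hg) (r4 g hg h.2).1 (r4 g hg h.2).2 _ _ (r1 g) u ⟨hu, hu'⟩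
          (KT_anti (erase_subset _ _) hT)]
      · rfl
    · simp [h0]
  by_cases h0 : ∀ τ ∈ T, gd τ g
  · rw [a3 T hT g hg h0, dl, sum_eq_zero fun τ _ => b2 _ g fun τ' h' => h0 _ (mem_of_mem_erase h')]
  have h5 : τ0 ∈ T ∧ ¬ gd τ0 g := by
    by_contra hc
    refine h0 fun τ hτ => ?_
    by_cases e : τ = τ0
    · subst e; exact not_not.1 fun h' => hc ⟨hτ, h'⟩
    · exact h3 τ g hg e (h τ hτ)
  have h6 := And.intro (h _ h5.1) h5.2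
  obtain ⟨T, h7, rfl⟩ : ∃ T', τ0 ∉ T' ∧ T = insert τ0 T' :=
    ⟨T.erase τ0, notMem_erase _ _, (insert_erase h5.1).symm⟩
  rw [card_insert_of_notMem h7] at hT
  obtain ⟨-, e1, e2⟩ := c2 _ (r3 g hg) (r4 g hg h6).1 (r4 g hg h6).2 T
    (subset_erase.2 ⟨subset_univ _, h7⟩) (by rw [card_erase_of_mem (mem_univ _), card_univ]; omega)
    _ (r1 g) fun τ hτ => by
      simp only [mul_inv_cancel_left]
      exact h3 τ g hg (ne_of_mem_of_not_mem hτ h7) (h τ (mem_insert_of_mem hτ))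
  have e3 := e2 k h2 (fun X u => a (insert τ0 X) (ρ g * u)) fun X u hu v hv hX => by
    simp only [← mul_assoc]
    exact a1 _ _ (B.mul_mem (r3 g hg) hu.1) v hv.1 (mem_KT.2 fun τ hτ =>
      (mem_insert.1 hτ).elim (fun e => e ▸ hv.2) (mem_KT.1 hX τ))
  rw [sum_eq_zero fun q hq => ?_, mul_inv_cancel_left] at e3
  · rw [eq_of_add h2 e3.symm, dl_insert _ h7, show b T g = 0 by simp [hb, h7], zero_add, dl]
    refine sum_congr rfl fun τ _ => ?_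
    simp only [hb]
    rw [if_pos ⟨mem_insert_self _ _, h6⟩, erase_insert fun h' => h7 (mem_of_mem_erase h')]
  · obtain ⟨q1, q2, q3, q4⟩ := e1 q hq
    have q5 := (subset_erase.1 q1).2
    have q6 := B.mul_mem (r3 g hg) q3.1
    have := a2 (insert τ0 q.1) (subset_univ _) (by rw [card_insert_of_notMem q5]; omega) _ q6
    rwa [dl_insert _ q5, a3 _ (q2.trans hT) _ q6 q4, zero_add] at this

theorem morse : MorseStmt := by
  intro G ι k _ _ _ _ h2 K B gd ty R h1 h3 h4 h5 t ht a a1 a2 a3 L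
  have m : ∀ L τ, ∀ g ∈ B, gd 0 τ g → gd L τ g := fun L τ g hg h =>
    Nat.rec h (fun L => h3 L τ g hg) L
  induction L with
  | zero => exact ⟨0, fun _ _ _ _ _ _ => rfl, fun _ _ _ _ => rfl, fun T hT g hg h => by
      simp [dl, a3 T hT g hg h]⟩
  | succ L ih =>
    obtain ⟨b, b1, b2, b3⟩ := ih
    obtain ⟨c, c1, c2, c3⟩ := Mo.step h2 (h1 L _) (h1 (L + 1) _) (h4 L) (h5 L) ht
      (inv_add a1 (inv_dl b1)) (fun T hT e g hg => by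
        rw [dl_add, a2 T hT e g hg, dl_dl h2, add_zero])
      fun T hT g hg h => by rw [Pi.add_apply, Pi.add_apply, b3 T hT g hg h, h2]
    refine ⟨b + c, inv_add b1 c1, fun T g hg h => ?_, fun T hT g hg h => ?_⟩
    · rw [Pi.add_apply, Pi.add_apply, b2 T g hg h, c2 T g hg fun τ hτ => m L τ g hg (h τ hτ),
        add_zero]
    · rw [dl_add, ← c3 T hT g hg h, Pi.add_apply, Pi.add_apply, add_left_comm, h2, add_zero]

end Vale.Agent.P067
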