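import Vale.Agent.P067.Spec

/-! P067 module T: trickling down. -/

namespace Vale.Agent.P067
namespace Tk
open Finset

variable {G ι : Type} [Group G] [DecidableEq ι]

omit [DecidableEq ι] in
lemma memKT {K : ι → Subgroup G} {T : Finset ι} {u : G} :
    u ∈ KT K T ↔ ∀ τ ∈ T, u ∈ K τ := by
  simp [KT, Subgroup.mem_iInf]

/-- right invariance on `B` under `A` -/
def RI (B A : Subgroup G) (x : G → ℝ) : Prop := ∀ g ∈ B, ∀ u ∈ A, x (g * u) = x g

lemma RI.mono {B A A' : Subgroup G} {x : G → ℝ} (h : RI B A x) (hA : A' ≤ A) : RI B A' x :=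
  fun g hg u hu => h g hg u (hA hu)

lemma RI.sub {B A : Subgroup G} {x y : G → ℝ} (h : RI B A x) (h' : RI B A y) :
    RI B A fun g => x g - y g := fun g hg u hu => by
  show x (g * u) - y (g * u) = x g - y g
  rw [h g hg u hu, h' g hg u hu]

lemma bt_anti (K : ι → Subgroup G) (B : Subgroup G) {T T' : Finset ι} (h : T ⊆ T') :
    B ⊓ KT K T' ≤ B ⊓ KT K T := fun u hu =>
  ⟨hu.1, memKT.2 fun τ hτ => memKT.1 hu.2 τ (h hτ)⟩

lemma ite_one_eq {p : Prop} [Decidable p] (h : (if p then (1 : ZMod 2) else 0) = 1) : p := by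
  by_contra hp
  rw [if_neg hp] at h
  exact absurd h (by decide)

lemma two_zero (x : ZMod 2) : x + x = 0 := by
  revert x; decide

/-- connectivity of the links of nonempty faces -/
lemma conn1 {K : ι → Subgroup G} {B : Subgroup G} {R : ℕ} (hL : LinkCone K B R)
    {T : Finset ι} (hT : T.Nonempty) {a b : ι} (ha : a ∉ T) (hb : b ∉ T) (hab : a ≠ b)
    {x : G → ℝ} (hxa : RI B (B ⊓ KT K (insert a T)) x) (hxb : RI B (B ⊓ KT K (insert b T)) x) :
    RI B (B ⊓ KT K T) x := by
  classical
  intro g0 hg0 u hu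
  have hdis : Disjoint T {a, b} := by
    rw [Finset.disjoint_right]
    intro τ hτ
    rcases Finset.mem_insert.1 hτ with h | h
    · exact h ▸ ha
    · exact (Finset.mem_singleton.1 h) ▸ hb
  obtain ⟨c, hc1, hc2⟩ := hL T {a, b} hT hdis
  let al : Finset ι → G → ZMod 2 := fun T' h =>
    if T' = {a} ∨ T' = {b} then (if x (g0 * h) = x g0 then 1 else 0) else 0
  have hins : ∀ (e : ι) (v : G), v ∈ B ⊓ KT K T → v ∈ KT K {e} → v ∈ B ⊓ KT K (insert e T) := by
    intro e v hv hv'
    refine ⟨hv.1, memKT.2 fun τ hτ => ?_⟩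
    rcases Finset.mem_insert.1 hτ with h | h
    · exact h ▸ memKT.1 hv' e (Finset.mem_singleton_self e)
    · exact memKT.1 hv.2 τ h
  have hinv : Inv K (B ⊓ KT K T) (B ⊓ KT K T) al := by
    intro T' g hg v hv hv'
    have hgg : g0 * g ∈ B := B.mul_mem hg0 hg.1
    by_cases h : T' = {a} ∨ T' = {b}
    · have : x (g0 * (g * v)) = x (g0 * g) := by
        rw [← mul_assoc]
        rcases h with h | h
        · exact hxa _ hgg v (hins a v hv (h ▸ hv'))
        · exact hxb _ hgg v (hins b v hv (h ▸ hv'))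
      simp only [al, if_pos h, this]
    · simp only [al, if_neg h]
  have hcard : ({a, b} : Finset ι).card = 2 := Finset.card_pair hab
  have key : ∀ g ∈ B ⊓ KT K T, al {a} g + ∑ q ∈ c ∅ 1, al q.1 q.2 = 0 := by
    intro g hg
    obtain ⟨-, h2, h3⟩ := hc2 {a} (by simp) (by simp [hcard]) g hg (fun _ _ => trivial)
    have h4 := h3 (ZMod 2) two_zero al hinv
    have h5 : c ∅ g = c ∅ 1 := by
      have := hc1 ∅ 1 (Subgroup.one_mem _) g hg (memKT.2 (by simp))
      rwa [one_mul] at this
    rw [Finset.sum_singleton, Finset.erase_singleton, h5] at h4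
    rw [← h4]
    refine Finset.sum_eq_zero fun q hq => ?_
    obtain ⟨hq1, hq2, -, -⟩ := h2 q hq
    have hq3 : q.1 = {a, b} := Finset.eq_of_subset_of_card_le hq1 (by simp [hcard, hq2])
    have e1 : ({a, b} : Finset ι).erase a = {b} := by
      rw [Finset.erase_insert (by simpa using hab)]
    have e2 : ({a, b} : Finset ι).erase b = {a} := by
      rw [Finset.pair_comm, Finset.erase_insert (by simpa using hab.symm)]
    rw [hq3, dl, Finset.sum_pair hab, e1, e2]
    simp only [al, true_or, or_true, if_true]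
    exact two_zero _
  have k1 := key u hu
  have k2 := key 1 (Subgroup.one_mem _)
  have k3 : al {a} u = al {a} 1 := add_right_cancel (k1.trans k2.symm)
  simp only [al, true_or, if_true, mul_one] at k3
  exact ite_one_eq k3

/-- connectivity of all links -/
lemma conn [Fintype ι] {K : ι → Subgroup G} {B : Subgroup G} {R : ℕ} (hL : LinkCone K B R)
    (hA : Acyc (ZMod 2) K B univ 1)
    {T : Finset ι} {a b : ι} (ha : a ∉ T) (hb : b ∉ T) (hab : a ≠ b)
    {x : G → ℝ} (hxa : RI B (B ⊓ KT K (insert a T)) x) (hxb : RI B (B ⊓ KT K (insert b T)) x) :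
    RI B (B ⊓ KT K T) x := by
  classical
  rcases T.eq_empty_or_nonempty with rfl | hT
  swap
  · exact conn1 hL hT ha hb hab hxa hxb
  have hall : ∀ c : ι, RI B (B ⊓ KT K {c}) x := by
    intro c
    by_cases h1 : a = c
    · subst h1; simpa using hxa
    by_cases h2 : b = c
    · subst h2; simpa using hxb
    exact conn1 hL (Finset.singleton_nonempty c) (by simpa using h1) (by simpa using h2) hab
      (hxa.mono (bt_anti K B (by simp))) (hxb.mono (bt_anti K B (by simp)))
  intro g0 hg0 u hu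
  let al : Finset ι → G → ZMod 2 := fun T' h =>
    if T'.card = 1 then (if x h = x g0 then 1 else 0) else 0
  have hinv : Inv K B B al := by
    intro T' g hg v hv hv'
    by_cases h : T'.card = 1
    · obtain ⟨c, rfl⟩ := Finset.card_eq_one.1 h
      simp only [al, if_pos h, hall c g hg v ⟨hv, hv'⟩]
    · simp only [al, if_neg h]
  have hcoc : Coc B univ 1 al := by
    intro T' _ hT' g _
    obtain ⟨p, q, hpq, rfl⟩ := Finset.card_eq_two.1 hT'
    have e1 : ({p, q} : Finset ι).erase p = {q} := by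
      rw [Finset.erase_insert (by simpa using hpq)]
    have e2 : ({p, q} : Finset ι).erase q = {p} := by
      rw [Finset.pair_comm, Finset.erase_insert (by simpa using hpq.symm)]
    rw [dl, Finset.sum_pair hpq, e1, e2]
    simp only [al, Finset.card_singleton, if_true]
    exact two_zero _
  obtain ⟨β, hβ1, hβ2⟩ := hA al hinv hcoc
  have k1 := hβ2 {a} (by simp) (by simp) (g0 * u) (B.mul_mem hg0 hu.1)
  have k2 := hβ2 {a} (by simp) (by simp) g0 hg0
  rw [dl, Finset.sum_singleton, Finset.erase_singleton] at k1 k2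
  rw [hβ1 ∅ g0 hg0 u hu.1 (memKT.2 (by simp)), ← k2] at k1
  simp only [al, Finset.card_singleton, if_true] at k1
  exact ite_one_eq k1

variable [Fintype G]

open Classical in
/-- inner product on `B` -/
noncomputable def ip (B : Subgroup G) (x y : G → ℝ) : ℝ := ∑ g with g ∈ B, x g * y g

lemma card_pos (A : Subgroup G) [DecidablePred (· ∈ A)] :
    (0 : ℝ) < ((univ.filter fun u : G => u ∈ A).card : ℝ) := by
  have : (univ.filter fun u : G => u ∈ A).Nonempty := ⟨1, by simp⟩
  exact_mod_cast this.card_pos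

lemma av_inv (B A : Subgroup G) (x : G → ℝ) : RI B A (av A x) := by
  classical
  intro g _ u hu
  unfold av
  congr 1
  refine Finset.sum_equiv (Equiv.mulLeft u) (fun i => ?_) (fun i _ => ?_)
  · simp [A.mul_mem_cancel_left hu]
  · simp [mul_assoc]

lemma av_fix {B A : Subgroup G} {x : G → ℝ} (h : RI B A x) {g : G} (hg : g ∈ B) :
    av A x g = x g := by
  classical
  unfold av
  rw [Finset.sum_congr rfl (g := fun _ => x g) fun u hu => h g hg u (by simpa using hu),
    Finset.sum_const, nsmul_eq_mul, mul_div_cancel_left₀ _ (card_pos A).ne']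

lemma av_sub (A : Subgroup G) (x y : G → ℝ) (g : G) :
    av A (fun h => x h - y h) g = av A x g - av A y g := by
  unfold av
  rw [Finset.sum_sub_distrib, sub_div]

lemma av_congr {B A : Subgroup G} (hA : A ≤ B) {x y : G → ℝ} (h : ∀ g ∈ B, x g = y g)
    {g : G} (hg : g ∈ B) : av A x g = av A y g := by
  classical
  unfold av
  congr 1
  exact Finset.sum_congr rfl fun u hu => h _ (B.mul_mem hg (hA (by simpa using hu)))

lemma av_av {A A' : Subgroup G} (hA : A' ≤ A) (x : G → ℝ) (g : G) :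
    av A (av A' x) g = av A x g := by
  classical
  unfold av
  congr 1
  rw [← Finset.sum_div, Finset.sum_comm]
  have : ∀ v ∈ (univ.filter fun u : G => u ∈ A'),
      ∑ u with u ∈ A, x (g * u * v) = ∑ u with u ∈ A, x (g * u) := by
    intro v hv
    have hv' : v ∈ A := hA (by simpa using hv)
    refine Finset.sum_equiv (Equiv.mulRight v) (fun i => ?_) (fun i _ => ?_)
    · simp [A.mul_mem_cancel_right hv']
    · simp [mul_assoc]
  rw [Finset.sum_congr rfl this, Finset.sum_const, nsmul_eq_mul,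
    mul_div_cancel_left₀ _ (card_pos A').ne']

lemma ip_congr {B : Subgroup G} {x y x' y' : G → ℝ} (h : ∀ g ∈ B, x g = x' g)
    (h' : ∀ g ∈ B, y g = y' g) : ip B x y = ip B x' y' := by
  classical
  unfold ip
  refine Finset.sum_congr rfl fun g hg => ?_
  have hg' : g ∈ B := by simpa using hg
  rw [h g hg', h' g hg']

lemma ip_self (B : Subgroup G) (x : G → ℝ) : ip B x x = nsq B x := by
  unfold ip nsq
  exact Finset.sum_congr rfl fun g _ => (sq _).symm

lemma nsq_congr {B : Subgroup G} {x x' : G → ℝ} (h : ∀ g ∈ B, x g = x' g) :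
    nsq B x = nsq B x' := by
  rw [← ip_self, ← ip_self, ip_congr h h]

lemma nsq_nonneg (B : Subgroup G) (x : G → ℝ) : 0 ≤ nsq B x :=
  Finset.sum_nonneg fun _ _ => sq_nonneg _

lemma ip_comm (B : Subgroup G) (x y : G → ℝ) : ip B x y = ip B y x := by
  unfold ip
  exact Finset.sum_congr rfl fun g _ => mul_comm _ _

lemma ip_le (B : Subgroup G) (x y : G → ℝ) : ip B x y ≤ √(nsq B x) * √(nsq B y) :=
  Real.sum_mul_le_sqrt_mul_sqrt _ _ _

lemma adj {B A : Subgroup G} (hA : A ≤ B) (x y : G → ℝ) :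
    ip B (av A x) y = ip B x (av A y) := by
  classical
  unfold ip av
  simp only [div_mul_eq_mul_div, mul_div_assoc', ← Finset.sum_div, Finset.sum_mul,
    Finset.mul_sum]
  congr 1
  rw [Finset.sum_comm, Finset.sum_comm (s := univ.filter fun g : G => g ∈ B)]
  refine Finset.sum_equiv (Equiv.inv G) (fun i => by simp) (fun u hu => ?_)
  have hu' : u ∈ B := hA (by simpa using hu)
  refine Finset.sum_equiv (Equiv.mulRight u) (fun i => ?_) (fun i _ => ?_)
  · simp [B.mul_mem_cancel_right hu']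
  · simp

lemma ip_zero {B : Subgroup G} (x : G → ℝ) {y : G → ℝ} (h : ∀ g ∈ B, y g = 0) :
    ip B x y = 0 := by
  classical
  unfold ip
  exact Finset.sum_eq_zero fun g hg => by rw [h g (by simpa using hg), mul_zero]

lemma av_res (B A : Subgroup G) (x : G → ℝ) {g : G} (hg : g ∈ B) :
    av A (fun h => x h - av A x h) g = 0 := by
  rw [av_sub, av_fix (av_inv B A x) hg, sub_self]

lemma ip_dec {B A : Subgroup G} (hA : A ≤ B) (x y : G → ℝ) :
    ip B x y = ip B (av A x) (av A y) +
      ip B (fun h => x h - av A x h) (fun h => y h - av A y h) := by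
  have h1 : ip B (av A x) (fun h => y h - av A y h) = 0 := by
    rw [adj hA]; exact ip_zero _ fun g hg => av_res B A y hg
  have h2 : ip B (av A y) (fun h => x h - av A x h) = 0 := by
    rw [adj hA]; exact ip_zero _ fun g hg => av_res B A x hg
  have : ip B x y = ip B (av A x) (av A y) +
      ip B (fun h => x h - av A x h) (fun h => y h - av A y h) +
      ip B (av A x) (fun h => y h - av A y h) + ip B (av A y) (fun h => x h - av A x h) := by
    unfold ip
    simp only [← Finset.sum_add_distrib]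
    exact Finset.sum_congr rfl fun g _ => by ring
  rw [this, h1, h2]; ring

lemma nsq_dec {B A : Subgroup G} (hA : A ≤ B) (x : G → ℝ) :
    nsq B x = nsq B (av A x) + nsq B (fun h => x h - av A x h) := by
  rw [← ip_self, ip_dec hA, ip_self, ip_self]

lemma sw_mono {K : ι → Subgroup G} {B : Subgroup G} {r r' : ℝ} {T : Finset ι} {a b : ι}
    (h : Sw K B r T a b) (h0 : 0 ≤ r) (hr : r ≤ r') : Sw K B r' T a b := fun x hx =>
  (h x hx).trans (mul_le_mul_of_nonneg_right (pow_le_pow_left₀ h0 hr 2) (nsq_nonneg B x))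

lemma cont_av (A : Subgroup G) (g : G) : Continuous fun x : G → ℝ => av A x g := by
  unfold av
  fun_prop

lemma av_smul (A : Subgroup G) (t : ℝ) (x : G → ℝ) (g : G) :
    av A (fun h => t * x h) g = t * av A x g := by
  unfold av
  rw [← Finset.mul_sum, mul_div_assoc]

lemma nsq_smul (B : Subgroup G) (t : ℝ) (x : G → ℝ) :
    nsq B (fun h => t * x h) = t ^ 2 * nsq B x := by
  unfold nsq
  rw [Finset.mul_sum]
  exact Finset.sum_congr rfl fun g _ => by ring

lemma nsq_eq_zero {B : Subgroup G} {x : G → ℝ} (h : nsq B x = 0) {g : G} (hg : g ∈ B) :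
    x g = 0 := by
  classical
  have := (Finset.sum_eq_zero_iff_of_nonneg fun g _ => sq_nonneg (x g)).1 h g (by simpa using hg)
  exact pow_eq_zero_iff (two_ne_zero) |>.1 this

/-- a connected link has a spectral gap -/
lemma gap {B A0 A1 A2 : Subgroup G} (h0 : A0 ≤ B) (h1 : A1 ≤ A0) (h2 : A2 ≤ A0)
    (hc : ∀ x : G → ℝ, RI B A1 x → RI B A2 x → RI B A0 x) :
    ∃ r : ℝ, 0 ≤ r ∧ r < 1 ∧ ∀ x : G → ℝ, RI B A1 x →
      nsq B (fun g => av A2 x g - av A0 x g) ≤ r ^ 2 * nsq B x := by
  classical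
  let φ : (G → ℝ) → ℝ := fun x => nsq B (fun g => av A2 x g - av A0 x g)
  have hφc : Continuous φ := by
    unfold φ nsq
    exact continuous_finsetSum _ fun g _ => ((cont_av A2 g).sub (cont_av A0 g)).pow 2
  have hnc : Continuous fun x : G → ℝ => nsq B x := by
    unfold nsq
    exact continuous_finsetSum _ fun g _ => (continuous_apply g).pow 2
  let C : Set (G → ℝ) := {x | RI B A1 x ∧ (∀ g, g ∉ B → x g = 0) ∧ nsq B x = 1}
  have hCc : IsCompact C := by
    refine (isCompact_closedBall (0 : G → ℝ) 1).of_isClosed_subset ?_ ?_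
    · refine IsClosed.inter ?_ (IsClosed.inter ?_ (isClosed_eq hnc continuous_const))
      · show IsClosed {x : G → ℝ | ∀ g ∈ B, ∀ u ∈ A1, x (g * u) = x g}
        simp only [Set.ofPred_forall]
        exact isClosed_iInter fun g => isClosed_iInter fun _ => isClosed_iInter fun u =>
          isClosed_iInter fun _ => isClosed_eq (continuous_apply _) (continuous_apply _)
      · show IsClosed {x : G → ℝ | ∀ g, g ∉ B → x g = 0}
        simp only [Set.ofPred_forall]
        exact isClosed_iInter fun g => isClosed_iInter fun _ =>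
          isClosed_eq (continuous_apply _) continuous_const
    · rintro x ⟨-, hx2, hx3⟩
      rw [mem_closedBall_zero_iff, pi_norm_le_iff_of_nonneg zero_le_one]
      intro g
      by_cases hg : g ∈ B
      · have : x g ^ 2 ≤ nsq B x :=
          Finset.single_le_sum (f := fun g => x g ^ 2) (fun g _ => sq_nonneg _)
            (by simpa using hg)
        rw [hx3] at this
        exact (sq_le_one_iff_abs_le_one _).1 this
      · simp [hx2 g hg]
  have hlt : ∀ x ∈ C, φ x < 1 := by
    rintro x ⟨hx1, -, hx3⟩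
    have d1 := nsq_dec (h2.trans h0) x
    have d2 := nsq_dec h0 (av A2 x)
    have e1 : nsq B (av A0 (av A2 x)) = nsq B (av A0 x) := nsq_congr fun g _ => av_av h2 x g
    have e2 : nsq B (fun h => av A2 x h - av A0 (av A2 x) h) = φ x :=
      nsq_congr fun g _ => by rw [av_av h2 x g]
    have n1 := nsq_nonneg B (fun h => x h - av A2 x h)
    have n2 := nsq_nonneg B (av A0 x)
    by_contra hcon
    have z1 : nsq B (fun h => x h - av A2 x h) = 0 := by linarith
    have z2 : nsq B (av A0 x) = 0 := by linarith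
    have i2 : RI B A2 x := fun g hg u hu => by
      have a1 := nsq_eq_zero z1 hg
      have a2 := nsq_eq_zero z1 (B.mul_mem hg (h0 (h2 hu)))
      have a3 := av_inv B A2 x g hg u hu
      linarith
    have i0 := hc x hx1 i2
    have : nsq B x = nsq B (av A0 x) := nsq_congr fun g hg => (av_fix i0 hg).symm
    linarith
  have hex : ∃ m : ℝ, 0 ≤ m ∧ m < 1 ∧ ∀ x ∈ C, φ x ≤ m := by
    rcases C.eq_empty_or_nonempty with h | h
    · exact ⟨0, le_rfl, one_pos, by simp [h]⟩
    · obtain ⟨x, hx, hm⟩ := hCc.exists_isMaxOn h hφc.continuousOn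
      exact ⟨φ x, nsq_nonneg _ _, hlt x hx, fun y hy => hm hy⟩
  obtain ⟨m, hm0, hm1, hm⟩ := hex
  refine ⟨√m, Real.sqrt_nonneg _, by rwa [Real.sqrt_lt' one_pos, one_pow], fun x hx => ?_⟩
  rw [Real.sq_sqrt hm0]
  rcases (nsq_nonneg B x).eq_or_lt with hz | hz
  · have : nsq B (fun g => av A2 x g - av A0 x g) = nsq B (fun _ => 0) := by
      refine nsq_congr fun g hg => ?_
      rw [av_congr (h2.trans h0) (y := fun _ => 0) (fun g hg => nsq_eq_zero hz.symm hg) hg,
        av_congr h0 (y := fun _ => 0) (fun g hg => nsq_eq_zero hz.symm hg) hg]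
      simp [av]
    rw [this, ← hz]
    simp [nsq]
  · set s := √(nsq B x) with hs
    have hs0 : 0 < s := Real.sqrt_pos.2 hz
    have hs2 : s ^ 2 = nsq B x := Real.sq_sqrt hz.le
    let y : G → ℝ := fun g => if g ∈ B then s⁻¹ * x g else 0
    have hy : ∀ g ∈ B, y g = s⁻¹ * x g := fun g hg => if_pos hg
    have hyC : y ∈ C := by
      refine ⟨fun g hg u hu => ?_, fun g hg => if_neg hg, ?_⟩
      · rw [hy g hg, hy _ (B.mul_mem hg (h0 (h1 hu))), hx g hg u hu]
      · rw [nsq_congr hy, nsq_smul, ← hs2]; field_simp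
    have e : φ y = s⁻¹ ^ 2 * nsq B (fun g => av A2 x g - av A0 x g) := by
      rw [← nsq_smul]
      refine nsq_congr fun g hg => ?_
      rw [av_congr (h2.trans h0) hy hg, av_congr h0 hy hg, av_smul, av_smul]; ring
    have := hm y hyC
    rw [e, inv_pow, hs2, inv_mul_le_iff₀ hz] at this
    linarith

lemma real_ineq {X Y A A' P Q L l : ℝ} (hX : 0 ≤ X) (hY : 0 ≤ Y) (hA : 0 ≤ A) (hA' : 0 ≤ A')
    (hL : 0 ≤ L) (hl0 : 0 ≤ l) (hl : l ≤ 1)
    (h1 : X ^ 2 = A ^ 2 + P ^ 2) (h2 : Y ^ 2 = A' ^ 2 + Q ^ 2) (h3 : A ≤ L * X) (h4 : A' ≤ L * Y) :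
    A * A' + l * (P * Q) ≤ ((1 - l) * L ^ 2 + l) * (X * Y) := by
  have c1 : A * A' + P * Q ≤ X * Y := by
    refine (abs_le_of_sq_le_sq' ?_ (mul_nonneg hX hY)).2
    rw [mul_pow, h1, h2]
    nlinarith [sq_nonneg (A * Q - P * A')]
  have c2 : A * A' ≤ L ^ 2 * (X * Y) := by
    have := mul_le_mul h3 h4 hA' (mul_nonneg hL hX)
    nlinarith
  nlinarith [mul_le_mul_of_nonneg_left c1 hl0, mul_le_mul_of_nonneg_left c2 (sub_nonneg.2 hl)]

lemma sqrt_le_of {u v r : ℝ} (hr : 0 ≤ r) (h : u ≤ r ^ 2 * v) : √u ≤ r * √v := by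
  have := Real.sqrt_le_sqrt h
  rwa [Real.sqrt_mul (sq_nonneg r), Real.sqrt_sq hr] at this

/-- one improvement of the bound -/
lemma improve {K : ι → Subgroup G} {B : Subgroup G} {L l : ℝ} {T : Finset ι} {a b c : ι}
    (hL : 0 ≤ L) (hl0 : 0 ≤ l) (hl : l ≤ 1) (h1 : Sw K B L T a c) (h2 : Sw K B L T b c)
    (h3 : Sw K B l (insert c T) a b) : Sw K B ((1 - l) * L ^ 2 + l) T a b := by
  intro x hx
  have lB : ∀ S : Finset ι, B ⊓ KT K S ≤ B := fun S => inf_le_left
  have sT : ∀ e : ι, B ⊓ KT K (insert e T) ≤ B ⊓ KT K T :=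
    fun e => bt_anti K B (Finset.subset_insert e T)
  have sc : ∀ e : ι, B ⊓ KT K (insert e (insert c T)) ≤ B ⊓ KT K (insert c T) :=
    fun e => bt_anti K B (Finset.subset_insert _ _)
  have se : ∀ e : ι, B ⊓ KT K (insert e (insert c T)) ≤ B ⊓ KT K (insert e T) :=
    fun e => bt_anti K B (Finset.insert_subset_insert _ (Finset.subset_insert _ _))
  set A0 := B ⊓ KT K T
  set Aa := B ⊓ KT K (insert a T)
  set Ab := B ⊓ KT K (insert b T)
  set Ac := B ⊓ KT K (insert c T)
  set x' : G → ℝ := fun g => x g - av A0 x g with hx'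
  set y : G → ℝ := fun g => av Ab x g - av A0 x g with hy
  have ix' : RI B Aa x' := RI.sub hx ((av_inv B A0 x).mono (sT a))
  have iy : RI B Ab y := RI.sub (av_inv B Ab x) ((av_inv B A0 x).mono (sT b))
  have zx' : ∀ g ∈ B, av A0 x' g = 0 := fun g hg => av_res B A0 x hg
  have zy : ∀ g ∈ B, av A0 y g = 0 := fun g hg => by
    rw [hy, av_sub, av_av (sT b), av_fix (av_inv B A0 x) hg, sub_self]
  have ey : ∀ g ∈ B, av Ab x' g = y g := fun g hg => by
    rw [hx', av_sub, av_fix ((av_inv B A0 x).mono (sT b)) hg]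
  have e1 : nsq B y = ip B x' y := by
    rw [← ip_self, ip_congr (fun g hg => (ey g hg).symm) (fun _ _ => rfl), adj (lB _)]
    exact ip_congr (fun _ _ => rfl) fun g hg => av_fix iy hg
  set p : G → ℝ := fun g => x' g - av Ac x' g with hp
  set q : G → ℝ := fun g => y g - av Ac y g with hq
  have ip' : RI B (B ⊓ KT K (insert a (insert c T))) p :=
    RI.sub (ix'.mono (se a)) ((av_inv B Ac x').mono (sc a))
  have iq : RI B (B ⊓ KT K (insert b (insert c T))) q :=
    RI.sub (iy.mono (se b)) ((av_inv B Ac y).mono (sc b))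
  have e2 : ip B p q ≤ l * (√(nsq B p) * √(nsq B q)) := by
    have : ip B p q =
        ip B (fun g => av (B ⊓ KT K (insert b (insert c T))) p g - av Ac p g) q := by
      rw [ip_congr (x := fun g => av (B ⊓ KT K (insert b (insert c T))) p g - av Ac p g)
        (x' := av (B ⊓ KT K (insert b (insert c T))) p) (y' := q)
        (fun g hg => by rw [hp, av_res B Ac x' hg, sub_zero]) (fun _ _ => rfl), adj (lB _)]
      exact ip_congr (fun _ _ => rfl) fun g hg => (av_fix iq hg).symm
    rw [this, ← mul_assoc]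
    exact (ip_le _ _ _).trans
      (mul_le_mul_of_nonneg_right (sqrt_le_of hl0 (h3 p ip')) (Real.sqrt_nonneg _))
  have e3 : √(nsq B (av Ac x')) ≤ L * √(nsq B x') := by
    refine sqrt_le_of hL (le_of_eq_of_le (nsq_congr fun g hg => ?_) (h1 x' ix'))
    rw [zx' g hg, sub_zero]
  have e4 : √(nsq B (av Ac y)) ≤ L * √(nsq B y) := by
    refine sqrt_le_of hL (le_of_eq_of_le (nsq_congr fun g hg => ?_) (h2 y iy))
    rw [zy g hg, sub_zero]
  have sq' : ∀ z : G → ℝ, √(nsq B z) ^ 2 = nsq B z := fun z => Real.sq_sqrt (nsq_nonneg B z)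
  have e5 := real_ineq (X := √(nsq B x')) (Y := √(nsq B y)) (P := √(nsq B p)) (Q := √(nsq B q))
    (Real.sqrt_nonneg _) (Real.sqrt_nonneg _) (Real.sqrt_nonneg _) (Real.sqrt_nonneg _) hL hl0 hl
    (by rw [sq', sq', sq']; exact nsq_dec (lB _) x') (by rw [sq', sq', sq']; exact nsq_dec (lB _) y)
    e3 e4
  have e6 : ip B x' y = ip B (av Ac x') (av Ac y) + ip B p q := ip_dec (lB _) x' y
  have e7 := ip_le B (av Ac x') (av Ac y)
  have e8 : nsq B x' ≤ nsq B x := by
    have := nsq_dec (lB T) x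
    have := nsq_nonneg B (av A0 x)
    linarith
  set μ := (1 - l) * L ^ 2 + l with hμ
  have hμ0 : 0 ≤ μ := add_nonneg (mul_nonneg (sub_nonneg.2 hl) (sq_nonneg _)) hl0
  have e9 : √(nsq B y) * √(nsq B y) ≤ μ * √(nsq B x') * √(nsq B y) := by
    rw [← sq, sq', mul_assoc]; linarith
  rcases (Real.sqrt_nonneg (nsq B y)).eq_or_lt with hz | hz
  · rw [← sq' y, ← hz, zero_pow two_ne_zero]
    exact mul_nonneg (sq_nonneg _) (nsq_nonneg _ _)
  · have e10 := pow_le_pow_left₀ hz.le (le_of_mul_le_mul_right e9 hz) 2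
    rw [mul_pow, sq', sq'] at e10
    exact e10.trans (mul_le_mul_of_nonneg_left e8 (sq_nonneg _))

/-- one step of trickling down -/
lemma step [Fintype ι] {K : ι → Subgroup G} {B : Subgroup G} {R : ℕ} (hL : LinkCone K B R)
    (hA : Acyc (ZMod 2) K B univ 1) {T : Finset ι} (hT : T.card + 2 < Fintype.card ι)
    {l : ℝ} (hl0 : 0 ≤ l) (hl : l < 1)
    (ih : ∀ c ∉ T, ∀ a b, a ∉ insert c T → b ∉ insert c T → a ≠ b → Sw K B l (insert c T) a b)
    {a b : ι} (ha : a ∉ T) (hb : b ∉ T) (hab : a ≠ b) : Sw K B (l / (1 - l)) T a b := by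
  let S : Set ℝ := {r | 0 ≤ r ∧ ∀ a b, a ∉ T → b ∉ T → a ≠ b → Sw K B r T a b}
  have hcl : IsClosed S := by
    refine IsClosed.inter (isClosed_le continuous_const continuous_id) ?_
    show IsClosed {r : ℝ | ∀ a b, a ∉ T → b ∉ T → a ≠ b → Sw K B r T a b}
    simp only [Sw, Set.ofPred_forall]
    refine isClosed_iInter fun a => isClosed_iInter fun b => isClosed_iInter fun _ =>
      isClosed_iInter fun _ => isClosed_iInter fun _ => isClosed_iInter fun x =>
      isClosed_iInter fun _ => isClosed_le continuous_const ?_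
    exact (continuous_id.pow 2).mul continuous_const
  have hex : ∀ e : ι × ι, ∃ r : ℝ, 0 ≤ r ∧ r < 1 ∧
      (e.1 ∉ T → e.2 ∉ T → e.1 ≠ e.2 → Sw K B r T e.1 e.2) := by
    intro e
    by_cases h : e.1 ∉ T ∧ e.2 ∉ T ∧ e.1 ≠ e.2
    · obtain ⟨r, h0, h1, h2⟩ := gap (B := B) (A0 := B ⊓ KT K T) inf_le_left
        (bt_anti K B (Finset.subset_insert e.1 T)) (bt_anti K B (Finset.subset_insert e.2 T))
        fun x hx hx' => conn hL hA h.1 h.2.1 h.2.2 hx hx'
      exact ⟨r, h0, h1, fun _ _ _ => h2⟩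
    · exact ⟨0, le_rfl, one_pos, fun h1 h2 h3 => absurd ⟨h1, h2, h3⟩ h⟩
  choose f hf0 hf1 hf2 using hex
  obtain ⟨e, -, he⟩ := Finset.exists_max_image univ f ⟨(a, b), Finset.mem_univ _⟩
  have hS : f e ∈ S := ⟨hf0 e, fun a b h1 h2 h3 =>
    sw_mono (hf2 (a, b) h1 h2 h3) (hf0 _) (he _ (Finset.mem_univ _))⟩
  have hbd : BddBelow S := ⟨0, fun r hr => hr.1⟩
  have hm := hcl.csInf_mem ⟨_, hS⟩ hbd
  have hm1 : sInf S < 1 := (csInf_le hbd hS).trans_lt (hf1 e)
  set L := sInf S with hLdef
  have hμ : (1 - l) * L ^ 2 + l ∈ S := by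
    refine ⟨add_nonneg (mul_nonneg (sub_nonneg.2 hl.le) (sq_nonneg _)) hl0,
      fun a b ha hb hab => ?_⟩
    have : (insert a (insert b T)).card < (univ : Finset ι).card := by
      have h1 := Finset.card_insert_le a (insert b T)
      have h2 := Finset.card_insert_le b T
      rw [Finset.card_univ]; omega
    obtain ⟨c, -, hc⟩ := Finset.exists_mem_notMem_of_card_lt_card this
    simp only [Finset.mem_insert, not_or] at hc
    exact improve hm.1 hl0 hl.le (hm.2 a c ha hc.2.2 (Ne.symm hc.1))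
      (hm.2 b c hb hc.2.2 (Ne.symm hc.2.1))
      (ih c hc.2.2 a b (by simp [ha, Ne.symm hc.1]) (by simp [hb, Ne.symm hc.2.1]) hab)
  have h1 : L ≤ (1 - l) * L ^ 2 + l := csInf_le hbd hμ
  refine sw_mono (hm.2 a b ha hb hab) hm.1 ?_
  rw [le_div_iff₀ (sub_pos.2 hl)]
  have h2 : (1 - L) * (L * (1 - l)) ≤ (1 - L) * l := by nlinarith
  exact le_of_mul_le_mul_left h2 (sub_pos.2 hm1)

end Tk

theorem trickle : TrStmt := by
  intro N lam hlam
  have hpos : 0 < 1 / lam := one_div_pos.2 hlam
  refine ⟨1 / ((N : ℝ) + 1 + 1 / lam), by positivity, ?_⟩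
  intro G ι _ _ _ _ K B R hN _ hL hA h0
  have key : ∀ j : ℕ, ∀ T : Finset ι, T.card + 2 + j = N → ∀ a b, a ∉ T → b ∉ T → a ≠ b →
      Sw K B (1 / ((N : ℝ) + 1 + 1 / lam - j)) T a b := by
    intro j
    induction j with
    | zero =>
      intro T hT a b ha hb hab
      simpa using h0 T a b ha hb hab (by simpa using hT)
    | succ j ih =>
      intro T hT a b ha hb hab
      have hj : (j : ℝ) + 1 ≤ N := by exact_mod_cast (by omega : j + 1 ≤ N)
      have hD : 1 < (N : ℝ) + 1 + 1 / lam - j := by linarith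
      have := Tk.step hL hA (T := T) (by omega) (l := 1 / ((N : ℝ) + 1 + 1 / lam - j))
        (by positivity) (by rw [div_lt_one (by linarith)]; exact hD)
        (fun c hc a b ha hb hab => ih _ (by rw [Finset.card_insert_of_notMem hc]; omega)
          a b ha hb hab) ha hb hab
      have e : 1 / ((N : ℝ) + 1 + 1 / lam - j) / (1 - 1 / ((N : ℝ) + 1 + 1 / lam - j)) =
          1 / ((N : ℝ) + 1 + 1 / lam - (j + 1 : ℕ)) := by
        generalize 1 / lam = s at hD
        have h1 : (N : ℝ) + 1 + s - j ≠ 0 := by linarith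
        have h2 : (N : ℝ) + 1 + s - j - 1 ≠ 0 := by linarith
        have h3 : (N : ℝ) + 1 + s - ((j + 1 : ℕ) : ℝ) = (N : ℝ) + 1 + s - j - 1 := by
          push_cast; ring
        rw [h3, one_sub_div h1, div_div_div_cancel_right₀ h1]
      rwa [e] at this
  intro T a b ha hb hab
  have hc : T.card + 2 ≤ N := by
    have h1 : (insert a (insert b T)).card = T.card + 2 := by
      rw [Finset.card_insert_of_notMem (by simp [ha, hab]), Finset.card_insert_of_notMem hb]
    rw [← h1, ← hN]
    exact Finset.card_le_univ _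
  obtain ⟨j, hj⟩ := Nat.exists_eq_add_of_le hc
  have hj' : (j : ℝ) ≤ N := by exact_mod_cast (by omega : j ≤ N)
  refine Tk.sw_mono (key j T hj.symm a b ha hb hab) (one_div_nonneg.2 (by linarith)) ?_
  rw [div_le_iff₀ (by linarith)]
  have : lam * (1 / lam) = 1 := by field_simp
  nlinarith

end Vale.Agent.P067
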