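import Vale.Agent.P067.Van1

/-! P067, module V, part 2: the vanishing theorem. -/

set_option linter.unusedSectionVars false

namespace Vale.Agent.P067
open Finset

namespace Va

variable {k : Type} [Field k] [CharP k 2] {p h N : ℕ} [Fact p.Prime] [NeZero N] {I : Type}
  [Fintype I] [DecidableEq I] {β β' : I → ZMod N} {J : Finset I} {d d' : I} {t : ℕ}
  {f : Finset (ZMod N) → Gp p h I → k}

variable (k p h β) in
/-- the conclusion of module B -/
def BB : Prop :=
  ∀ (J C : Finset I) (c : ZMod N), (∀ c', ∃ j ∈ J, β j = c') → Disjoint C J → (∀ d ∈ C, β d = c) →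
    ∀ t, t + 1 ≤ N → ∀ f : Finset (ZMod N) → Gp p h I → k,
      Inv (Kg p h β) (Pg p h β (J ∪ C) J) (Pg p h β (J ∪ C) J) f →
      Coc (Pg p h β (J ∪ C) J) univ t f →
      (∀ u ∈ Pg p h β C J,
        Cob (Kg p h β) (Pg p h β (J ∪ C) J) univ t fun T g => f T (u * g) + f T g) ∧
      (Cob (Kg p h β) (Pg p h β J J) univ t f → Cob (Kg p h β) (Pg p h β (J ∪ C) J) univ t f)

theorem BB.one (hB : BB k p h β) (hd : d ∈ J) (hJ : ∀ c, ∃ j ∈ J.erase d, β j = c) (ht : t + 1 ≤ N)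
    (hf : Cy (Kg p h β) (Pg p h β J J) t f) :
    (∀ u ∈ Pg p h β {d} (J.erase d),
      Cob (Kg p h β) (Pg p h β J (J.erase d)) univ t fun T g => f T (u * g) + f T g) ∧
    (Cob (Kg p h β) (Pg p h β (J.erase d) J) univ t f →
      Cob (Kg p h β) (Pg p h β J (J.erase d)) univ t f) := by
  have e : J.erase d ∪ {d} = J := by rw [union_comm, ← insert_eq, insert_erase hd]
  have := hB (J.erase d) {d} (β d) hJ (by simp) (by simp) t ht f
  rw [e] at this
  have c := (mor_le (Pg_mono Subset.rfl (erase_subset d J))).cy hf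
  exact ⟨(this c.1 c.2).1, fun hc =>
    (this c.1 c.2).2 ((mor_le (Pg_mono Subset.rfl (erase_subset d J))).cob hc)⟩

theorem imp2 (hβ : ∀ i, β' i = -β i) (hB : BB k p h β') (hd : d ∈ J)
    (hJ : ∀ c, ∃ j ∈ J.erase d, β j = c) (ht : t + 1 ≤ N) (hf : Cy (Kg p h β) (Pg p h β J J) t f)
    (hc : Cob (Kg p h β) (Pg p h β J (J.erase d)) univ t f) :
    Cob (Kg p h β) (Pg p h β (J.erase d) J) univ t f := by
  have hβ' : ∀ i, β i = -β' i := fun i => by rw [hβ, neg_neg]
  have := (mor_tp hβ (J.erase d) J).cob (rel_cob _ ((hB.one hd (fun c => by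
    obtain ⟨j, h1, h2⟩ := hJ (-c)
    exact ⟨j, h1, by rw [hβ, h2, neg_neg]⟩) ht ((mor_tp hβ' J J).cy (rel_cy _ hf))).2
      ((mor_tp hβ' _ _).cob (rel_cob _ hc))))
  have e : ∀ g : Gp p h I, tp (tp g⁻¹)⁻¹ = g := fun g => by
    rw [tp_inv, inv_inv]
    rfl
  have e' : ∀ T : Finset (ZMod N), (T.map (Equiv.subLeft 1).toEmbedding).map
      (Equiv.subLeft 1).toEmbedding = T := fun T => by
    ext x
    simp
  simpa only [e, e'] using this

theorem imp3 (hβ : ∀ i, β' i = -β i) (hB : BB k p h β) (hB' : BB k p h β') (hd : d ∈ J)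
    (hd' : d' ∈ J) (e : β d = β d') (hJ : ∀ d c, ∃ j ∈ J.erase d, β j = c) (ht : t + 1 ≤ N)
    (hf : Cy (Kg p h β) (Pg p h β J J) t f)
    (hc : Cob (Kg p h β) (Pg p h β J (J.erase d)) univ t f) :
    Cob (Kg p h β) (Pg p h β J (J.erase d')) univ t f := by
  by_cases hne : d = d'
  · exact hne ▸ hc
  have i1 : ∀ {a b : I}, a ≠ b → ∀ c c' : ZMod p, c + c' = 0 →
      Matrix.transvection a b c * Matrix.transvection a b c' = 1 := fun h c c' h' => by
    rw [Matrix.transvection_mul_transvection_same _ _ h, h', Matrix.transvection_zero]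
  have a1 := i1 hne 1 (-1) (add_neg_cancel _)
  have a2 := i1 hne (-1) 1 (neg_add_cancel _)
  have a3 := i1 (Ne.symm hne) 1 (-1) (add_neg_cancel _)
  have a4 := i1 (Ne.symm hne) (-1) 1 (neg_add_cancel _)
  have a5 : Matrix.transvection d' d (1 : ZMod p) * Matrix.transvection d d' (-1) *
      (Matrix.transvection d d' 1 * Matrix.transvection d' d (-1)) = 1 := by
    rw [mul_assoc, ← mul_assoc (Matrix.transvection d d' (-1)), a2, one_mul, a3]
  have j1 : ∀ c : ZMod p, Bd (· ∈ J) (Matrix.transvection d d' c) := bd_tv (by simp [hd, hd'])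
  have j2 : ∀ c : ZMod p, Bd (· ∈ J) (Matrix.transvection d' d c) := bd_tv (by simp [hd, hd'])
  have r : ∀ {m : Matrix I I (ZMod p)}, Bd (· ∈ J) m → ∀ i l, m i l ≠ 0 → l ∈ J → i ∈ J :=
    fun b i l h0 => (b i l h0).ge
  have c : ∀ {m : Matrix I I (ZMod p)}, Bd (· ∈ J) m → ∀ i l, m i l ≠ 0 → i ∈ J → l ∈ J :=
    fun b i l h0 => (b i l h0).le
  have c' : ∀ (a b : I) (x : ZMod p) (l j : I), Matrix.transvection a b x l j ≠ 0 →
      l ∈ J.erase a → j ∈ J.erase a := fun a b x l j h0 hl => by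
    rcases tv_ne h0 with rfl | ⟨rfl, -⟩
    exacts [hl, absurd hl (notMem_erase _ _)]
  have f1 := (mor_cj a1 (bd_tv e _) (bd_tv e _) (r (j1 _)) (c (j1 _))).cy hf
  have f2 := (mor_cj a5 ((bd_tv e _).mul (bd_tv e.symm _)) ((bd_tv e.symm _).mul (bd_tv e _))
    (r ((j1 _).mul (j2 _))) (c ((j2 _).mul (j1 _)))).cy f1
  have := (mor_cj a4 (bd_tv e.symm _) (bd_tv e.symm _) (r (j2 _)) (c' _ _ _)).cob
    ((hB.one hd' (hJ d') ht f2).2 ((mor_cj a5 ((bd_tv e _).mul (bd_tv e.symm _))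
      ((bd_tv e.symm _).mul (bd_tv e _)) (fun i l h0 hl => mem_erase.2 ⟨by
        rintro rfl
        refine h0 ?_
        rw [Matrix.transvection_mul_apply_same]
        by_cases h1 : i = l <;> simp [Matrix.transvection, h1,
          Ne.symm hne, (ne_of_mem_erase hl).symm], r ((j1 _).mul (j2 _)) i l h0 (mem_of_mem_erase hl)⟩)
      (c ((j2 _).mul (j1 _)))).cob (imp2 hβ hB' hd (hJ d) ht f1
        ((mor_cj a1 (bd_tv e _) (bd_tv e _) (r (j1 _)) (c' _ _ _)).cob hc))))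
  have e0 : ∀ g : Gp p h I, cj a1 (cj a5 (cj a4 g)) = g := fun g => Subtype.ext (by
    change cs h _ * (cs h _ * (cs h _ * g.1 * cs h _) * cs h _) * cs h _ = g.1
    simp only [← mul_assoc, ← cs_mul]
    simp only [mul_assoc, ← cs_mul]
    rw [a4, mul_one, a2, ← mul_assoc (Matrix.transvection d' d (-1)), a4, one_mul]
    simp [cs])
  simpa only [e0] using this

theorem gen' (hG : GenStmt) (hN : 2 ≤ N) (hJ : ∀ c, ∃ j ∈ J, β j = c) {S : Set (Gp p h I)}
    (h1 : 1 ∈ S) (hm : ∀ a ∈ S, ∀ b ∈ S, a * b ∈ S)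
    (h2 : ∀ i ∈ J, ∀ j ∈ J, i ≠ j → ∀ g ∈ Pg p h β {i} {j}, g ∈ S) :
    ∀ g ∈ Pg p h β J J, g ∈ S := fun g hg => (mem_closure_mul h1 hm).1
  (hG p h N I β J (fun d _ => by
    have : Fact (1 < N) := ⟨hN⟩
    obtain ⟨j, j1, j2⟩ := hJ (β d + 1)
    exact ⟨j, j1, by simp [j2]⟩) _
    (fun i hi j hj hne g hg => Subgroup.subset_closure (h2 i hi j hj hne g hg)) hg)

theorem imp4 (hG : GenStmt) (hN : 2 ≤ N) (hβ : ∀ i, β' i = -β i) (hB : BB k p h β)
    (hB' : BB k p h β') (hd : d ∈ J) (hJ : ∀ c, ∃ j ∈ J.erase d, β j = c) (ht : t + 1 ≤ N)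
    (hf : Cy (Kg p h β) (Pg p h β J J) t f)
    (hc : Cob (Kg p h β) (Pg p h β J (J.erase d)) univ t f) {g : Gp p h I}
    (hg : g ∈ Pg p h β J J) :
    Cob (Kg p h β) (Pg p h β J (J.erase d)) univ t fun T x => f T (g * x) := by
  refine (gen' hG hN (fun c => (hJ c).imp fun j h => ⟨mem_of_mem_erase h.1, h.2⟩)
    (S := {g | g ∈ Pg p h β J J ∧ ∀ f : Finset (ZMod N) → Gp p h I → k,
      Cy (Kg p h β) (Pg p h β J J) t f → Cob (Kg p h β) (Pg p h β J (J.erase d)) univ t f →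
        Cob (Kg p h β) (Pg p h β J (J.erase d)) univ t fun T x => f T (g * x)})
    ⟨one_mem _, fun f _ hc => by simpa only [one_mul] using hc⟩
    (fun a ha b hb => ⟨mul_mem ha.1 hb.1, fun f hf hc => by
      simpa only [mul_assoc] using hb.2 _ ((mor_mul ha.1).cy hf) (ha.2 f hf hc)⟩)
    (fun i hi j hj hne g hg => ?_) g hg).2 f hf hc
  have h0 := Pg_mono (singleton_subset_iff.2 hi) (singleton_subset_iff.2 hj) hg
  refine ⟨h0, fun f hf hc => ?_⟩
  by_cases e : j = d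
  · exact (hB.one hd hJ ht ((mor_mul h0).cy hf)).2 ((mor_mul (Pg_mono (singleton_subset_iff.2
      (mem_erase.2 ⟨e ▸ hne, hi⟩)) (singleton_subset_iff.2 hj) hg)).cob
        (imp2 hβ hB' hd hJ ht hf hc))
  · exact (mor_mul (Pg_mono (singleton_subset_iff.2 hi)
      (singleton_subset_iff.2 (mem_erase.2 ⟨e, hj⟩)) hg)).cob hc

variable (β) in
/-- all blocks are large -/
def Big (J : Finset I) (m : ℕ) : Prop := ∀ c, m ≤ (J.filter fun j => β j = c).card

theorem Big.sd {m m' : ℕ} (hJ : Big β J m) {D : Finset I} (hm : m' + D.card ≤ m) :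
    Big β (J \ D) m' := fun c => by
  have e : ((J \ D).filter fun j => β j = c) = (J.filter fun j => β j = c) \ D := by
    ext x
    simp only [mem_filter, mem_sdiff]
    tauto
  have := le_card_sdiff D (J.filter fun j => β j = c)
  have := hJ c
  rw [e]
  omega

theorem Big.ex (hJ : Big β J 1) (c : ZMod N) : ∃ j ∈ J, β j = c :=
  let ⟨j, hj⟩ := card_pos.1 (hJ c)
  ⟨j, mem_filter.1 hj⟩

theorem inf_KT (D : Finset I) :
    Pg p h β J J ⊓ KT (fun d => Pg p h β univ (univ.erase d)) D = Pg p h β J (J \ D) := by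
  ext g
  rw [Subgroup.mem_inf, mem_KT]
  refine ⟨fun hg => mem_Pg.2 fun i j => ⟨(mem_Pg.1 hg.1 i j).1, fun h0 => ?_⟩, fun hg =>
    ⟨Pg_mono Subset.rfl sdiff_subset hg, fun d hd => Pg_mono (subset_univ _) (fun j hj => ?_) hg⟩⟩
  · have := (mem_Pg.1 hg.1 i j).2 h0
    exact ⟨this.1, mem_sdiff.2 ⟨this.2, fun hj =>
      notMem_erase _ _ ((mem_Pg.1 (hg.2 j hj) i j).2 h0).2⟩⟩
  · exact mem_erase.2 ⟨fun e => (mem_sdiff.1 hj).2 (e ▸ hd), mem_univ _⟩

theorem main (hJo : JoinStmt) (hZ : ZigStmt) (hG : GenStmt) (hN : 2 ≤ N) (hp : 3 ≤ p)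
    (hβ : ∀ i, β' i = -β i) (hB : BB k p h β) (hB' : BB k p h β') (t : ℕ) :
    t + 1 ≤ N → ∀ J, Big β J ((t + 1) * N + 1) → Acyc k (Kg p h β) (Pg p h β J J) univ t := by
  induction t using Nat.strong_induction_on with
  | _ t ih =>
  intro ht J hJ f f1 f2
  have h2 : ∀ x : k, x + x = 0 := CharTwo.add_self_eq_zero
  have hm : (t + 1) * N = t * N + N := by ring
  have hJ1 : ∀ d c, ∃ j ∈ J.erase d, β j = c := fun d => by
    rw [erase_eq]
    exact (hJ.sd (by rw [card_singleton]; omega)).ex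
  have imp5 : ∀ d ∈ J, ∀ f : Finset (ZMod N) → Gp p h I → k, Cy (Kg p h β) (Pg p h β J J) t f →
      Cob (Kg p h β) (Pg p h β J (J.erase d)) univ t f →
      Cob (Kg p h β) (Pg p h β J J) univ t f := by
    intro d hd f hf hc
    obtain ⟨D, D1, D2⟩ := exists_subset_card_eq ((show t + 1 ≤ _ by omega).trans (hJ (β d)))
    have D3 : D ⊆ J := D1.trans (filter_subset _ _)
    have D4 : ∀ d' ∈ D, β d' = β d := fun d' h => (mem_filter.1 (D1 h)).2
    obtain ⟨j0, j1, -⟩ := (hJ.sd (D := D) (by omega)).ex 0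
    rw [mem_sdiff] at j1
    refine hZ _ _ _ k h2 _ (fun d => Pg p h β univ (univ.erase d)) _ D t (fun T r hr => hJo _ _ k h2
      _ _ D (fun d1 h1 g hg => ?_) r (by omega)) (fun D' a1 _ s hs F F1 F2 => ?_) f hf.1 hf.2
      fun d1 h1 g hg => ?_
    · obtain ⟨y, y1, y2, y3⟩ := col_fix (D3 h1) j1.1 (fun e => j1.2 (e ▸ h1)) hg
      exact ⟨y, y1, fun d' a b => y2 d' (fun e => j1.2 (e ▸ a)) b, y3⟩
    · have c1 := card_le_card a1
      have c2 : (s + 1) * N ≤ t * N := Nat.mul_le_mul_right _ hs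
      have b := hJ.sd (D := D') (m' := (s + 1) * N + 1) (by omega)
      have := hB (J \ D') D' (β d) (hJ.sd (by omega)).ex disjoint_sdiff
        (fun x hx => D4 x (a1 hx)) s (by omega) F
      rw [sdiff_union_of_subset (a1.trans D3)] at this
      rw [inf_KT] at F1 F2 ⊢
      have c := (mor_le (Pg_mono (sdiff_subset (t := D')) Subset.rfl)).cy (And.intro F1 F2)
      exact (this F1 F2).2 (ih s hs (by omega) _ b F c.1 c.2)
    · have e := inf_KT (p := p) (h := h) (β := β) (J := J) {d1}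
      rw [← erase_eq, KT] at e
      simp only [mem_singleton, iInf_iInf_eq_left] at e
      rw [e]
      exact imp3 hβ hB hB' hd (D3 h1) (D4 d1 h1).symm hJ1 ht ((mor_mul hg).cy hf)
        (imp4 hG hN hβ hB hB' hd (hJ1 d) ht hf hc hg)
  have hf : Cy (Kg p h β) (Pg p h β J J) t f := ⟨f1, f2⟩
  refine avg 0 h2 (odd_card hp J J) hf fun u hu => (gen' hG hN (Big.ex fun c => le_trans
    (by omega) (hJ c)) (S := {u | u ∈ Pg p h β J J ∧
      Cob (Kg p h β) (Pg p h β J J) univ t fun T g => f T (u * g) + f T g})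
    ⟨one_mem _, 0, fun _ _ _ _ _ _ => rfl, fun T _ _ g _ => by simp [h2, dl]⟩
    (fun a ha b hb => ⟨mul_mem ha.1 hb.1, ?_⟩) (fun i hi j hj hne g hg => ?_) u hu).2
  · obtain ⟨c, c1, c2⟩ := cob_add ((mor_mul hb.1).cob ha.2) hb.2
    refine ⟨c, c1, fun T hT ht g hg => Eq.trans ?_ (c2 T hT ht g hg)⟩
    change f T (a * b * g) + f T g = f T (a * (b * g)) + f T (b * g) + (f T (b * g) + f T g)
    rw [add_assoc, ← add_assoc (f T (b * g)), h2, zero_add, mul_assoc]
  · have h0 := Pg_mono (singleton_subset_iff.2 hi) (singleton_subset_iff.2 hj) hg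
    exact ⟨h0, imp5 i hi _ (((mor_mul h0).cy hf).add hf) ((hB.one hi (hJ1 i) ht hf).1 g
      (Pg_mono Subset.rfl (singleton_subset_iff.2 (mem_erase.2 ⟨hne.symm, hj⟩)) hg))⟩

end Va

open Va in
theorem van (hJ : JoinStmt) (hZ : ZigStmt) (hB : BStmt) (hG : GenStmt) : VanStmt := by
  intro N _ hN
  obtain ⟨p0, h0⟩ := hB (Fintype.card (ZMod N × Fin (N * N + 1)))
  refine ⟨N * N + 1, p0 + 3, by omega, fun p h _ hp hh t ht f f1 f2 => ?_⟩
  let k := AlgebraicClosure (ZMod 2)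
  have bb : ∀ β : ZMod N × Fin (N * N + 1) → ZMod N, BB k p h β := fun β J C c =>
    h0 k p h N _ β J C c (by omega) hh (card_le_univ _)
  obtain ⟨l, hl⟩ := (Algebra.linearMap (ZMod 2) k).exists_leftInverse_of_injective
    (LinearMap.ker_eq_bot.2 (algebraMap (ZMod 2) k).injective)
  obtain ⟨b, b1, b2⟩ := main hJ hZ hG hN (by omega) (fun _ => rfl) (bb Prod.fst) (bb _) t ht univ
    (fun c => by
      have e : (univ.filter fun j : ZMod N × Fin (N * N + 1) => j.1 = c) = {c} ×ˢ univ := by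
        ext x
        simp only [mem_filter, mem_product, mem_singleton, mem_univ, true_and, and_true]
      rw [e, card_product, card_singleton, card_univ, Fintype.card_fin, one_mul]
      exact Nat.succ_le_succ (Nat.mul_le_mul_right _ ht))
    (fun T g => algebraMap (ZMod 2) k (f T g))
    (fun T g hg u hu hT => congrArg _ (f1 T g hg u hu hT)) fun T hT ht g hg => by
      rw [dl, ← map_sum]
      exact (congrArg _ (f2 T hT ht g hg)).trans (map_zero _)
  refine ⟨fun T g => l (b T g), fun T g hg u hu hT => congrArg _ (b1 T g hg u hu hT),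
    fun T hT ht g hg => ?_⟩
  rw [dl, ← map_sum]
  exact (LinearMap.congr_fun hl (f T g)).symm.trans (congrArg l (b2 T hT ht g hg))

end Vale.Agent.P067
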