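import Vale.Agent.P067.Fill
import Vale.Agent.P067.DD
import Vale.Agent.P067.Trickle
import Vale.Agent.P067.End
import Vale.Agent.P067.Heis
import Vale.Agent.P067.Morse
import Vale.Agent.P067.Gen
import Vale.Agent.P067.Van
import Vale.Agent.P067.BStep

/-! P067: assembly. -/

namespace Vale.Agent.P067
open Finset

theorem card_Pg {p N : ℕ} [Fact p.Prime] [NeZero N] {I : Type} [Fintype I] [DecidableEq I]
    {β : I → ZMod N} {i j : I} (hij : i ≠ j) (hb : β i - β j = 1) (m : ℕ) :
    m ≤ Nat.card (Pg p (N * (m + 1) + 1) β univ univ) := by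
  let e : Fin m → Pg p (N * (m + 1) + 1) β univ univ := fun s =>
    ⟨⟨Matrix.transvection i j (pi p _ ^ (N * s + 1)), Matrix.det_transvection_of_ne i j hij _⟩,
      mem_Pg.2 fun a b => ⟨by
        simp only [Matrix.transvection, add_sub_cancel_left, Matrix.single_apply]
        split_ifs with c
        · obtain ⟨rfl, rfl⟩ := c
          exact pi_mem (by omega) (by simp [hb])
        · exact zero_mem _, fun _ => ⟨mem_univ _, mem_univ _⟩⟩⟩
  have he : Function.Injective e := by
    intro s s' h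
    have h1 := congrArg (fun g : Pg p (N * (m + 1) + 1) β univ univ =>
      co p _ (N * s + 1) (g.1.1 i j)) h
    have hs : N * s + 1 < N * (m + 1) + 1 := by
      have := s.2
      have := NeZero.pos N
      nlinarith
    simp only [e, Matrix.transvection, Matrix.add_apply, Matrix.one_apply_ne hij, zero_add,
      Matrix.single_apply_same, co_pi p hs, if_true] at h1
    by_contra hne
    rw [if_neg] at h1
    · exact one_ne_zero h1
    · intro c
      exact hne (Fin.ext (Nat.eq_of_mul_eq_mul_left (NeZero.pos N) (by omega)))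
  simpa using Nat.card_le_card_of_injective e he

theorem card_Kg {p h N : ℕ} [Fact p.Prime] [NeZero N] {I : Type} [Fintype I] [DecidableEq I]
    {β : I → ZMod N} (hN : N ≤ h) (B : Subgroup (Gp p h I)) (τ : ZMod N) :
    Nat.card (B ⊓ Kg p h β τ : Subgroup (Gp p h I)) ≤ Nat.card (Matrix I I (ZMod p)) := by
  haveI : Finite (Matrix I I (ZMod p)) := inferInstanceAs (Finite (I → I → ZMod p))
  exact Nat.card_le_card_of_injective (fun g : (B ⊓ Kg p h β τ : Subgroup (Gp p h I)) => cf β τ g.1)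
    fun g g' e => Subtype.ext (cf_inj hN g.2.2 g'.2.2 e)

theorem main (d : ℕ) (hd : 1 ≤ d) : Q1 d := by
  obtain ⟨b, p0, hb, hV⟩ := van join zig (bstep (link fill) morse) gen (d + 2) (by omega)
  obtain ⟨R, hR⟩ := link fill (Fintype.card (ZMod (d + 2) × Fin b))
  obtain ⟨lam, hlam, C, hD⟩ := dd (d + 2) R
  obtain ⟨del, hdel, hT⟩ := trickle (d + 2) lam hlam
  obtain ⟨p1, hH⟩ := heis (d + 2) b (by omega) hb del hdel
  obtain ⟨p, hp, hpp⟩ := Nat.exists_infinite_primes (p0 + R + p1)
  haveI : Fact p.Prime := ⟨hpp⟩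
  refine endStmt d hd (Nat.card (Matrix (ZMod (d + 2) × Fin b) (ZMod (d + 2) × Fin b) (ZMod p))) C
    fun m => ?_
  have hN : d + 2 ≤ (d + 2) * (m + 1) + 1 := by nlinarith
  letI := Fintype.ofFinite (Gp p ((d + 2) * (m + 1) + 1) (ZMod (d + 2) × Fin b))
  have hL := (hR p _ (d + 2) _ Prod.fst univ (by omega) hN le_rfl
    fun c => ⟨(c, ⟨0, hb⟩), mem_univ _, rfl⟩).1
  have hS := hT _ _ _ _ R (ZMod.card _) (by omega) hL (hV p _ (by omega) hN 1 (by omega))
    (hH p _ (by omega) hN)
  refine ⟨Gp p ((d + 2) * (m + 1) + 1) (ZMod (d + 2) × Fin b), ZMod (d + 2), inferInstance,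
    inferInstance, inferInstance, inferInstance, Kg p _ Prod.fst, Pg p _ Prod.fst univ univ,
    ZMod.card _, ?_, card_Kg hN _, fun t _ ht f hf => ?_⟩
  · haveI : Fact (1 < d + 2) := ⟨by omega⟩
    exact card_Pg (i := (1, ⟨0, hb⟩)) (j := (0, ⟨0, hb⟩)) (by simp) (by simp) m
  · obtain ⟨z, z1, z2, z3⟩ := hD _ _ _ _ (ZMod.card _) hL hS t (by omega) f hf
    obtain ⟨c, c1, c2⟩ := hV p _ (by omega) hN t (by omega) z z1 z2
    refine ⟨c, c1, le_of_eq_of_le ?_ z3⟩
    refine sum_congr rfl fun T hT => congrArg card ?_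
    ext g
    simp only [mem_filter, mem_univ, true_and]
    refine and_congr_right fun hg => ?_
    rw [Pi.add_apply, Pi.add_apply, Pi.add_apply, Pi.add_apply,
      c2 T (subset_univ _) (mem_powersetCard.1 hT).2 g hg]

end Vale.Agent.P067
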