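import Vale.Agent.P067.Defs

/-! P067: definitions and module statements. Proofs: notes/P067.md. -/

namespace Vale.Agent.P067
open Finset Module

section Abstract
variable {G ι k : Type} [Group G] [DecidableEq ι]

/-- stabiliser of the standard face of type `T` -/
def KT (K : ι → Subgroup G) (T : Finset ι) : Subgroup G := ⨅ τ ∈ T, K τ

/-- coboundary of a family of functions (characteristic two: no signs) -/
def dl [AddCommGroup k] (a : Finset ι → G → k) (T : Finset ι) (g : G) : k :=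
  ∑ τ ∈ T, a (T.erase τ) g

/-- `a T` is right invariant, on `B`, under `A ⊓ KT K T` -/
def Inv (K : ι → Subgroup G) (B A : Subgroup G) (a : Finset ι → G → k) : Prop :=
  ∀ T, ∀ g ∈ B, ∀ u ∈ A, u ∈ KT K T → a T (g * u) = a T g

/-- cocycle on faces with `t` vertices with types in `S` -/
def Coc [AddCommGroup k] (B : Subgroup G) (S : Finset ι) (t : ℕ) (a : Finset ι → G → k) : Prop :=
  ∀ T ⊆ S, T.card = t + 1 → ∀ g ∈ B, dl a T g = 0

/-- coboundary on faces with `t` vertices with types in `S` -/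
def Cob [AddCommGroup k] (K : ι → Subgroup G) (B : Subgroup G) (S : Finset ι) (t : ℕ)
    (a : Finset ι → G → k) : Prop :=
  ∃ b, Inv K B B b ∧ ∀ T ⊆ S, T.card = t → ∀ g ∈ B, a T g = dl b T g

/-- vanishing of the reduced cohomology of the coset complex of `B` in degree `t - 1` -/
def Acyc (k : Type) [AddCommGroup k] (K : ι → Subgroup G) (B : Subgroup G) (S : Finset ι)
    (t : ℕ) : Prop :=
  ∀ a : Finset ι → G → k, Inv K B B a → Coc B S t a → Cob K B S t a

/-- a cone of size `R` on the full subcomplex of `good` vertices of the coset complex of `B` -/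
def Cone (K : ι → Subgroup G) (B : Subgroup G) (S : Finset ι) (good : ι → G → Prop) (R : ℕ) :
    Prop :=
  ∃ c : Finset ι → G → Finset (Finset ι × G),
    (∀ T, ∀ g ∈ B, ∀ u ∈ B, u ∈ KT K T → c T (g * u) = c T g) ∧
    ∀ T ⊆ S, T.card + 1 ≤ S.card → ∀ g ∈ B, (∀ τ ∈ T, good τ g) →
      (c T g).card ≤ R ∧
      (∀ q ∈ c T g, q.1 ⊆ S ∧ q.1.card = T.card + 1 ∧ q.2 ∈ B ∧ ∀ τ ∈ q.1, good τ q.2) ∧
      ∀ (k : Type) [AddCommGroup k], (∀ x : k, x + x = 0) → ∀ a : Finset ι → G → k,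
        Inv K B B a →
        ∑ q ∈ c T g, dl a q.1 q.2 = a T g + ∑ τ ∈ T, ∑ q ∈ c (T.erase τ) g, a q.1 q.2

/-- all proper links (with any set of allowed types) have cones of size `R` -/
def LinkCone (K : ι → Subgroup G) (B : Subgroup G) (R : ℕ) : Prop :=
  ∀ T S : Finset ι, T.Nonempty → Disjoint T S → Cone K (B ⊓ KT K T) S (fun _ _ => True) R

variable [Fintype G]

open Classical in
/-- number of pairs (type, chamber) where `f` is nonzero, on faces with `t` vertices -/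
noncomputable def wt [Fintype ι] (B : Subgroup G) (t : ℕ) (f : Finset ι → G → ZMod 2) : ℕ :=
  ∑ T ∈ powersetCard t (univ : Finset ι), (univ.filter fun g => g ∈ B ∧ f T g ≠ 0).card

open Classical in
/-- right average over a subgroup -/
noncomputable def av (A : Subgroup G) (x : G → ℝ) (g : G) : ℝ :=
  (∑ u with u ∈ A, x (g * u)) / ((univ.filter fun u : G => u ∈ A).card : ℝ)

open Classical in
/-- squared norm on `B` -/
noncomputable def nsq (B : Subgroup G) (x : G → ℝ) : ℝ := ∑ g with g ∈ B, x g ^ 2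

/-- spectral expansion between the types `a` and `b` in the link of the face of type `T` -/
def Sw (K : ι → Subgroup G) (B : Subgroup G) (lam : ℝ) (T : Finset ι) (a b : ι) : Prop :=
  ∀ x : G → ℝ, (∀ g ∈ B, ∀ u ∈ B ⊓ KT K (insert a T), x (g * u) = x g) →
    nsq B (fun g => av (B ⊓ KT K (insert b T)) x g - av (B ⊓ KT K T) x g) ≤ lam ^ 2 * nsq B x

end Abstract

/-- module F: cones in the complexes of subspaces opposite to a full flag -/
def SFace {F V : Type} [Field F] [AddCommGroup V] [Module F V] (Fl : ℕ → Submodule F V)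
    (Y : Submodule F V) (σ : Finset (Submodule F V)) (S : Finset ℕ)
    (ρ : Finset (Submodule F V)) : Prop :=
  ∀ W ∈ ρ, W ⊓ Fl (finrank F W) = ⊥ ∧ ¬ Y ≤ W ∧ finrank F W ∈ S ∧
    (∀ W' ∈ ρ, W ≤ W' ∨ W' ≤ W) ∧ ∀ W' ∈ σ, W ≤ W' ∨ W' ≤ W

open Classical in
def FillStmt : Prop :=
  ∀ n : ℕ, ∃ R : ℕ, ∀ (F V : Type) [Field F] [Fintype F] [AddCommGroup V] [Module F V] [Finite V],
    R ≤ Fintype.card F → finrank F V = n → ∀ Fl : ℕ → Submodule F V, Antitone Fl →
    (∀ e ≤ n, finrank F (Fl e) + e = n) → ∀ Y : Submodule F V, Y ≠ ⊥ →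
    ∀ (σ : Finset (Submodule F V)) (S : Finset ℕ), SFace Fl Y ∅ (Ioo 0 n) σ → S ⊆ Ioo 0 n →
    (∀ W ∈ σ, finrank F W ∉ S) →
    ∃ c : Finset (Submodule F V) → Finset (Finset (Submodule F V)),
      ∀ ρ, SFace Fl Y σ S ρ → ρ.card + 1 ≤ S.card →
        (c ρ).card ≤ R ∧ (∀ ρ' ∈ c ρ, SFace Fl Y σ S ρ' ∧ ρ'.card = ρ.card + 1) ∧
        ∀ (k : Type) [AddCommGroup k], (∀ x : k, x + x = 0) →
          ∀ a : Finset (Submodule F V) → k,
            ∑ ρ' ∈ c ρ, ∑ W ∈ ρ', a (ρ'.erase W) = a ρ + ∑ W ∈ ρ, ∑ ρ' ∈ c (ρ.erase W), a ρ'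

/-- module D: local to global (cosystolic expansion) -/
def DDStmt : Prop :=
  ∀ N R : ℕ, ∃ lam : ℝ, 0 < lam ∧ ∃ C : ℕ, ∀ (G ι : Type) [Group G] [Fintype G] [Fintype ι]
    [DecidableEq ι] (K : ι → Subgroup G) (B : Subgroup G), Fintype.card ι = N → LinkCone K B R →
    (∀ T a b, a ∉ T → b ∉ T → a ≠ b → Sw K B lam T a b) → ∀ t, t + 2 ≤ N →
    ∀ f : Finset ι → G → ZMod 2, Inv K B B f →
      ∃ z, Inv K B B z ∧ Coc B univ t z ∧ wt B t (f + z) ≤ C * wt B (t + 1) (dl f)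

/-- module T: trickling down -/
def TrStmt : Prop :=
  ∀ (N : ℕ) (lam : ℝ), 0 < lam → ∃ del : ℝ, 0 < del ∧ ∀ (G ι : Type) [Group G] [Fintype G]
    [Fintype ι] [DecidableEq ι] (K : ι → Subgroup G) (B : Subgroup G) (R : ℕ),
    Fintype.card ι = N → 3 ≤ N → LinkCone K B R → Acyc (ZMod 2) K B univ 1 →
    (∀ T a b, a ∉ T → b ∉ T → a ≠ b → T.card + 2 = N → Sw K B del T a b) →
    ∀ T a b, a ∉ T → b ∉ T → a ≠ b → Sw K B lam T a b

/-- module Z, part 1: joins of nonempty sets -/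
def JoinStmt : Prop :=
  ∀ (G κ k : Type) [Group G] [DecidableEq κ] [AddCommGroup k], (∀ x : k, x + x = 0) →
    ∀ (L : κ → Subgroup G) (B : Subgroup G) (D : Finset κ),
    (∀ d ∈ D, ∀ g ∈ B, ∃ y ∈ B, (∀ d' ∈ D, d' ≠ d → y ∈ L d') ∧ g * y ∈ L d) →
    ∀ r, r + 1 ≤ D.card → Acyc k L B D r

/-- module Z, part 2: the stability zigzag -/
def ZigStmt : Prop :=
  ∀ (G ι κ k : Type) [Group G] [Fintype ι] [DecidableEq ι] [DecidableEq κ] [AddCommGroup k],
    (∀ x : k, x + x = 0) → ∀ (K : ι → Subgroup G) (L : κ → Subgroup G) (B : Subgroup G)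
    (D : Finset κ) (t : ℕ),
    (∀ (T : Finset ι) (r : ℕ), r ≤ t → Acyc k L (B ⊓ KT K T) D r) →
    (∀ D' ⊆ D, 2 ≤ D'.card → ∀ s < t, Acyc k K (B ⊓ KT L D') univ s) →
    ∀ f : Finset ι → G → k, Inv K B B f → Coc B univ t f →
      (∀ d ∈ D, ∀ g ∈ B, Cob K (B ⊓ L d) univ t fun T x => f T (g * x)) → Cob K B univ t f

/-- module E: from coset complexes to the statement of the problem -/
def EndStmt : Prop :=
  ∀ d : ℕ, 1 ≤ d → ∀ D0 C : ℕ,
    (∀ m : ℕ, ∃ (G ι : Type) (_ : Group G) (_ : Fintype G) (_ : Fintype ι) (_ : DecidableEq ι)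
      (K : ι → Subgroup G) (B : Subgroup G), Fintype.card ι = d + 2 ∧ m ≤ Nat.card B ∧
      (∀ τ, Nat.card (B ⊓ K τ : Subgroup G) ≤ D0) ∧
      ∀ t, 1 ≤ t → t ≤ d → ∀ f : Finset ι → G → ZMod 2, Inv K B B f →
        ∃ b, Inv K B B b ∧ wt B t (f + dl b) ≤ C * wt B (t + 1) (dl f)) →
    Q1 d

section Concrete

/-- truncated polynomial ring -/
abbrev Rg (p h : ℕ) : Type := AdjoinRoot ((Polynomial.X : Polynomial (ZMod p)) ^ h)

/-- the uniformiser -/
noncomputable def pi (p h : ℕ) : Rg p h := AdjoinRoot.root _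

/-- span of the positive powers of the uniformiser with exponent in a residue class -/
noncomputable def Ar (p h : ℕ) {N : ℕ} (a : ZMod N) : Submodule (ZMod p) (Rg p h) :=
  Submodule.span (ZMod p) {x | ∃ s : ℕ, 1 ≤ s ∧ (s : ZMod N) = a ∧ x = pi p h ^ s}

variable {I : Type} [Fintype I] [DecidableEq I] {N : ℕ}

/-- position of the block of `i` after the cut `τ` -/
def pos (β : I → ZMod N) (τ : ZMod N) (i : I) : ℕ := (β i - τ).val

/-- constant matrices placed along the paths that do not cross the cut `τ` -/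
noncomputable def em (p h : ℕ) (β : I → ZMod N) (τ : ZMod N) (a : Matrix I I (ZMod p)) :
    Matrix I I (Rg p h) :=
  Matrix.of fun i j => a i j • pi p h ^ (pos β τ i - pos β τ j)

/-- block unitriangular -/
def Uni {p : ℕ} (β : I → ZMod N) (τ : ZMod N) (a : Matrix I I (ZMod p)) : Prop :=
  ∀ i j, ¬ pos β τ j < pos β τ i → a i j = (1 : Matrix I I (ZMod p)) i j

/-- entries of `g - 1` are graded, and vanish outside the rows `r` and the columns `c` -/
def Pat (p h : ℕ) (β : I → ZMod N) (r c : Finset I) (m : Matrix I I (Rg p h)) : Prop :=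
  ∀ i j, m i j ∈ Ar p h (β i - β j) ∧ (m i j ≠ 0 → i ∈ r ∧ j ∈ c)

/-- the ambient finite group -/
abbrev Gp (p h : ℕ) (I : Type) [Fintype I] [DecidableEq I] : Type :=
  Matrix.SpecialLinearGroup I (Rg p h)

/-- the pattern groups -/
noncomputable def Pg (p h : ℕ) (β : I → ZMod N) (r c : Finset I) : Subgroup (Gp p h I) :=
  Subgroup.closure {g | Pat p h β r c (g.1 - 1)}

/-- the vertex stabilisers -/
noncomputable def Kg (p h : ℕ) (β : I → ZMod N) (τ : ZMod N) : Subgroup (Gp p h I) :=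
  Subgroup.closure {g | ∃ a, Uni β τ a ∧ g.1 = em p h β τ a}

end Concrete

/-- module H: the rank two estimate -/
def HeisStmt : Prop :=
  ∀ (N b : ℕ) [NeZero N], 3 ≤ N → 1 ≤ b → ∀ del : ℝ, 0 < del → ∃ p0 : ℕ, ∀ (p h : ℕ) [Fact p.Prime],
    p0 ≤ p → N ≤ h → ∀ [Fintype (Gp p h (ZMod N × Fin b))], ∀ (T : Finset (ZMod N)) (a a' : ZMod N),
    a ∉ T → a' ∉ T → a ≠ a' → T.card + 2 = N →
    Sw (Kg p h (Prod.fst : ZMod N × Fin b → ZMod N)) (Pg p h Prod.fst univ univ) del T a a'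

end Vale.Agent.P067
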