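import Vale.Agent.P067.Base

/-! P067: module statements, second part (vanishing theorem). Proofs: notes/P067.md. -/

namespace Vale.Agent.P067
open Finset

/-- module M: discrete Morse theory along a filtration by full subcomplexes -/
def MorseStmt : Prop :=
  ∀ (G ι k : Type) [Group G] [Fintype ι] [DecidableEq ι] [AddCommGroup k], (∀ x : k, x + x = 0) →
    ∀ (K : ι → Subgroup G) (B : Subgroup G) (gd : ℕ → ι → G → Prop) (ty : ℕ → ι) (R : ℕ),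
    (∀ L τ, ∀ g ∈ B, ∀ u ∈ B, u ∈ K τ → (gd L τ (g * u) ↔ gd L τ g)) →
    (∀ L τ, ∀ g ∈ B, gd L τ g → gd (L + 1) τ g) →
    (∀ L τ, ∀ g ∈ B, τ ≠ ty L → gd (L + 1) τ g → gd L τ g) →
    (∀ L, ∀ g ∈ B, gd (L + 1) (ty L) g → ¬ gd L (ty L) g →
      Cone K (B ⊓ K (ty L)) (univ.erase (ty L)) (fun τ u => gd L τ (g * u)) R) →
    ∀ t, t + 1 ≤ Fintype.card ι → ∀ a : Finset ι → G → k, Inv K B B a → Coc B univ t a →
    (∀ T, T.card = t → ∀ g ∈ B, (∀ τ ∈ T, gd 0 τ g) → a T g = 0) →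
    ∀ L, ∃ b, Inv K B B b ∧ (∀ T, ∀ g ∈ B, (∀ τ ∈ T, gd 0 τ g) → b T g = 0) ∧
      ∀ T, T.card = t → ∀ g ∈ B, (∀ τ ∈ T, gd L τ g) → a T g = dl b T g

/-- module G: generation by elementary matrices -/
def GenStmt : Prop :=
  ∀ (p h N : ℕ) [Fact p.Prime] [NeZero N] (I : Type) [Fintype I] [DecidableEq I] (β : I → ZMod N)
    (J : Finset I), (∀ d ∈ J, ∃ j ∈ J, β j ≠ β d) → ∀ E : Subgroup (Gp p h I),
    (∀ i ∈ J, ∀ j ∈ J, i ≠ j → Pg p h β {i} {j} ≤ E) → Pg p h β J J ≤ E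

/-- module L: cones in links -/
def LinkStmt : Prop :=
  ∀ n0 : ℕ, ∃ R : ℕ, ∀ (p h N : ℕ) [Fact p.Prime] [NeZero N] (I : Type) [Fintype I] [DecidableEq I]
    (β : I → ZMod N) (J : Finset I), R ≤ p → N ≤ h → J.card ≤ n0 → (∀ c, ∃ j ∈ J, β j = c) →
    LinkCone (Kg p h β) (Pg p h β J J) R ∧
    ∀ (τ : ZMod N) (Y : Set (I → ZMod p)), (∃ y ∈ Y, ∃ j ∈ J, y j ≠ 0) →
      Cone (Kg p h β) (Pg p h β J J ⊓ Kg p h β τ) (univ.erase τ)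
        (fun τ' u => ∃ y ∈ Y, ∃ j ∈ J, (τ' - τ).val ≤ pos β τ j ∧
          ∑ j' ∈ J, cf β τ u⁻¹ j j' * y j' ≠ 0) R

/-- module B: abelian normal subgroups act trivially, restriction is injective -/
def BStmt : Prop :=
  ∀ n0 : ℕ, ∃ p0 : ℕ, ∀ (k : Type) [Field k] [CharP k 2] [IsAlgClosed k] (p h N : ℕ) [Fact p.Prime]
    [NeZero N] (I : Type) [Fintype I] [DecidableEq I] (β : I → ZMod N) (J C : Finset I) (c : ZMod N),
    p0 ≤ p → N ≤ h → J.card ≤ n0 → (∀ c', ∃ j ∈ J, β j = c') → Disjoint C J → (∀ d ∈ C, β d = c) →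
    ∀ t, t + 1 ≤ N → ∀ f : Finset (ZMod N) → Gp p h I → k,
      Inv (Kg p h β) (Pg p h β (J ∪ C) J) (Pg p h β (J ∪ C) J) f →
      Coc (Pg p h β (J ∪ C) J) univ t f →
      (∀ u ∈ Pg p h β C J,
        Cob (Kg p h β) (Pg p h β (J ∪ C) J) univ t fun T g => f T (u * g) + f T g) ∧
      (Cob (Kg p h β) (Pg p h β J J) univ t f → Cob (Kg p h β) (Pg p h β (J ∪ C) J) univ t f)

/-- module V: the vanishing theorem -/
def VanStmt : Prop :=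
  ∀ (N : ℕ) [NeZero N], 2 ≤ N → ∃ b p0 : ℕ, 1 ≤ b ∧ ∀ (p h : ℕ) [Fact p.Prime], p0 ≤ p → N ≤ h →
    ∀ t, t + 1 ≤ N → Acyc (ZMod 2) (Kg p h (Prod.fst : ZMod N × Fin b → ZMod N))
      (Pg p h Prod.fst univ univ) univ t

end Vale.Agent.P067
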