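import Vale.Agent.P067.Spec2
import Vale.Agent.P067.Zig

/-! P067, module V, part 1: transport of cocycles, averaging, matrix lemmas. -/

set_option linter.unusedSectionVars false

namespace Vale.Agent.P067
open Finset

namespace Va

section Abs
variable {G ι k : Type} [Group G] [Fintype ι] [DecidableEq ι] [AddCommGroup k]
  {K K' : ι → Subgroup G} {B B' : Subgroup G} {t : ℕ} {f f' : Finset ι → G → k} {φ : G → G}

/-- invariant cocycles -/
def Cy (K : ι → Subgroup G) (B : Subgroup G) (t : ℕ) (f : Finset ι → G → k) : Prop :=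
  Inv K B B f ∧ Coc B univ t f

/-- maps of coset complexes -/
def Mor (K K' : ι → Subgroup G) (B B' : Subgroup G) (φ : G → G) : Prop :=
  ∃ θ : G → G, (∀ g u, φ (g * u) = φ g * θ u) ∧ (∀ g ∈ B, φ g ∈ B' ∧ θ g ∈ B') ∧
    ∀ τ, ∀ g ∈ K τ, θ g ∈ K' τ

theorem Mor.inv (h : Mor K K' B B' φ) (hf : Inv K' B' B' f) : Inv K B B fun T g => f T (φ g) := by
  obtain ⟨θ, h1, h2, h3⟩ := h
  intro T g hg u hu hT
  dsimp only
  rw [h1]
  exact hf T _ (h2 g hg).1 _ (h2 u hu).2 (mem_KT.2 fun τ hτ => h3 τ u (mem_KT.1 hT τ hτ))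

theorem Mor.cy (h : Mor K K' B B' φ) (hf : Cy K' B' t f) : Cy K B t fun T g => f T (φ g) :=
  ⟨h.inv hf.1, fun T hT ht g hg => hf.2 T hT ht _ (h.choose_spec.2.1 g hg).1⟩

theorem Mor.cob (h : Mor K K' B B' φ) (hf : Cob K' B' univ t f) :
    Cob K B univ t fun T g => f T (φ g) :=
  let ⟨_, b1, b2⟩ := hf
  ⟨_, h.inv b1, fun T hT ht g hg => b2 T hT ht _ (h.choose_spec.2.1 g hg).1⟩

theorem mor_le (h : B ≤ B') : Mor K K B B' id :=
  ⟨id, fun _ _ => rfl, fun _ hg => ⟨h hg, h hg⟩, fun _ _ h => h⟩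

theorem mor_mul {g : G} (hg : g ∈ B) : Mor K K B B (g * ·) :=
  ⟨id, fun _ _ => (mul_assoc _ _ _).symm, fun _ hx => ⟨B.mul_mem hg hx, hx⟩, fun _ _ h => h⟩

theorem mor_hom (h1 : ∀ g u, φ (g * u) = φ g * φ u) (h2 : ∀ g ∈ B, φ g ∈ B')
    (h3 : ∀ τ, ∀ g ∈ K τ, φ g ∈ K' τ) : Mor K K' B B' φ :=
  ⟨φ, h1, fun g hg => ⟨h2 g hg, h2 g hg⟩, h3⟩

theorem Cy.add (h : Cy K B t f) (h' : Cy K B t f') : Cy K B t (f + f') :=
  ⟨Zig.inv_add h.1 h'.1, fun T hT ht g hg => by
    rw [Zig.dl_add, h.2 T hT ht g hg, h'.2 T hT ht g hg, add_zero]⟩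

theorem cob_add (h : Cob K B univ t f) (h' : Cob K B univ t f') : Cob K B univ t (f + f') :=
  let ⟨_, b1, b2⟩ := h
  let ⟨_, c1, c2⟩ := h'
  ⟨_, Zig.inv_add b1 c1, fun T hT ht g hg => by
    rw [Zig.dl_add, ← b2 T hT ht g hg, ← c2 T hT ht g hg]; rfl⟩

theorem dl_rel (s : ι ≃ ι) (T : Finset ι) (g : G) :
    dl (fun T => f (T.map s.toEmbedding)) T g = dl f (T.map s.toEmbedding) g := by
  simp only [dl, sum_map, map_erase]

theorem rel_inv (s : ι ≃ ι) (hf : Inv K B B f) :
    Inv (fun τ => K (s τ)) B B fun T => f (T.map s.toEmbedding) := fun T g hg u hu hT =>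
  hf _ g hg u hu (mem_KT.2 fun τ hτ => by
    obtain ⟨σ, h1, rfl⟩ := mem_map.1 hτ
    exact mem_KT.1 hT σ h1)

theorem rel_cy (s : ι ≃ ι) (hf : Cy K B t f) :
    Cy (fun τ => K (s τ)) B t fun T => f (T.map s.toEmbedding) :=
  ⟨rel_inv s hf.1, fun T _ ht g hg => by
    rw [dl_rel, hf.2 _ (subset_univ _) (by rw [card_map, ht]) g hg]⟩

theorem rel_cob (s : ι ≃ ι) (hf : Cob K B univ t f) :
    Cob (fun τ => K (s τ)) B univ t fun T => f (T.map s.toEmbedding) :=
  let ⟨_, b1, b2⟩ := hf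
  ⟨_, rel_inv s b1, fun T _ ht g hg => by
    rw [dl_rel]
    exact b2 _ (subset_univ _) (by rw [card_map, ht]) g hg⟩

theorem avg [Finite G] (τ0 : ι) (h2 : ∀ x : k, x + x = 0) (hB : Odd (Nat.card B))
    (hf : Cy K B t f) (h : ∀ u ∈ B, Cob K B univ t fun T g => f T (u * g) + f T g) :
    Cob K B univ t f := by
  have := Fintype.ofFinite B
  choose b b1 b2 using fun u : B => h u u.2
  let c : Finset ι → G → k := fun T _ => ∑ u : B, f T u
  refine ⟨(fun T _ => if τ0 ∈ T then 0 else c (insert τ0 T) 1) + fun T g => ∑ u, b u T g,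
    Zig.inv_add (fun _ _ _ _ _ _ => rfl) fun T g hg u hu hT =>
      sum_congr rfl fun v _ => b1 v T g hg u hu hT, fun T hT ht g hg => ?_⟩
  have e1 : dl (fun T g => ∑ u, b u T g) T g = c T 1 + f T g := by
    have e : ∑ u : B, f T (u * g) = c T 1 :=
      Fintype.sum_equiv (Equiv.mulRight (⟨g, hg⟩ : B)) _ _ fun _ => rfl
    obtain ⟨n, hn⟩ := hB
    rw [Nat.card_eq_fintype_card] at hn
    have e' : dl (fun T g => ∑ u, b u T g) T g = ∑ u : B, (f T (u * g) + f T g) :=
      sum_comm.trans (sum_congr rfl fun u _ => (b2 u T hT ht g hg).symm)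
    rw [e', ← e, sum_add_distrib, sum_const, card_univ, hn, add_smul, two_mul, add_smul, h2, zero_add,
      one_smul]
  have e2 : dl (fun T _ => if τ0 ∈ T then 0 else c (insert τ0 T) 1) T g = c T 1 := by
    by_cases h0 : τ0 ∈ T
    · rw [dl, ← add_sum_erase _ _ h0, if_neg (notMem_erase _ _), insert_erase h0,
        sum_eq_zero fun τ hτ => if_pos (mem_erase.2 ⟨(ne_of_mem_erase hτ).symm, h0⟩), add_zero]
    · have e : dl c (insert τ0 T) 1 = 0 := by
        rw [dl, sum_comm]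
        exact sum_eq_zero fun u _ =>
          hf.2 _ (subset_univ _) (by rw [card_insert_of_notMem h0, ht]) u u.2
      rw [Zig.dl_insert _ h0] at e
      rw [Zig.eq_of_add h2 e]
      exact sum_congr rfl fun τ _ => if_neg fun h => h0 (mem_of_mem_erase h)
  rw [Zig.dl_add, e1, e2, ← add_assoc, h2, zero_add]

end Abs

section Con
variable {p h N : ℕ} [Fact p.Prime] [NeZero N] {I : Type} [Fintype I] [DecidableEq I]
  {β β' : I → ZMod N}

/-- transpose -/
def tp (g : Gp p h I) : Gp p h I := ⟨g.1.transpose, by rw [Matrix.det_transpose, g.2]⟩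

theorem tp_mul (g u : Gp p h I) : tp (g * u) = tp u * tp g :=
  Subtype.ext (Matrix.transpose_mul _ _)

theorem tp_inv (g : Gp p h I) : (tp g)⁻¹ = tp g⁻¹ :=
  inv_eq_of_mul_eq_one_right (by
    rw [← tp_mul, inv_mul_cancel]
    exact Subtype.ext Matrix.transpose_one)

theorem tp_Pg (hβ : ∀ i, β' i = -β i) {r c : Finset I} {g : Gp p h I} (hg : g ∈ Pg p h β r c) :
    tp g ∈ Pg p h β' c r := mem_Pg.2 fun i j => by
  have := mem_Pg.1 hg j i
  have e : ((tp g).1 - 1) i j = (g.1 - 1) j i := by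
    simp [tp, Matrix.one_apply, eq_comm]
  rw [e, hβ, hβ, neg_sub_neg]
  exact ⟨this.1, fun h => (this.2 h).symm⟩

theorem tp_Kg (hβ : ∀ i, β' i = -β i) {τ : ZMod N} {g : Gp p h I} (hg : g ∈ Kg p h β τ) :
    tp g ∈ Kg p h β' (1 - τ) := by
  obtain ⟨a, ha, e⟩ := mem_Kg.1 hg
  have hp : ∀ i, pos β' (1 - τ) i + pos β τ i + 1 = N := fun i => by
    have h1 := pos_lt (β := β') (1 - τ) i
    have h2 := pos_lt (β := β) τ i
    have h3 : ((pos β' (1 - τ) i + pos β τ i + 1 : ℕ) : ZMod N) = 0 := by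
      push_cast
      rw [pos_cast, pos_cast, hβ]
      ring
    obtain ⟨c, hc⟩ := (ZMod.natCast_eq_zero_iff _ _).1 h3
    rcases c with _ | _ | c
    · omega
    · omega
    · rw [mul_add, mul_add] at hc
      omega
  refine mem_Kg.2 ⟨a.transpose, fun i j hij => ?_, ?_⟩
  · have := hp i
    have := hp j
    rw [Matrix.transpose_apply, ha j i (by omega), Matrix.one_apply, Matrix.one_apply]
    simp only [eq_comm]
  · ext i j
    have := hp i
    have := hp j
    rw [em_apply, Matrix.transpose_apply]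
    refine (congrFun (congrFun e j) i).trans ?_
    rw [em_apply]
    congr 2
    omega

theorem mor_tp (hβ : ∀ i, β' i = -β i) (r c : Finset I) :
    Mor (Kg p h β) (fun τ => Kg p h β' (Equiv.subLeft 1 τ)) (Pg p h β r c) (Pg p h β' c r)
      fun g => tp g⁻¹ :=
  mor_hom (fun g u => by rw [mul_inv_rev, tp_mul]) (fun g hg => tp_Pg hβ (inv_mem hg))
    fun _ _ hg => tp_Kg hβ (inv_mem hg)

variable (h) in
/-- constant matrices -/
noncomputable def cs (m : Matrix I I (ZMod p)) : Matrix I I (Rg p h) :=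
  (algebraMap (ZMod p) (Rg p h)).mapMatrix m

theorem cs_mul (m m' : Matrix I I (ZMod p)) : cs h (m * m') = cs h m * cs h m' := map_mul _ _ _

theorem cs_inv {m m' : Matrix I I (ZMod p)} (e : m' * m = 1) : cs h m' * cs h m = 1 := by
  rw [← cs_mul, e]
  exact map_one _

/-- conjugation by a constant matrix -/
noncomputable def cj {m m' : Matrix I I (ZMod p)} (e : m' * m = 1) (g : Gp p h I) : Gp p h I :=
  ⟨cs h m * g.1 * cs h m', by
    rw [Matrix.det_mul, Matrix.det_mul, g.2, mul_one, mul_comm, ← Matrix.det_mul, cs_inv e,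
      Matrix.det_one]⟩

/-- block diagonal -/
def Bd {X : Type} (γ : I → X) (m : Matrix I I (ZMod p)) : Prop := ∀ i j, m i j ≠ 0 → γ i = γ j

theorem Bd.mul {X : Type} {γ : I → X} {m m' : Matrix I I (ZMod p)} (b : Bd γ m) (b' : Bd γ m') :
    Bd γ (m * m') := fun i j h0 => by
  obtain ⟨l, -, h0⟩ := exists_ne_zero_of_sum_ne_zero (Matrix.mul_apply.symm.trans_ne h0)
  exact (b i l (left_ne_zero_of_mul h0)).trans (b' l j (right_ne_zero_of_mul h0))

theorem tv_ne {d d' i j : I} {c : ZMod p} (h0 : Matrix.transvection d d' c i j ≠ 0) :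
    i = j ∨ i = d ∧ j = d' := by
  by_contra h1
  rw [not_or] at h1
  refine h0 ?_
  rw [Matrix.transvection, Matrix.add_apply, Matrix.one_apply_ne h1.1,
    Matrix.single_apply_of_ne _ _ _ _ _ fun h => h1.2 ⟨h.1.symm, h.2.symm⟩, add_zero]

theorem bd_tv {X : Type} {γ : I → X} {d d' : I} (e : γ d = γ d') (c : ZMod p) :
    Bd γ (Matrix.transvection d d' c) := fun i j h0 => by
  rcases tv_ne h0 with rfl | ⟨rfl, rfl⟩
  exacts [rfl, e]

theorem mor_cj {m m' : Matrix I I (ZMod p)} (e : m' * m = 1) (b : Bd β m) (b' : Bd β m')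
    {r c r' c' : Finset I} (h1 : ∀ i l, m i l ≠ 0 → l ∈ r → i ∈ r')
    (h2 : ∀ l j, m' l j ≠ 0 → l ∈ c → j ∈ c') :
    Mor (Kg p h β) (Kg p h β) (Pg p h β r c) (Pg p h β r' c') (cj e) := by
  have e' : m * m' = 1 := mul_eq_one_comm.1 e
  refine mor_hom (fun g u => Subtype.ext ?_) (fun g hg => mem_Pg.2 fun i j => ?_) fun τ g hg => ?_
  · change cs h m * (g.1 * u.1) * cs h m' = cs h m * g.1 * cs h m' * (cs h m * u.1 * cs h m')
    simp only [mul_assoc]
    rw [← mul_assoc (cs h m'), cs_inv e, one_mul]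
  · have e1 : ((cj e g).1 - 1) i j = ∑ l', ∑ l, (m i l * m' l' j) • (g.1 - 1) l l' := by
      have : (cj e g).1 - 1 = cs h m * (g.1 - 1) * cs h m' := by
        rw [mul_sub, sub_mul, mul_one, cs_inv e']
        rfl
      rw [this]
      simp only [Matrix.mul_apply, sum_mul, cs, RingHom.mapMatrix_apply, Matrix.map_apply,
        Algebra.smul_def, map_mul]
      exact sum_congr rfl fun _ _ => sum_congr rfl fun _ _ => by ring
    have hP := mem_Pg.1 hg
    rw [e1]
    refine ⟨sum_mem fun l' _ => sum_mem fun l _ => ?_, fun h0 => ?_⟩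
    · by_cases h0 : m i l * m' l' j = 0
      · rw [h0, zero_smul]
        exact zero_mem _
      · rw [b i l (left_ne_zero_of_mul h0), ← b' l' j (right_ne_zero_of_mul h0)]
        exact Submodule.smul_mem _ _ (hP l l').1
    · obtain ⟨l', -, h0⟩ := exists_ne_zero_of_sum_ne_zero h0
      obtain ⟨l, -, h0⟩ := exists_ne_zero_of_sum_ne_zero h0
      have h3 := left_ne_zero_of_smul h0
      have h4 := (hP l l').2 (right_ne_zero_of_smul h0)
      exact ⟨h1 i l (left_ne_zero_of_mul h3) h4.1, h2 l' j (right_ne_zero_of_mul h3) h4.2⟩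
  · obtain ⟨a, ha, ea⟩ := mem_Kg.1 hg
    refine mem_Kg.2 ⟨m * a * m', fun i j hij => ?_, ?_⟩
    · have : m * a * m' = m * (a - 1) * m' + 1 := by
        rw [mul_sub, sub_mul, mul_one, e', sub_add_cancel]
      rw [this, Matrix.add_apply, add_eq_right]
      simp only [Matrix.mul_apply, sum_mul]
      refine sum_eq_zero fun l' _ => sum_eq_zero fun l _ => ?_
      by_contra h0
      have h3 := b i l (left_ne_zero_of_mul (left_ne_zero_of_mul h0))
      have h4 := b' l' j (right_ne_zero_of_mul h0)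
      refine right_ne_zero_of_mul (left_ne_zero_of_mul h0) ?_
      rw [Matrix.sub_apply, ha l l' (by simpa only [pos, h3, h4] using hij), sub_self]
    · ext i j
      simp only [cj, ea, em_apply, Matrix.mul_apply, sum_mul, sum_smul, cs,
        RingHom.mapMatrix_apply, Matrix.map_apply]
      refine sum_congr rfl fun l' _ => sum_congr rfl fun l _ => ?_
      by_cases h3 : m i l = 0
      · simp [h3]
      by_cases h4 : m' l' j = 0
      · simp [h4]
      simp only [pos, b i l h3, b' l' j h4, Algebra.smul_def, map_mul]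
      ring

theorem odd_card (hp : 3 ≤ p) (r c : Finset I) : Odd (Nat.card (Pg p h β r c)) := by
  rw [← Nat.not_even_iff_odd, even_iff_two_dvd]
  intro hd
  obtain ⟨g, hg⟩ := exists_prime_orderOf_dvd_card' 2 hd
  have h1 : g * g = 1 := by rw [← pow_two, ← hg, pow_orderOf_eq_one]
  have h2 : g.1.1 * g.1.1 = 1 := congrArg (fun x : Pg p h β r c => x.1.1) h1
  have h3 : (2 : ZMod p) ≠ 0 := fun h0 => by
    have := Nat.le_of_dvd two_pos ((ZMod.natCast_eq_zero_iff 2 p).1 (by exact_mod_cast h0))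
    omega
  have h4 : g.1.1 - 1 = (-(2 : ZMod p)⁻¹) • ((g.1.1 - 1) * (g.1.1 - 1)) := by
    have : (g.1.1 - 1) * (g.1.1 - 1) = (-(2 : ZMod p)) • (g.1.1 - 1) := by
      rw [mul_sub, sub_mul, h2, neg_smul, two_smul]
      noncomm_ring
    rw [this, smul_smul, neg_mul_neg, inv_mul_cancel₀ h3, one_smul]
  have h5 : ∀ n i j, pi p h ^ n ∣ (g.1.1 - 1) i j := fun n => by
    induction n with
    | zero => simp
    | succ n ih =>
      intro i j
      rw [h4, Matrix.smul_apply, Matrix.mul_apply, Algebra.smul_def, pow_succ]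
      exact Dvd.dvd.mul_left (dvd_sum fun l _ =>
        mul_dvd_mul (ih i l) (Ar_dvd (mem_Pg.1 g.2 l j).1)) _
  have h6 : g = 1 := Subtype.ext (Subtype.ext (sub_eq_zero.1 (by
    ext i j
    have := h5 h i j
    rwa [pi_pow p h le_rfl, zero_dvd_iff] at this)))
  rw [h6, orderOf_one] at hg
  omega

theorem unit_inv {x : Rg p h} (hx : x ∈ Ar p h (0 : ZMod N)) :
    ∃ v, (x + 1) * v = 1 ∧ v - 1 ∈ Ar p h (0 : ZMod N) := by
  have h1 : (x + 1) * ∑ i ∈ range h, (-x) ^ i = 1 := by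
    have := mul_neg_geom_sum (-x) h
    have h0 : (-x) ^ h = 0 := by
      obtain ⟨y, rfl⟩ := Ar_dvd hx
      rw [neg_pow, mul_pow, pi_pow p h le_rfl, zero_mul, mul_zero]
    rwa [h0, sub_zero, sub_neg_eq_add, add_comm] at this
  refine ⟨_, h1, ?_⟩
  have h2 : ∀ i, -x * (-x) ^ i ∈ Ar p h (0 : ZMod N) := fun i => by
    induction i with
    | zero => simpa using hx
    | succ i ih =>
      have := Ar_mul ih (neg_mem hx)
      rwa [add_zero, mul_assoc, ← pow_succ] at this
  have h3 : ∑ i ∈ range h, (-x) ^ i - 1 = ∑ i ∈ range h, -x * (-x) ^ i := by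
    rw [← mul_sum]
    linear_combination h1
  rw [h3]
  exact sum_mem fun i _ => h2 i

theorem col_fix {J : Finset I} {d j0 : I} (hd : d ∈ J) (hj : j0 ∈ J) (hne : j0 ≠ d)
    {T : Finset (ZMod N)} {g : Gp p h I} (hg : g ∈ Pg p h β J J ⊓ KT (Kg p h β) T) :
    ∃ y ∈ Pg p h β J J ⊓ KT (Kg p h β) T, (∀ d', d' ≠ j0 → d' ≠ d →
      y ∈ Pg p h β univ (univ.erase d')) ∧ g * y ∈ Pg p h β univ (univ.erase d) := by
  have hP := mem_Pg.1 (inv_mem hg.1)
  have h0 := (hP d d).1
  rw [sub_self] at h0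
  obtain ⟨v, v1, v2⟩ := unit_inv h0
  rw [Matrix.sub_apply, Matrix.one_apply_eq, sub_add_cancel] at v1
  let y : Gp p h I := ⟨(1 : Matrix I I (Rg p h)).updateCol d (fun i => g⁻¹.1 i d) *
    Matrix.diagonal (Function.update 1 j0 v), by
      rw [Matrix.det_mul, ← Matrix.cramer_apply, Matrix.cramer_one, Matrix.det_diagonal,
        prod_update_of_mem (mem_univ _)]
      simpa using v1⟩
  have hy : ∀ i j, (y.1 - 1) i j = if j = d then (g⁻¹.1 - 1) i d else
      if i = j0 ∧ j = j0 then v - 1 else 0 := fun i j => by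
    simp only [y, Matrix.sub_apply, Matrix.mul_diagonal, Matrix.updateCol_apply,
      Function.update_apply, Matrix.one_apply, Pi.one_apply]
    by_cases h1 : j = d
    · subst h1
      simp [hne.symm]
    · by_cases h2 : j = j0
      · subst h2
        by_cases h3 : i = j <;> simp [h1, h3]
      · simp [h1, h2]
  have y1 : y ∈ Pg p h β J J := mem_Pg.2 fun i j => by
    rw [hy]
    split_ifs with h1 h2
    · subst h1
      exact hP i j
    · obtain ⟨rfl, rfl⟩ := h2
      rw [sub_self]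
      exact ⟨v2, fun _ => ⟨hj, hj⟩⟩
    · simp
  have key : ∀ z ∈ Pg p h β J J, ∀ d', (∀ i, (z.1 - 1) i d' = 0) →
      z ∈ Pg p h β univ (univ.erase d') := fun z hz d' h' => mem_Pg.2 fun i j =>
    ⟨(mem_Pg.1 hz i j).1, fun h0 => ⟨mem_univ _, mem_erase.2 ⟨by
      rintro rfl
      exact h0 (h' i), mem_univ _⟩⟩⟩
  refine ⟨y, ⟨y1, mem_KT.2 fun τ hτ => ?_⟩, fun d' h1 h2 => key y y1 d' fun i => ?_,
    key _ (mul_mem hg.1 y1) d fun i => ?_⟩
  · obtain ⟨a, ha, ea⟩ := mem_Kg.1 (inv_mem (mem_KT.1 hg.2 τ hτ))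
    rw [ea, em_tri ha d d (lt_irrefl _), Matrix.one_apply_eq, one_mul] at v1
    refine mem_Kg.2 ⟨(1 : Matrix I I (ZMod p)).updateCol d fun i => a i d, fun i j hij => ?_, ?_⟩
    · rw [Matrix.updateCol_apply]
      split_ifs with h1
      · subst h1
        exact ha i j hij
      · rfl
    · ext i j
      have := hy i j
      rw [Matrix.sub_apply, sub_eq_iff_eq_add] at this
      rw [this, em_apply, Matrix.updateCol_apply, v1, sub_self, ite_self]
      split_ifs with h1
      · subst h1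
        rw [Matrix.sub_apply, sub_add_cancel, ea, em_apply]
      · rw [zero_add, ← em_one (β := β) τ, em_apply]
  · rw [hy, if_neg h2, if_neg fun h => h1 h.2]
  · have e : ∀ l, y.1 l d = g⁻¹.1 l d := fun l => by
      have := hy l d
      rwa [if_pos rfl, Matrix.sub_apply, Matrix.sub_apply, sub_left_inj] at this
    rw [Matrix.sub_apply, Matrix.SpecialLinearGroup.coe_mul, Matrix.mul_apply,
      sum_congr rfl fun l _ => by rw [e l], ← Matrix.mul_apply,
      ← Matrix.SpecialLinearGroup.coe_mul, mul_inv_cancel, Matrix.SpecialLinearGroup.coe_one,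
      sub_self]

end Con

end Va

end Vale.Agent.P067
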